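import Crest.Agent.R134.Defs

/-! Small spectral projections of a Haar unitary. -/

set_option autoImplicit false

namespace Crest.Agent.R134

open Crest.Agent.R95
open scoped ComplexConjugate InnerProductSpace Topology
open MeasureTheory Filter

variable {A : Type*} [CStarAlgebra A] {K : Type*} [NormedAddCommGroup K] [InnerProductSpace ℂ K]

section General

variable {X : Type*} [PseudoMetricSpace X] [CompactSpace X] [MeasurableSpace X] [BorelSpace X]
  {μ : Measure X} [IsFiniteMeasure μ]

lemma proj_norm_sq (T : TrModel A K) (Φ : C(X, ℂ) →⋆ₐ[ℂ] A)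
    (hΦ : ∀ f, T.τ (Φ f) = ∫ x, f x ∂μ) (f : C(X, ℂ)) :
    ‖T.ι (Φ f)‖ ^ 2 = ∫ x, ‖f x‖ ^ 2 ∂μ := by
  rw [T.norm_sq_eq, ← map_star, ← map_mul, hΦ]
  have : ∀ x, (star f * f) x = ((‖f x‖ ^ 2 : ℝ) : ℂ) := by
    intro x
    simp [Complex.conj_mul']
  simp_rw [this]
  rw [integral_complex_ofReal, Complex.ofReal_re]

/-- dominated convergence in the 2-norm -/
lemma proj_tendsto_zero (T : TrModel A K) (Φ : C(X, ℂ) →⋆ₐ[ℂ] A)
    (hΦ : ∀ f, T.τ (Φ f) = ∫ x, f x ∂μ) {ι : Type*} {l : Filter ι} [l.IsCountablyGenerated]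
    (F : ι → C(X, ℂ)) (C : ℝ) (hb : ∀ i x, ‖F i x‖ ≤ C)
    (hp : ∀ x, Tendsto (fun i => F i x) l (𝓝 0)) :
    Tendsto (fun i => ‖T.ι (Φ (F i))‖) l (𝓝 0) := by
  have h1 : Tendsto (fun i => ∫ x, ‖F i x‖ ^ 2 ∂μ) l (𝓝 (∫ _x, (0 : ℝ) ∂μ)) := by
    refine tendsto_integral_filter_of_dominated_convergence (fun _ => C ^ 2) ?_ ?_
      (integrable_const _) ?_
    · exact Eventually.of_forall fun i => ((F i).continuous.norm.pow 2).aestronglyMeasurable
    · refine Eventually.of_forall fun i => ae_of_all _ fun x => ?_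
      rw [Real.norm_eq_abs, abs_of_nonneg (sq_nonneg _)]
      exact pow_le_pow_left₀ (norm_nonneg _) (hb i x) 2
    · refine ae_of_all _ fun x => ?_
      simpa using ((hp x).norm.pow 2)
  simp_rw [← proj_norm_sq T Φ hΦ] at h1
  have h2 := h1.sqrt
  simpa using h2

/-- the continuous approximants of the indicator of an open set -/
noncomputable def projApprox (U : Set X) (n : ℕ) : C(X, ℂ) :=
  ⟨fun x => ((min 1 (n * Metric.infDist x Uᶜ) : ℝ) : ℂ),
    Complex.continuous_ofReal.comp
      (continuous_const.min (continuous_const.mul (Metric.continuous_infDist_pt _)))⟩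

omit [CompactSpace X] [MeasurableSpace X] [BorelSpace X] in
lemma projApprox_apply (U : Set X) (n : ℕ) (x : X) :
    projApprox U n x = ((min 1 (n * Metric.infDist x Uᶜ) : ℝ) : ℂ) := rfl

omit [CompactSpace X] [MeasurableSpace X] [BorelSpace X] in
lemma projApprox_norm_le (U : Set X) (n : ℕ) (x : X) : ‖projApprox U n x‖ ≤ 1 := by
  rw [projApprox_apply, Complex.norm_real, Real.norm_eq_abs, abs_of_nonneg]
  · exact min_le_left _ _
  · exact le_min zero_le_one (mul_nonneg (Nat.cast_nonneg _) Metric.infDist_nonneg)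

omit [CompactSpace X] [MeasurableSpace X] [BorelSpace X] in
lemma projApprox_of_notMem {U : Set X} (n : ℕ) {x : X} (hx : x ∉ U) : projApprox U n x = 0 := by
  rw [projApprox_apply, Metric.infDist_zero_of_mem (show x ∈ Uᶜ from hx)]
  simp

omit [CompactSpace X] [MeasurableSpace X] [BorelSpace X] in
lemma projApprox_star (U : Set X) (n : ℕ) : star (projApprox U n) = projApprox U n := by
  ext x
  rw [ContinuousMap.star_apply, projApprox_apply]
  exact Complex.conj_ofReal _

omit [CompactSpace X] [MeasurableSpace X] [BorelSpace X] in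
lemma projApprox_tendsto {U : Set X} (hU : IsOpen U) (hne : Uᶜ.Nonempty) (x : X) :
    Tendsto (fun n => projApprox U n x) atTop (𝓝 (U.indicator 1 x)) := by
  by_cases hx : x ∈ U
  · have hpos : 0 < Metric.infDist x Uᶜ :=
      (hU.isClosed_compl.notMem_iff_infDist_pos hne).1 (fun h => h hx)
    rw [Set.indicator_of_mem hx]
    refine tendsto_const_nhds.congr' ?_
    have : Tendsto (fun n : ℕ => (n : ℝ) * Metric.infDist x Uᶜ) atTop atTop :=
      tendsto_natCast_atTop_atTop.atTop_mul_const hpos
    filter_upwards [this.eventually_ge_atTop 1] with n hn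
    rw [projApprox_apply, min_eq_left hn]
    simp
  · rw [Set.indicator_of_notMem hx]
    simp_rw [projApprox_of_notMem _ hx]
    exact tendsto_const_nhds

/-- the spectral projection of an open set -/
lemma proj_exists (T : TrModel A K) (Φ : C(X, ℂ) →⋆ₐ[ℂ] A)
    (hΦ : ∀ f, T.τ (Φ f) = ∫ x, f x ∂μ) {U : Set X} (hU : IsOpen U) (hne : Uᶜ.Nonempty) :
    ∃ p : A, Tendsto (fun n => T.ι (Φ (projApprox U n))) atTop (𝓝 (T.ι p)) ∧
      IsStarProjection p ∧ T.τ p = μ.real U := by
  have hnorm : ∀ n, ‖Φ (projApprox U n)‖ ≤ 1 := fun n =>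
    (NonUnitalStarAlgHom.norm_apply_le Φ _).trans
      ((ContinuousMap.norm_le _ zero_le_one).2 (projApprox_norm_le U n))
  have hc : CauchySeq fun n => T.ι (Φ (projApprox U n)) := by
    rw [cauchySeq_iff_tendsto_dist_atTop_0]
    have h := proj_tendsto_zero T Φ hΦ (l := (atTop : Filter (ℕ × ℕ)))
      (fun n => projApprox U n.1 - projApprox U n.2) 2 (fun n x => by
        have h1 := projApprox_norm_le U n.1 x
        have h2 := projApprox_norm_le U n.2 x
        have h3 := norm_sub_le (projApprox U n.1 x) (projApprox U n.2 x)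
        rw [ContinuousMap.sub_apply]
        linarith) (fun x => by
        have h0 := projApprox_tendsto hU hne x
        have h1 := h0.comp (tendsto_fst (f := (atTop : Filter ℕ)) (g := (atTop : Filter ℕ)))
        have h2 := h0.comp (tendsto_snd (f := (atTop : Filter ℕ)) (g := (atTop : Filter ℕ)))
        rw [prod_atTop_atTop_eq] at h1 h2
        simpa using h1.sub h2)
    refine h.congr fun n => ?_
    rw [dist_eq_norm, map_sub, map_sub]
  obtain ⟨p, -, hp⟩ := T.complete _ 1 hnorm hc
  refine ⟨p, hp, ⟨?_, ?_⟩, ?_⟩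
  · have h1 := T.tendsto_mul hnorm hp hp
    have h2 := proj_tendsto_zero T Φ hΦ (l := (atTop : Filter ℕ))
      (fun n => projApprox U n * projApprox U n - projApprox U n) 2 (fun n x => by
        have h1 := projApprox_norm_le U n x
        have h3 := norm_sub_le (projApprox U n x * projApprox U n x) (projApprox U n x)
        have h4 : ‖projApprox U n x * projApprox U n x‖ ≤ 1 := by
          rw [norm_mul]; exact mul_le_one₀ h1 (norm_nonneg _) h1
        rw [ContinuousMap.sub_apply, ContinuousMap.mul_apply]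
        linarith) (fun x => by
        have h0 := projApprox_tendsto hU hne x
        have h1 := (h0.mul h0).sub h0
        have h2 : U.indicator (1 : X → ℂ) x * U.indicator 1 x - U.indicator 1 x = 0 := by
          by_cases hx : x ∈ U <;> simp [hx]
        rw [h2] at h1
        exact h1)
    have h3 : Tendsto (fun n => T.ι (Φ (projApprox U n) * Φ (projApprox U n)) -
        T.ι (Φ (projApprox U n))) atTop (𝓝 0) := by
      rw [tendsto_zero_iff_norm_tendsto_zero]
      refine h2.congr fun n => ?_
      rw [map_sub, map_mul, map_sub]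
    have h4 := tendsto_nhds_unique (h1.sub hp) h3
    exact T.inj (sub_eq_zero.1 h4)
  · have h1 := T.tendsto_star hp
    simp_rw [← map_star, projApprox_star] at h1
    exact T.tendsto_unique h1 hp
  · have h1 : Tendsto (fun n => T.τ (Φ (projApprox U n))) atTop (𝓝 (T.τ p)) := by
      simp_rw [T.τ_apply]
      exact tendsto_const_nhds.inner hp
    simp_rw [hΦ] at h1
    have h2 : Tendsto (fun n => ∫ x, projApprox U n x ∂μ) atTop
        (𝓝 (∫ x, U.indicator (1 : X → ℂ) x ∂μ)) :=
      tendsto_integral_of_dominated_convergence (fun _ => 1)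
        (fun n => (projApprox U n).continuous.aestronglyMeasurable) (integrable_const _)
        (fun n => ae_of_all _ (projApprox_norm_le U n))
        (ae_of_all _ (projApprox_tendsto hU hne))
    rw [tendsto_nhds_unique h1 h2]
    have := integral_indicator_const (μ := μ) (1 : ℂ) hU.measurableSet
    refine this.trans ?_
    simp

end General

/-- the continuous functional calculus of a unitary, on the additive circle -/
lemma proj_exists_hom (g : unitary A) :
    ∃ Φ : C(UnitAddCircle, ℂ) →⋆ₐ[ℂ] A, ∀ m : ℤ, Φ (fourier m) = ((g ^ m : unitary A) : A) := by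
  have hn : IsStarNormal (g : A) := inferInstance
  let e : C(spectrum ℂ (g : A), Circle) :=
    ⟨fun z => ⟨z.1, Unitary.spectrum_subset_circle g z.2⟩,
      continuous_subtype_val.subtype_mk _⟩
  let e' : C(spectrum ℂ (g : A), UnitAddCircle) :=
    ((AddCircle.homeomorphCircle (T := 1) one_ne_zero).symm : C(Circle, UnitAddCircle)).comp e
  let Φ : C(UnitAddCircle, ℂ) →⋆ₐ[ℂ] A :=
    (cfcHom hn).comp (ContinuousMap.compStarAlgHom' ℂ ℂ e')
  have h1 : Φ (fourier 1) = g := by
    have : (ContinuousMap.compStarAlgHom' ℂ ℂ e') (fourier 1) =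
        (ContinuousMap.id ℂ).restrict (spectrum ℂ (g : A)) := by
      ext z
      change fourier 1 ((AddCircle.homeomorphCircle (T := 1) one_ne_zero).symm (e z)) = z.1
      rw [fourier_one, ← AddCircle.homeomorphCircle_apply one_ne_zero, Homeomorph.apply_symm_apply]
      rfl
    change cfcHom hn ((ContinuousMap.compStarAlgHom' ℂ ℂ e') (fourier 1)) = g
    rw [this, cfcHom_id]
  have hadd : ∀ m n : ℤ, (fourier (m + n) : C(UnitAddCircle, ℂ)) = fourier m * fourier n := by
    intro m n; ext x; rw [fourier_add]; rfl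
  have hneg : (fourier (-1) : C(UnitAddCircle, ℂ)) = star (fourier 1) := by
    ext x; rw [fourier_neg]; rfl
  refine ⟨Φ, fun m => ?_⟩
  induction m using Int.induction_on with
  | zero =>
    have : (fourier 0 : C(UnitAddCircle, ℂ)) = 1 := by ext x; rw [fourier_zero]; rfl
    rw [this, map_one, zpow_zero]; rfl
  | succ n ih => rw [hadd, map_mul, ih, h1, zpow_add_one]; rfl
  | pred n ih =>
    rw [sub_eq_add_neg, hadd, map_mul, ih, hneg, map_star, h1, zpow_add, zpow_neg_one]; rfl

lemma proj_continuous_τ (T : TrModel A K) : Continuous T.τ :=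
  AddMonoidHomClass.continuous_of_bound T.τ 1 fun a => by
    rw [one_mul]; exact (T.norm_τ_le a).trans (T.norm_le a)

lemma proj_isClosed_cl2 (T : TrModel A K) (B : StarSubalgebra ℂ A) :
    IsClosed (T.cl2 B : Set A) := by
  refine isClosed_of_closure_subset fun x hx ε hε => ?_
  obtain ⟨y, hy, hxy⟩ := Metric.mem_closure_iff.1 hx (ε / 2) (by positivity)
  obtain ⟨b, hb, hyb⟩ := hy (ε / 2) (by positivity)
  refine ⟨b, hb, ?_⟩
  rw [show x - b = (x - y) + (y - b) by abel, map_add]
  have h1 := T.norm_le (x - y)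
  rw [dist_eq_norm] at hxy
  linarith [norm_add_le (T.ι (x - y)) (T.ι (y - b))]

lemma proj_mem_cl2_of_tendsto (T : TrModel A K) (B : StarSubalgebra ℂ A) {x : ℕ → A} {p : A}
    (hx : ∀ n, x n ∈ T.cl2 B) (hp : Tendsto (fun n => T.ι (x n)) atTop (𝓝 (T.ι p))) :
    p ∈ T.cl2 B := by
  refine T.cl2_le_of_le_cl2 (B := T.cl2 B) le_rfl fun ε hε => ?_
  obtain ⟨n, hn⟩ := (Metric.tendsto_atTop.1 hp ε hε)
  refine ⟨x n, hx n, ?_⟩
  rw [map_sub, ← dist_eq_norm, dist_comm]
  exact hn n le_rfl

/-- a closed property of continuous functions on the circle can be checked on monomials -/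
lemma proj_fourier_induction {C : C(UnitAddCircle, ℂ) → Prop} (hcl : IsClosed {f | C f})
    (hm : ∀ m, C (fourier m)) (h0 : C 0) (ha : ∀ f g, C f → C g → C (f + g))
    (hs : ∀ (c : ℂ) f, C f → C (c • f)) (f : C(UnitAddCircle, ℂ)) : C f := by
  have h1 : (Submodule.span ℂ (Set.range (@fourier 1)) : Set C(UnitAddCircle, ℂ)) ⊆ {f | C f} := by
    intro f hf
    induction hf using Submodule.span_induction with
    | mem x hx => obtain ⟨m, rfl⟩ := hx; exact hm m
    | zero => exact h0
    | add x y _ _ hx hy => exact ha _ _ hx hy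
    | smul c x _ hx => exact hs _ _ hx
  have h2 : f ∈ (Submodule.span ℂ (Set.range (@fourier 1))).topologicalClosure := by
    rw [span_fourier_closure_eq_top]; trivial
  exact closure_minimal h1 hcl h2

lemma proj_integral_fourier {m : ℤ} (hm : m ≠ 0) :
    ∫ x : UnitAddCircle, fourier m x = 0 :=
  integral_eq_zero_of_add_right_eq_neg (fourier_add_half_inv_index hm one_pos)

lemma proj_dist_ge {r : ℕ} (a b : Fin r) (hab : a ≠ b) :
    1 / (r : ℝ) ≤ dist (((a : ℕ) / r : ℝ) : UnitAddCircle) (((b : ℕ) / r : ℝ) : UnitAddCircle) := by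
  have hr : (0 : ℝ) < r := by exact_mod_cast a.pos
  rw [dist_eq_norm, ← AddCircle.coe_sub, UnitAddCircle.norm_eq]
  generalize round (((a : ℕ) / r : ℝ) - ((b : ℕ) / r : ℝ)) = k
  have h1 : ((a : ℕ) : ℤ) - (b : ℕ) - r * k ≠ 0 := by
    intro h
    have ha := a.2
    have hb := b.2
    have hne : (a : ℕ) ≠ b := fun h => hab (Fin.ext h)
    rcases lt_trichotomy k 0 with hk | hk | hk
    · nlinarith
    · subst hk; omega
    · nlinarith
  have h2 : (1 : ℝ) ≤ |((a : ℕ) : ℝ) - (b : ℕ) - r * k| := by
    exact_mod_cast Int.one_le_abs h1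
  have h3 : ((a : ℕ) / r : ℝ) - ((b : ℕ) / r : ℝ) - k = (((a : ℕ) : ℝ) - (b : ℕ) - r * k) / r := by
    field_simp
  rw [h3, abs_div, abs_of_pos hr]
  gcongr

theorem exists_small_projections (T : TrModel A K) (g : unitary A)
    (hg : ∀ m : ℤ, m ≠ 0 → T.τ ((g ^ m : unitary A) : A) = 0) {η : ℝ} (hη : 0 < η) :
    ∃ (r : ℕ) (p : Fin r → A),
      (∀ a, IsStarProjection (p a) ∧ p a ∈ T.cl2 (StarAlgebra.adjoin ℂ {(g : A)}) ∧
        (T.τ (p a)).re ≤ η) ∧
      (∀ a b, a ≠ b → p a * p b = 0) ∧ 1 - η ≤ ∑ a, (T.τ (p a)).re := by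
  obtain ⟨Φ, hΦm⟩ := proj_exists_hom g
  have hΦc : Continuous Φ :=
    AddMonoidHomClass.continuous_of_bound Φ 1 fun a => by
      rw [one_mul]; exact NonUnitalStarAlgHom.norm_apply_le Φ a
  have hΦ : ∀ f, T.τ (Φ f) = ∫ x, f x := by
    have hint : ∀ f : C(UnitAddCircle, ℂ), Integrable f := fun f =>
      f.continuous.integrable_of_hasCompactSupport (HasCompactSupport.of_compactSpace _)
    refine proj_fourier_induction ?_ ?_ ?_ ?_ ?_
    · refine isClosed_eq ((proj_continuous_τ T).comp hΦc) ?_
      refine (LipschitzWith.of_dist_le_mul (K := 1) fun f f' => ?_).continuous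
      rw [dist_eq_norm, ← integral_sub (hint f) (hint f'), NNReal.coe_one, one_mul]
      have := norm_integral_le_of_norm_le_const (μ := volume) (C := dist f f')
        (f := fun x => f x - f' x) (ae_of_all _ fun x => by
          rw [← dist_eq_norm]; exact ContinuousMap.dist_apply_le_dist x)
      simpa [Measure.real] using this
    · intro m
      rw [hΦm]
      by_cases hm : m = 0
      · subst hm; simp [Measure.real]
      · rw [hg m hm, proj_integral_fourier hm]
    · simp
    · intro f f' hf hf'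
      rw [map_add, map_add, hf, hf', ← integral_add (hint f) (hint f')]; rfl
    · intro c f hf
      rw [map_smul, map_smul, hf, ← integral_smul]; rfl
  have hmem : ∀ f, Φ f ∈ T.cl2 (StarAlgebra.adjoin ℂ {(g : A)}) := by
    refine proj_fourier_induction ((proj_isClosed_cl2 T _).preimage hΦc) ?_ ?_ ?_ ?_
    · intro m
      rw [hΦm]
      apply T.le_cl2
      have hg1 : (g : A) ∈ StarAlgebra.adjoin ℂ {(g : A)} := StarAlgebra.subset_adjoin _ _ rfl
      induction m using Int.induction_on with
      | zero => rw [zpow_zero]; exact one_mem _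
      | succ n ih => rw [zpow_add_one]; exact mul_mem ih hg1
      | pred n ih => rw [zpow_sub_one]; exact mul_mem ih (star_mem hg1)
    · rw [map_zero]; exact zero_mem _
    · intro f f' hf hf'; rw [map_add]; exact add_mem hf hf'
    · intro c f hf; rw [map_smul]; exact SMulMemClass.smul_mem _ hf
  obtain ⟨r, hr⟩ := exists_nat_ge (max 2 (1 / η))
  have hr2 : (2 : ℝ) ≤ r := (le_max_left _ _).trans hr
  have hrη : 1 / η ≤ r := (le_max_right _ _).trans hr
  have hr0 : (0 : ℝ) < r := by linarith
  let U : Fin r → Set UnitAddCircle := fun a =>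
    Metric.ball (((a : ℕ) / r : ℝ) : UnitAddCircle) (1 / (2 * r))
  have hvol : ∀ a, volume.real (U a) = 1 / r := by
    intro a
    rw [Measure.real, ← measure_congr AddCircle.closedBall_ae_eq_ball, AddCircle.volume_closedBall,
      show 2 * (1 / (2 * (r : ℝ))) = 1 / r by field_simp, min_eq_right,
      ENNReal.toReal_ofReal (by positivity)]
    rw [div_le_one hr0]; linarith
  have hne : ∀ a, (U a)ᶜ.Nonempty := by
    intro a
    rw [Set.nonempty_compl]
    intro h
    have h1 := hvol a
    rw [h] at h1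
    have h2 : (1 : ℝ) = 1 / r := by simpa [Measure.real] using h1
    rw [eq_div_iff hr0.ne'] at h2
    linarith
  have hdisj : ∀ a b, a ≠ b → Disjoint (U a) (U b) := by
    intro a b hab
    refine Metric.ball_disjoint_ball ?_
    rw [show 1 / (2 * (r : ℝ)) + 1 / (2 * r) = 1 / r by field_simp; norm_num]
    exact proj_dist_ge a b hab
  choose p hp hproj hτ using fun a => proj_exists T Φ hΦ (U := U a) Metric.isOpen_ball (hne a)
  refine ⟨r, p, fun a => ⟨hproj a, proj_mem_cl2_of_tendsto T _ (fun n => hmem _) (hp a), ?_⟩,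
    fun a b hab => ?_, ?_⟩
  · rw [hτ, hvol, Complex.ofReal_re, div_le_iff₀ hr0]
    rw [div_le_iff₀ hη] at hrη
    linarith
  · have hnorm : ∀ n, ‖Φ (projApprox (U a) n)‖ ≤ 1 := fun n =>
      (NonUnitalStarAlgHom.norm_apply_le Φ _).trans
        ((ContinuousMap.norm_le _ zero_le_one).2 (projApprox_norm_le _ n))
    have h1 := T.tendsto_mul hnorm (hp a) (hp b)
    have h2 : ∀ n, Φ (projApprox (U a) n) * Φ (projApprox (U b) n) = 0 := by
      intro n
      have : projApprox (U a) n * projApprox (U b) n = 0 := by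
        ext x
        rw [ContinuousMap.mul_apply]
        by_cases hx : x ∈ U a
        · rw [projApprox_of_notMem n (Set.disjoint_left.1 (hdisj a b hab) hx)]; simp
        · rw [projApprox_of_notMem n hx]; simp
      rw [← map_mul, this, map_zero]
    simp_rw [h2] at h1
    exact T.tendsto_unique h1 tendsto_const_nhds
  · simp_rw [hτ, hvol, Complex.ofReal_re]
    rw [Finset.sum_const, Finset.card_univ, Fintype.card_fin, nsmul_eq_mul,
      mul_one_div_cancel hr0.ne']
    linarith

end Crest.Agent.R134
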