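import Crest.Agent.R134.Rot
import Crest.Agent.R134.Proj

/-! Absorption of a free semicircular element. -/

set_option autoImplicit false

namespace Crest.Agent.R134

open Crest.Agent.R95
open scoped ComplexConjugate InnerProductSpace Topology
open Filter

variable {A : Type*} [CStarAlgebra A] {K : Type*} [NormedAddCommGroup K] [InnerProductSpace ℂ K]
  {P : StarSubalgebra ℂ A}

lemma τ_proj (T : TrModel A K) {r : A} (hr : IsStarProjection r) :
    (T.τ r).re = ‖T.ι r‖ ^ 2 := by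
  rw [T.norm_sq_eq, hr.isSelfAdjoint.star_eq, hr.isIdempotentElem.eq]

theorem approx_s {T : TrModel A K} {g u₀ : unitary A}
    (hg : T.cl2 (StarAlgebra.adjoin ℂ {(g : A)}) ≤ P)
    (hfree : FreeHaar T ![g, u₀]) {s₀ : A} (hs₀ : IsSelfAdjoint s₀) (hSs : SDs P T u₀ s₀)
    (hSu : SDu P T u₀ s₀) {u s : A} (h : Nice P T u₀ s₀ u s) {ε : ℝ} (hε : 0 < ε) :
    ∃ u' s' : A, Nice P T u₀ s₀ u' s' ∧ ‖T.ι (u' - u)‖ < ε ∧
      ∃ w ∈ StarAlgebra.adjoin ℂ ((P : Set A) ∪ {u'}), ‖T.ι (s - w)‖ < ε := by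
  have hgP : (g : A) ∈ P := hg (T.le_cl2 _ (StarAlgebra.self_mem_adjoin_singleton ℂ _))
  set t : ℝ := min 1 (ε / (2 * ‖s‖ + 10)) with ht
  have ht0 : 0 < t := by positivity
  have ht1 : t ≤ 1 := min_le_left _ _
  have ht2 : t * (2 * ‖s‖ + 10) ≤ ε := by
    have : t ≤ ε / (2 * ‖s‖ + 10) := min_le_right _ _
    rwa [le_div_iff₀ (by positivity)] at this
  obtain ⟨r, p, hp, hpo, hsum⟩ := exists_small_projections T g (fun m hm => τ_zpow hfree hm)
    (η := t ^ 2) (by positivity)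
  have hpp : ∀ a, IsStarProjection (p a) := fun a => (hp a).1
  set c : Fin r → ℝ := fun a => ‖T.ι (p a)‖ ^ 2 with hc
  have hc0 : ∀ a, 0 ≤ c a := fun a => by positivity
  have hc1 : ∀ a, c a ≤ t ^ 2 := fun a => (τ_proj T (hpp a)).symm.trans_le (hp a).2.2
  simp only [τ_proj T (hpp _)] at hsum
  let pP : Fin r → P := fun a => ⟨p a, hg (hp a).2.1⟩
  set ε' : ℝ := t / (2 * (r + 1)) with hε'
  have hε'0 : 0 < ε' := by positivity
  have hε'1 : (r : ℝ) * ε' ≤ t / 2 := by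
    rw [hε', ← mul_div_assoc, div_le_div_iff₀ (by positivity) (by positivity)]
    nlinarith
  have hε'2 : ε' ≤ ε := by
    have : ε' ≤ t := by
      rw [hε', div_le_iff₀ (by positivity)]
      nlinarith [Nat.cast_nonneg (α := ℝ) r]
    nlinarith [norm_nonneg s]
  obtain ⟨u', s', n', d', w'⟩ := iterate_blocks (P := P) (T := T) (u₀ := u₀) (s₀ := s₀)
    (I := {i : Fin r × Fin r // i.1 < i.2})
    (fun i s => p i.1.1 * s * p i.1.2) (fun i => 6 * (c i.1.1 * c i.1.2))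
    (fun i u s h ε hε => by
      obtain ⟨u', s', n', d', w', o'⟩ := rotate_block hgP hfree hs₀ hSs hSu (p := pP i.1.1)
        (q := pP i.1.2) (hpp _) (hpp _) (hp _).2.1 (hp _).2.1 (hpo _ _ i.2.ne)
        (I := {j : {i : Fin r × Fin r // i.1 < i.2} // j ≠ i})
        (fun j => pP j.1.1.1) (fun j => pP j.1.1.2)
        (fun j => by
          by_cases e : j.1.1.1 = i.1.1
          · refine Or.inr (hpo _ _ fun e' => j.2 (Subtype.ext (Prod.ext e e'.symm)))
          · exact Or.inl (hpo _ _ e))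
        (fun j => by
          by_cases e : j.1.1.1 = i.1.2
          · refine Or.inr (hpo _ _ fun e' => ?_)
            have h1 := j.1.2
            have h2 := i.2
            rw [e, ← e'] at h1
            exact lt_asymm h1 h2
          · exact Or.inl (hpo _ _ e)) h hε
      exact ⟨u', s', n', d', w', fun j hj => o' ⟨j, hj⟩⟩) h hε'0
  choose w hw hwe using w'
  have hW : ∀ a b : Fin r, ∃ W ∈ StarAlgebra.adjoin ℂ ((P : Set A) ∪ {u'}),
      ‖T.ι (p a * s * p b - W)‖ ^ 2 ≤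
        (if a = b then t ^ 2 * c a else 0) + 72 * t ^ 2 * (c a * c b) + 2 * ε' ^ 2 := by
    intro a b
    have hab : 0 ≤ c a * c b := mul_nonneg (hc0 a) (hc0 b)
    have hab' : c a * c b ≤ t ^ 2 := by
      have : t ^ 2 ≤ 1 := by nlinarith
      nlinarith [hc0 a, hc0 b, hc1 a, hc1 b]
    have bd : ∀ y : ℝ, 0 ≤ y → y < 6 * (c a * c b) + ε' →
        y ^ 2 ≤ 0 + 72 * t ^ 2 * (c a * c b) + 2 * ε' ^ 2 := by
      intro y h0 h1
      have : y ^ 2 ≤ (6 * (c a * c b) + ε') ^ 2 := by gcongr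
      nlinarith [sq_nonneg (6 * (c a * c b) - ε'), mul_le_mul_of_nonneg_right hab' hab]
    rcases lt_trichotomy a b with hlt | rfl | hlt
    · refine ⟨w ⟨(a, b), hlt⟩, hw _, ?_⟩
      rw [if_neg hlt.ne]
      exact bd _ (norm_nonneg _) (hwe ⟨(a, b), hlt⟩)
    · refine ⟨0, zero_mem _, ?_⟩
      have e1 := h.norm_eq hs₀ (fx (pP a) (pP a))
      rw [ev_fx, ev_fx, hSs.norm_sq hs₀ (W0.of_mem (pP a).2) (W0.of_mem (pP a).2), ← sq] at e1
      change ‖T.ι (p a * s * p a)‖ = c a at e1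
      rw [if_pos rfl, sub_zero, e1]
      nlinarith [hc0 a, hc1 a, sq_nonneg ε', mul_nonneg (sq_nonneg t) hab]
    · refine ⟨star (w ⟨(b, a), hlt⟩), star_mem (hw _), ?_⟩
      rw [if_neg hlt.ne']
      refine bd _ (norm_nonneg _) ?_
      rw [← T.norm_star, star_sub, star_star, star_mul, star_mul, (hpp _).isSelfAdjoint.star_eq,
        (hpp _).isSelfAdjoint.star_eq, h.hs.star_eq, ← mul_assoc, mul_comm (c a)]
      exact hwe ⟨(b, a), hlt⟩
  choose W hWm hWe using hW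
  set e : A := ∑ a, p a with he
  have hep : IsStarProjection e := by
    constructor
    · change e * e = e
      rw [he, Finset.sum_mul_sum]
      refine Finset.sum_congr rfl fun a _ => ?_
      rw [Finset.sum_eq_single a (fun b _ hb => hpo _ _ hb.symm) (by simp)]
      exact (hpp a).isIdempotentElem.eq
    · change star e = e
      rw [he, star_sum]
      exact Finset.sum_congr rfl fun a _ => (hpp a).isSelfAdjoint.star_eq
  have he1 : ‖T.ι (1 - e)‖ ^ 2 = 1 - ∑ a, c a := by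
    rw [← τ_proj T hep.one_sub, map_sub, he, map_sum, T.τ_one, Complex.sub_re, Complex.re_sum]
    simp only [τ_proj T (hpp _), hc, Complex.one_re]
  have he2 : ‖T.ι (1 - e)‖ ≤ t := baire_le_of_sq ht0.le (by rw [he1]; linarith)
  have he3 : ∑ a, c a ≤ 1 := by nlinarith [sq_nonneg ‖T.ι (1 - e)‖]
  have he4 : 0 ≤ ∑ a, c a := Finset.sum_nonneg fun a _ => hc0 a
  refine ⟨u', s', n', d'.trans_le hε'2, ∑ i : Fin r × Fin r, p i.1 * W i.1 i.2 * p i.2,
    sum_mem fun i _ => mul_mem (mul_mem (StarAlgebra.subset_adjoin _ _ (Or.inl (pP i.1).2))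
      (hWm _ _)) (StarAlgebra.subset_adjoin _ _ (Or.inl (pP i.2).2)), ?_⟩
  have dec : s - ∑ i : Fin r × Fin r, p i.1 * W i.1 i.2 * p i.2 =
      ((1 - e) * s + e * s * (1 - e)) +
        ∑ i : Fin r × Fin r, p i.1 * (p i.1 * s * p i.2 - W i.1 i.2) * p i.2 := by
    have e1 : e * s * e = ∑ i : Fin r × Fin r, p i.1 * (p i.1 * s * p i.2) * p i.2 := by
      rw [he, Finset.sum_mul, Finset.sum_mul_sum, ← Finset.univ_product_univ, Finset.sum_product]
      refine Finset.sum_congr rfl fun a _ => Finset.sum_congr rfl fun b _ => ?_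
      simp only [← mul_assoc, (hpp a).isIdempotentElem.eq]
      rw [mul_assoc _ (p b) (p b), (hpp b).isIdempotentElem.eq]
    simp only [mul_sub, sub_mul, Finset.sum_sub_distrib, ← e1, mul_one, one_mul]
    abel
  have n1 : ‖T.ι ((1 - e) * s + e * s * (1 - e))‖ ≤ 2 * ‖s‖ * t := by
    have a1 := T.norm_mul_le' (1 - e) s
    have a2 := T.norm_mul_le (e * s) (1 - e)
    have a3 : ‖e * s‖ ≤ ‖s‖ :=
      (norm_mul_le _ _).trans (mul_le_of_le_one_left (norm_nonneg _) hep.norm_le)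
    have a4 := mul_le_mul a3 he2 (norm_nonneg _) (norm_nonneg _)
    have a5 := mul_le_mul_of_nonneg_right he2 (norm_nonneg s)
    linarith [ι_add_le T ((1 - e) * s) (e * s * (1 - e))]
  have n2 : ‖T.ι (∑ i : Fin r × Fin r, p i.1 * (p i.1 * s * p i.2 - W i.1 i.2) * p i.2)‖ ≤
      9 * t := by
    refine baire_le_of_sq (by positivity) ?_
    rw [map_sum, norm_sum_sq_of_orth]
    · have a1 : ∀ i : Fin r × Fin r,
          ‖T.ι (p i.1 * (p i.1 * s * p i.2 - W i.1 i.2) * p i.2)‖ ^ 2 ≤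
          (if i.1 = i.2 then t ^ 2 * c i.1 else 0) + 72 * t ^ 2 * (c i.1 * c i.2) + 2 * ε' ^ 2 := by
        intro i
        refine le_trans ?_ (hWe i.1 i.2)
        gcongr
        exact (T.norm_mul_le_of_right _ (hpp _).norm_le).trans
          (T.norm_mul_le_of_left (hpp _).norm_le _)
      refine (Finset.sum_le_sum fun i _ => a1 i).trans ?_
      rw [Finset.sum_add_distrib, Finset.sum_add_distrib, ← Finset.mul_sum, Finset.sum_const,
        ← Finset.univ_product_univ, Finset.sum_product, Finset.sum_product, ← Finset.sum_mul_sum]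
      simp only [Finset.sum_ite_eq, Finset.mem_univ, if_true, ← Finset.mul_sum,
        Finset.card_product, Finset.card_univ, Fintype.card_fin, nsmul_eq_mul, Nat.cast_mul]
      have b1 : (∑ a, c a) * (∑ a, c a) ≤ 1 := mul_le_one₀ he3 he4 he3
      have b2 : ((r : ℝ) * ε') ^ 2 ≤ (t / 2) ^ 2 := by gcongr
      have b3 := mul_le_mul_of_nonneg_left b1 (sq_nonneg t)
      have b4 := mul_le_mul_of_nonneg_left he3 (sq_nonneg t)
      nlinarith [sq_nonneg t]
    · intro i _ j _ hij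
      rw [T.inner_eq, star_mul, star_mul, (hpp _).isSelfAdjoint.star_eq,
        (hpp _).isSelfAdjoint.star_eq]
      by_cases e : i.1 = j.1
      · have e' : j.2 ≠ i.2 := fun e' => hij (Prod.ext e e'.symm)
        rw [← mul_assoc, T.τ_comm]
        simp only [← mul_assoc, hpo _ _ e', zero_mul, map_zero]
      · simp only [mul_assoc]
        rw [← mul_assoc (p i.1) (p j.1), hpo _ _ e]
        simp
  rw [dec]
  refine (ι_add_le T _ _).trans_lt ?_
  linarith

lemma ev_lip (T : TrModel A K) (f : FA P) (ρ : ℝ) : ∃ C : ℝ, 0 ≤ C ∧ ∀ u s u' s' : A,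
    ‖u‖ ≤ ρ → ‖s‖ ≤ ρ → ‖u'‖ ≤ ρ → ‖s'‖ ≤ ρ → ‖ev u s f‖ ≤ C ∧
      ‖T.ι (ev u s f - ev u' s' f)‖ ≤ C * (‖T.ι (u - u')‖ + ‖T.ι (s - s')‖) := by
  induction f using FreeAlgebra.induction with
  | grade0 r =>
    refine ⟨‖algebraMap ℝ A r‖, norm_nonneg _, fun u s u' s' _ _ _ _ => ?_⟩
    simp only [AlgHom.commutes, sub_self, map_zero, norm_zero, le_refl, true_and]
    positivity
  | grade1 l =>
    cases l with
    | c a =>
      refine ⟨‖(a : A)‖, norm_nonneg _, fun u s u' s' _ _ _ _ => ?_⟩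
      simp only [ev_lt, evL, sub_self, map_zero, norm_zero, le_refl, true_and]
      positivity
    | u =>
      refine ⟨|ρ| + 1, by positivity, fun u s u' s' h _ _ _ => ?_⟩
      simp only [ev_lt, evL]
      exact ⟨by linarith [le_abs_self ρ], by
        nlinarith [abs_nonneg ρ, norm_nonneg (T.ι (u - u')), norm_nonneg (T.ι (s - s'))]⟩
    | v =>
      refine ⟨|ρ| + 1, by positivity, fun u s u' s' h _ _ _ => ?_⟩
      simp only [ev_lt, evL, ← star_sub, T.norm_star, norm_star]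
      exact ⟨by linarith [le_abs_self ρ], by
        nlinarith [abs_nonneg ρ, norm_nonneg (T.ι (u - u')), norm_nonneg (T.ι (s - s'))]⟩
    | s =>
      refine ⟨|ρ| + 1, by positivity, fun u s u' s' _ h _ _ => ?_⟩
      simp only [ev_lt, evL]
      exact ⟨by linarith [le_abs_self ρ], by
        nlinarith [abs_nonneg ρ, norm_nonneg (T.ι (u - u')), norm_nonneg (T.ι (s - s'))]⟩
  | mul f g hf hg =>
    obtain ⟨C₁, h₁, hf⟩ := hf
    obtain ⟨C₂, h₂, hg⟩ := hg
    refine ⟨2 * (C₁ * C₂), by positivity, fun u s u' s' a b c d => ?_⟩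
    obtain ⟨f1, f2⟩ := hf u s u' s' a b c d
    obtain ⟨g1, g2⟩ := hg u s u' s' a b c d
    have g3 := (hg u' s' u' s' c d c d).1
    rw [map_mul, map_mul]
    constructor
    · have := (norm_mul_le _ _).trans (mul_le_mul f1 g1 (norm_nonneg _) h₁)
      linarith [mul_nonneg h₁ h₂]
    · rw [show ev u s f * ev u s g - ev u' s' f * ev u' s' g =
        ev u s f * (ev u s g - ev u' s' g) + (ev u s f - ev u' s' f) * ev u' s' g by noncomm_ring]
      have a1 := (T.norm_mul_le _ _).trans (mul_le_mul f1 g2 (norm_nonneg _) h₁)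
      have a2 := (T.norm_mul_le' _ _).trans (mul_le_mul f2 g3 (norm_nonneg _) (by positivity))
      linarith [ι_add_le T (ev u s f * (ev u s g - ev u' s' g))
        ((ev u s f - ev u' s' f) * ev u' s' g)]
  | add f g hf hg =>
    obtain ⟨C₁, h₁, hf⟩ := hf
    obtain ⟨C₂, h₂, hg⟩ := hg
    refine ⟨C₁ + C₂, by positivity, fun u s u' s' a b c d => ?_⟩
    obtain ⟨f1, f2⟩ := hf u s u' s' a b c d
    obtain ⟨g1, g2⟩ := hg u s u' s' a b c d
    rw [map_add, map_add]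
    refine ⟨(norm_add_le _ _).trans (add_le_add f1 g1), ?_⟩
    rw [show ev u s f + ev u s g - (ev u' s' f + ev u' s' g) =
      (ev u s f - ev u' s' f) + (ev u s g - ev u' s' g) by abel]
    linarith [ι_add_le T (ev u s f - ev u' s' f) (ev u s g - ev u' s' g)]

lemma exists_ev {u s b : A} (hs : IsSelfAdjoint s)
    (hb : b ∈ StarAlgebra.adjoin ℂ ((P : Set A) ∪ {u, s})) : ∃ f : FA P, ev u s f = b := by
  induction hb using StarAlgebra.adjoin_induction with
  | mem x hx =>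
    rcases hx with hx | rfl | rfl
    · exact ⟨lt (.c ⟨x, hx⟩), by simp [evL]⟩
    · exact ⟨lt .u, by simp [evL]⟩
    · exact ⟨lt .s, by simp [evL]⟩
  | algebraMap r => exact ⟨lt (.c ⟨_, P.algebraMap_mem r⟩), by simp [evL]⟩
  | add x y _ _ hx hy =>
    obtain ⟨f, rfl⟩ := hx
    obtain ⟨g, rfl⟩ := hy
    exact ⟨f + g, map_add _ _ _⟩
  | mul x y _ _ hx hy =>
    obtain ⟨f, rfl⟩ := hx
    obtain ⟨g, rfl⟩ := hy
    exact ⟨f * g, map_mul _ _ _⟩
  | star x _ hx =>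
    obtain ⟨f, rfl⟩ := hx
    exact ⟨sig f, ev_sig hs f⟩

lemma res_mem_cl2 (T : TrModel A K) (B : StarSubalgebra ℂ A) {w : A} (hw : IsSelfAdjoint w)
    (hB : w ∈ T.cl2 B) : res w ∈ T.cl2 B := by
  have : IsClosed (T.cl2 B : Set A) := proj_isClosed_cl2 T B
  have hm : 1 - Complex.I • w ∈ T.cl2 B := sub_mem (one_mem _) (SMulMemClass.smul_mem _ hB)
  obtain ⟨v, hv⟩ := (StarSubalgebra.coe_isUnit (T.cl2 B) (a := ⟨_, hm⟩)).1
    (isUnit_one_sub_I_smul hw)
  have h1 : (1 - Complex.I • w) * ((v⁻¹ : (T.cl2 B)ˣ) : T.cl2 B) = 1 := by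
    have := congrArg Subtype.val v.mul_inv
    rwa [hv] at this
  have : res w = ((v⁻¹ : (T.cl2 B)ˣ) : T.cl2 B) := by
    rw [← mul_one (res w), ← h1, ← mul_assoc, res_mul hw, one_mul]
  rw [this]
  exact Subtype.prop _

/-- bounded truncation `s (1 - i l s)⁻¹` -/
noncomputable def trunc (l : ℝ) (s : A) : A := s * res (l • s)

lemma trunc_eq {l : ℝ} (hl : 0 < l) {s : A} (hs : IsSelfAdjoint s) :
    trunc l s = l⁻¹ • (-Complex.I) • (res (l • s) - 1) := by
  rw [res_sub_one ((IsSelfAdjoint.all l).smul hs), smul_smul (-Complex.I), neg_mul,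
    Complex.I_mul_I, neg_neg, one_smul, smul_mul_assoc, smul_smul, inv_mul_cancel₀ hl.ne',
    one_smul, trunc]

lemma norm_trunc_le (l : ℝ) {s : A} (hs : IsSelfAdjoint s) : ‖trunc l s‖ ≤ ‖s‖ :=
  (norm_mul_le _ _).trans (mul_le_of_le_one_right (norm_nonneg _)
    (norm_res_le ((IsSelfAdjoint.all l).smul hs)))

lemma norm_trunc_le' {l : ℝ} (hl : 0 < l) {s : A} (hs : IsSelfAdjoint s) :
    ‖trunc l s‖ ≤ 2 / l := by
  rw [trunc_eq hl hs, norm_smul, norm_smul, norm_neg, Complex.norm_I, one_mul, norm_inv,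
    Real.norm_of_nonneg hl.le, div_eq_inv_mul]
  gcongr
  linarith [norm_sub_le (res (l • s)) 1, norm_res_le ((IsSelfAdjoint.all l).smul hs),
    norm_one_le' (A := A)]

lemma norm_sub_trunc_le {l : ℝ} (hl : 0 < l) {s : A} (hs : IsSelfAdjoint s) :
    ‖s - trunc l s‖ ≤ l * ‖s‖ ^ 2 := by
  have h := (IsSelfAdjoint.all l).smul hs
  rw [norm_sub_rev, trunc, show s * res (l • s) - s = s * (res (l • s) - 1) by noncomm_ring,
    res_sub_one h]
  refine (norm_mul_le _ _).trans ?_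
  rw [norm_smul, Complex.norm_I, one_mul, smul_mul_assoc, norm_smul, Real.norm_of_nonneg hl.le]
  have := norm_trunc_le l hs
  rw [trunc] at this
  calc _ ≤ ‖s‖ * (l * ‖s‖) := by gcongr
    _ = _ := by ring

lemma ι_trunc_sub (T : TrModel A K) {l : ℝ} (hl : 0 < l) {s w : A} (hs : IsSelfAdjoint s)
    (hw : IsSelfAdjoint w) : ‖T.ι (trunc l s - trunc l w)‖ ≤ ‖T.ι (s - w)‖ := by
  have := T.norm_res_sub_res_le ((IsSelfAdjoint.all l).smul hw) ((IsSelfAdjoint.all l).smul hs)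
  rw [← smul_sub, ι_smul, abs_of_pos hl] at this
  rw [trunc_eq hl hs, trunc_eq hl hw, ← smul_sub, ← smul_sub, sub_sub_sub_cancel_right, ι_smul,
    map_smul, norm_smul, norm_neg, Complex.norm_I, one_mul, abs_of_pos (inv_pos.2 hl),
    inv_mul_le_iff₀ hl]
  exact this

lemma near_of_gen {T : TrModel A K} {u₀ s₀ u s : A} (h : Nice P T u₀ s₀ u s) (z : A) {r : ℝ}
    (hr : 0 < r) : ∃ δ : ℝ, 0 < δ ∧ ∀ v ∈ unitary A, ‖T.ι (v - u)‖ < δ →
      ∀ w ∈ StarAlgebra.adjoin ℂ ((P : Set A) ∪ {v}), ‖T.ι (s - w)‖ < δ →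
        ∃ b ∈ StarAlgebra.adjoin ℂ ((P : Set A) ∪ {v}), ‖T.ι (z - b)‖ < r := by
  have hz : z ∈ T.cl2 (StarAlgebra.adjoin ℂ ((P : Set A) ∪ {u, s})) := by
    rw [h.gen]; exact StarSubalgebra.mem_top
  obtain ⟨b₀, hb₀, e₀⟩ := hz (r / 4) (by positivity)
  obtain ⟨f, rfl⟩ := exists_ev h.hs hb₀
  have hu1 := norm_unitary_le h.hu
  obtain ⟨C₁, h₁, L₁⟩ := ev_lip T f (‖s‖ + 1)
  set l : ℝ := r / (4 * (C₁ * ‖s‖ ^ 2 + 1)) with hl
  have hl0 : 0 < l := by positivity
  have e₁ : ‖T.ι (ev u s f - ev u (trunc l s) f)‖ ≤ r / 4 := by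
    refine (L₁ u s u (trunc l s) (by linarith [norm_nonneg s]) (by linarith)
      (by linarith [norm_nonneg s]) (by linarith [norm_trunc_le l h.hs])).2.trans ?_
    rw [sub_self, map_zero, norm_zero, zero_add]
    have a1 := (T.norm_le _).trans (norm_sub_trunc_le hl0 h.hs)
    have a2 : l * (4 * (C₁ * ‖s‖ ^ 2 + 1)) = r := by rw [hl]; field_simp
    nlinarith [mul_le_mul_of_nonneg_left a1 h₁]
  obtain ⟨C₂, h₂, L₂⟩ := ev_lip T f (2 / l + 1)
  refine ⟨r / (8 * (C₂ + 1)), by positivity, fun v hv hvu w hw hsw => ?_⟩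
  set w' : A := (2 : ℝ)⁻¹ • (w + star w) with hw'
  have hw's : IsSelfAdjoint w' :=
    (IsSelfAdjoint.all _).smul (IsSelfAdjoint.add_star_self w)
  have hw'm : w' ∈ StarAlgebra.adjoin ℂ ((P : Set A) ∪ {v}) := by
    rw [hw', ← Complex.coe_smul]
    exact SMulMemClass.smul_mem _ (add_mem hw (star_mem hw))
  have hsw' : ‖T.ι (s - w')‖ ≤ ‖T.ι (s - w)‖ := by
    have : s - w' = (2 : ℝ)⁻¹ • ((s - w) + star (s - w)) := by
      rw [hw', star_sub, h.hs.star_eq]; module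
    rw [this, ι_smul, abs_of_pos (by positivity)]
    have := ι_add_le T (s - w) (star (s - w))
    rw [T.norm_star] at this
    linarith
  have l2 : 0 < 2 / l := by positivity
  have e₂ : ‖T.ι (ev u (trunc l s) f - ev v (trunc l w') f)‖ ≤ r / 4 := by
    refine (L₂ u (trunc l s) v (trunc l w') (by linarith) (by linarith [norm_trunc_le' hl0 h.hs])
      (by linarith [norm_unitary_le hv]) (by linarith [norm_trunc_le' hl0 hw's])).2.trans ?_
    have a1 := ι_trunc_sub T hl0 h.hs hw's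
    rw [ι_sub_rev] at hvu
    have a2 : r / (8 * (C₂ + 1)) * (8 * (C₂ + 1)) = r := by field_simp
    have a3 : ‖T.ι (u - v)‖ + ‖T.ι (trunc l s - trunc l w')‖ ≤ 2 * (r / (8 * (C₂ + 1))) := by
      linarith
    have a4 : 0 < r / (8 * (C₂ + 1)) := by positivity
    nlinarith [mul_le_mul_of_nonneg_left a3 h₂]
  have hm : ev v (trunc l w') f ∈ T.cl2 (StarAlgebra.adjoin ℂ ((P : Set A) ∪ {v})) := by
    refine StarAlgebra.adjoin_le ?_ (ev_mem_adjoin v (trunc l w') f)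
    rintro a (ha | rfl | rfl)
    · exact T.le_cl2 _ (StarAlgebra.subset_adjoin _ _ (Or.inl ha))
    · exact T.le_cl2 _ (StarAlgebra.subset_adjoin _ _ (Or.inr rfl))
    · refine mul_mem (T.le_cl2 _ hw'm) (res_mem_cl2 T _ ((IsSelfAdjoint.all l).smul hw's) ?_)
      rw [← Complex.coe_smul]
      exact SMulMemClass.smul_mem _ (T.le_cl2 _ hw'm)
  obtain ⟨b, hb, e₃⟩ := hm (r / 4) (by positivity)
  refine ⟨b, hb, ?_⟩
  linarith [ι_sub_le T z (ev u s f) b, ι_sub_le T (ev u s f) (ev u (trunc l s) f) b,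
    ι_sub_le T (ev u (trunc l s) f) (ev v (trunc l w') f) b]

theorem absorb (T : TrModel A K) (hsep : T.Sep) (P : StarSubalgebra ℂ A) (g u₀ : unitary A)
    {s₀ : A} (hs : IsSelfAdjoint s₀) (hg : T.cl2 (StarAlgebra.adjoin ℂ {(g : A)}) ≤ P)
    (hfree : FreeHaar T ![g, u₀]) (hSs : SDs P T u₀ s₀) (hSu : SDu P T u₀ s₀)
    (hgen : T.cl2 (StarAlgebra.adjoin ℂ ((P : Set A) ∪ {(u₀ : A), s₀})) = ⊤) :
    ∃ u : unitary A,
      (∀ w : List (Lt P), (∀ l ∈ w, l ≠ Lt.s) → T.τ (evW (u : A) 0 w) = T.τ (evW (u₀ : A) 0 w)) ∧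
      T.cl2 (StarAlgebra.adjoin ℂ ((P : Set A) ∪ {(u : A)})) = ⊤ := by
  let D : Set A := {v | v ∈ unitary A ∧ ∀ ε : ℝ, 0 < ε →
    ∃ u s : A, Nice P T u₀ s₀ u s ∧ ‖T.ι (v - u)‖ < ε}
  have hDu : D ⊆ unitary A := fun v hv => hv.1
  have hDn : ∀ u s : A, Nice P T u₀ s₀ u s → u ∈ D := fun u s h =>
    ⟨h.hu, fun ε hε => ⟨u, s, h, by simpa using hε⟩⟩
  have hD : T.BClosed D := by
    intro x a hx hlim
    refine ⟨T.mem_unitary_of_tendsto (fun n => (hx n).1) hlim, fun ε hε => ?_⟩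
    obtain ⟨n, hn⟩ := (Metric.tendsto_atTop.1 hlim) (ε / 2) (by positivity)
    have h1 := hn n le_rfl
    rw [dist_comm, dist_eq_norm, ← map_sub] at h1
    obtain ⟨u, s, h, e⟩ := (hx n).2 (ε / 2) (by positivity)
    exact ⟨u, s, h, by linarith [ι_sub_le T a (x n) u]⟩
  obtain ⟨z, -, hz⟩ := T.exists_dense_seq hsep Set.univ Set.univ_nonempty
  obtain ⟨v, hv, hO, -⟩ := baire T hDu hD
    (fun k => {v | ∃ b ∈ StarAlgebra.adjoin ℂ ((P : Set A) ∪ {v}),
      ‖T.ι (z k.unpair.1 - b)‖ < 1 / ((k.unpair.2 : ℝ) + 1)})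
    (fun k v hv h => by
      obtain ⟨δ, hδ, h⟩ := near_open T _ hv.1 h
      exact ⟨δ, hδ, fun v' hv' => h v' hv'.1⟩)
    (fun k v hv ε hε => by
      obtain ⟨u₁, s₁, n₁, e₁⟩ := hv.2 (ε / 2) (by positivity)
      obtain ⟨δ, hδ, hQ⟩ := near_of_gen n₁ (z k.unpair.1)
        (r := 1 / ((k.unpair.2 : ℝ) + 1)) (by positivity)
      obtain ⟨u₂, s₂, n₂, e₂, w, hw, e₃⟩ := approx_s hg hfree hs hSs hSu n₁
        (ε := min δ (ε / 2)) (by positivity)
      refine ⟨u₂, hDn _ _ n₂, hQ u₂ n₂.hu (e₂.trans_le (min_le_left _ _)) w hw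
        (e₃.trans_le (min_le_left _ _)), ?_⟩
      rw [ι_sub_rev] at e₁
      linarith [ι_sub_le T u₂ u₁ v, min_le_right δ (ε / 2)])
    u₀ (hDn u₀ s₀ ⟨u₀.2, hs, fun _ => rfl, hgen⟩) 1 one_pos
  refine ⟨⟨v, hv.1⟩, fun w hw => ?_, ?_⟩
  · obtain ⟨C, hC, L⟩ := ev_lip T (wd w) 1
    refine eq_of_forall_dist_le fun ε hε => ?_
    obtain ⟨u₁, s₁, n₁, e₁⟩ := hv.2 (ε / (C + 1)) (by positivity)
    have a1 := (L v 0 u₁ 0 (norm_unitary_le hv.1) (by simp) (norm_unitary_le n₁.hu) (by simp)).2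
    have a2 := n₁.tr (wd w)
    rw [ev_wd, ev_wd, SFree.evW_eq hw _ s₁ 0, SFree.evW_eq hw _ s₀ 0] at a2
    rw [ev_wd, ev_wd, sub_self, map_zero, norm_zero, add_zero] at a1
    rw [← a2, dist_eq_norm, ← map_sub]
    refine (T.norm_τ_le _).trans (a1.trans ?_)
    rw [lt_div_iff₀ (by positivity)] at e₁
    nlinarith [norm_nonneg (T.ι (v - u₁))]
  · refine eq_top_iff.2 fun x _ => T.mem_cl2.2 fun η hη => ?_
    obtain ⟨n, hn⟩ := hz x (Set.mem_univ _) (η / 2) (by positivity)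
    obtain ⟨l, hl⟩ := exists_nat_one_div_lt (show 0 < η / 2 by positivity)
    obtain ⟨b, hb, h⟩ := hO (Nat.pair n l)
    rw [Nat.unpair_pair] at h
    simp only at h
    exact ⟨b, hb, by linarith [ι_sub_le T x (z n) b]⟩

end Crest.Agent.R134
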