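import Crest.Agent.R95.Baire

/-! Formal words in a coefficient algebra `P`, a unitary `u` and a self-adjoint `s`. -/

set_option autoImplicit false

namespace Crest.Agent.R134

open Crest.Agent.R95
open scoped ComplexConjugate

/-- letters: coefficients, `u`, `v = u⋆`, and `s` -/
inductive Lt (P : Type*) where
  | c (a : P) : Lt P
  | u : Lt P
  | v : Lt P
  | s : Lt P

/-- sum over all splittings `w = a ++ l :: b` -/
def sp {L M : Type*} [AddCommMonoid M] : List L → (List L → L → List L → M) → M
  | [], _ => 0
  | l :: w, g => g [] l w + sp w (fun a l' b => g (l :: a) l' b)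

variable {A : Type*} [CStarAlgebra A] {K : Type*} [NormedAddCommGroup K] [InnerProductSpace ℂ K]
  {P : StarSubalgebra ℂ A}

/-- value of a letter -/
def evL (u s : A) : Lt P → A
  | .c a => a
  | .u => u
  | .v => star u
  | .s => s

/-- value of a word -/
def evW (u s : A) (w : List (Lt P)) : A := (w.map (evL u s)).prod

@[simp] lemma evW_nil (u s : A) : evW (P := P) u s [] = 1 := rfl

@[simp] lemma evW_cons (u s : A) (l : Lt P) (w : List (Lt P)) :
    evW u s (l :: w) = evL u s l * evW u s w := by simp [evW]

@[simp] lemma evW_append (u s : A) (w w' : List (Lt P)) :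
    evW u s (w ++ w') = evW u s w * evW u s w' := by simp [evW]

/-- the summand of the Schwinger–Dyson equation of a semicircular element -/
noncomputable def sTerm (T : TrModel A K) (a : A) (l : Lt P) (b : A) : ℂ :=
  match l with
  | .s => T.τ a * T.τ b
  | _ => 0

/-- the summand of the Schwinger–Dyson equation of a Haar unitary -/
noncomputable def uTerm (T : TrModel A K) (u : A) (a : A) (l : Lt P) (b : A) : ℂ :=
  match l with
  | .u => T.τ (a * u) * T.τ b
  | .v => -(T.τ a * T.τ (star u * b))
  | _ => 0

variable (P) in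
/-- Schwinger–Dyson equation: `s` is semicircular and free from `P` and `u` -/
def SDs (T : TrModel A K) (u s : A) : Prop :=
  ∀ w : List (Lt P), T.τ (s * evW u s w) = sp w (fun a l b => sTerm T (evW u s a) l (evW u s b))

variable (P) in
/-- Schwinger–Dyson equation: `u` is a Haar unitary free from `P` and `s` -/
def SDu (T : TrModel A K) (u s : A) : Prop :=
  ∀ w : List (Lt P), sp w (fun a l b => uTerm T u (evW u s a) l (evW u s b)) = 0

/-- a free family of Haar unitaries -/
def FreeHaar (T : TrModel A K) {ι : Type*} (a : ι → unitary A) : Prop :=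
  ∀ γ : FreeGroup ι, γ ≠ 1 → T.τ ((FreeGroup.lift a γ : unitary A) : A) = 0

/-- Chebyshev polynomials of the second kind in `s / 2` -/
def cheb (s : A) : ℕ → A
  | 0 => 1
  | 1 => s
  | m + 2 => s * cheb s (m + 1) - cheb s m

variable (P) in
/-- formal real noncommutative polynomials in the letters -/
abbrev FA : Type _ := FreeAlgebra ℝ (Lt P)

/-- a letter as a formal polynomial -/
noncomputable abbrev lt (l : Lt P) : FA P := FreeAlgebra.ι ℝ l

/-- a word as a formal polynomial -/
noncomputable def wd (w : List (Lt P)) : FA P := (w.map lt).prod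

@[simp] lemma wd_nil : wd (P := P) [] = 1 := rfl

@[simp] lemma wd_cons (l : Lt P) (w : List (Lt P)) : wd (l :: w) = lt l * wd w := by simp [wd]

@[simp] lemma wd_append (w w' : List (Lt P)) : wd (w ++ w') = wd w * wd w' := by simp [wd]

/-- evaluation of formal polynomials -/
noncomputable def ev (u s : A) : FA P →ₐ[ℝ] A := FreeAlgebra.lift ℝ (evL u s)

@[simp] lemma ev_lt (u s : A) (l : Lt P) : ev u s (lt l) = evL u s l := by simp [ev]

@[simp] lemma ev_wd (u s : A) (w : List (Lt P)) : ev u s (wd w) = evW u s w := by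
  induction w with
  | nil => simp
  | cons l w ih => rw [wd_cons, map_mul, ih, ev_lt, evW_cons]

/-- formal adjoint of a letter -/
def starL : Lt P → Lt P
  | .c a => .c (star a)
  | .u => .v
  | .v => .u
  | .s => .s

/-- formal adjoint, into the opposite algebra -/
noncomputable def sigOp : FA P →ₐ[ℝ] (FA P)ᵐᵒᵖ :=
  FreeAlgebra.lift ℝ (fun l => MulOpposite.op (lt (starL l)))

/-- formal adjoint -/
noncomputable def sig : FA P →ₗ[ℝ] FA P :=
  (MulOpposite.opLinearEquiv ℝ).symm.toLinearMap ∘ₗ sigOp.toLinearMap

@[simp] lemma sig_lt (l : Lt P) : sig (lt l) = lt (starL l) := by simp [sig, sigOp]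

@[simp] lemma sig_one : sig (1 : FA P) = 1 := by simp [sig]

@[simp] lemma sig_mul (f g : FA P) : sig (f * g) = sig g * sig f := by simp [sig]

lemma sig_algebraMap (r : ℝ) : sig (algebraMap ℝ (FA P) r) = algebraMap ℝ (FA P) r := by
  rw [Algebra.algebraMap_eq_smul_one, map_smul, sig_one]

@[simp] lemma sig_sig (f : FA P) : sig (sig f) = f := by
  induction f using FreeAlgebra.induction with
  | grade0 r => rw [sig_algebraMap, sig_algebraMap]
  | grade1 l => cases l <;> simp [starL]
  | mul f g hf hg => simp [hf, hg]
  | add f g hf hg => simp [hf, hg]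

lemma ev_sig {u s : A} (hs : IsSelfAdjoint s) (f : FA P) : ev u s (sig f) = star (ev u s f) := by
  induction f using FreeAlgebra.induction with
  | grade0 r => rw [sig_algebraMap, AlgHom.commutes, Algebra.algebraMap_eq_smul_one]; simp
  | grade1 l => cases l <;> simp [starL, evL, hs.star_eq]
  | mul f g hf hg => simp [hf, hg]
  | add f g hf hg => simp [hf, hg]

/-- values of the derivation on letters -/
noncomputable def derL (X Y : FA P) : Lt P → FA P
  | .c _ => 0
  | .u => lt .u * X
  | .v => -(X * lt .v)
  | .s => Y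

/-- the derivation, as a homomorphism into dual numbers -/
noncomputable def derHom (X Y : FA P) : FA P →ₐ[ℝ] TrivSqZeroExt (FA P) (FA P) :=
  FreeAlgebra.lift ℝ (fun l => TrivSqZeroExt.inl (lt l) + TrivSqZeroExt.inr (derL X Y l))

lemma derHom_fst (X Y f : FA P) : (derHom X Y f).fst = f := by
  induction f using FreeAlgebra.induction with
  | grade0 r => rw [AlgHom.commutes, TrivSqZeroExt.algebraMap_eq_inl']; simp
  | grade1 l => simp [derHom]
  | mul f g hf hg => simp [hf, hg]
  | add f g hf hg => simp [hf, hg]

/-- the derivation with `δ u = u X`, `δ u⋆ = - X u⋆`, `δ s = Y`, killing the coefficients -/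
noncomputable def der (X Y : FA P) : FA P →ₗ[ℝ] FA P where
  toFun f := (derHom X Y f).snd
  map_add' f g := by simp
  map_smul' r f := by simp

@[simp] lemma der_lt (X Y : FA P) (l : Lt P) : der X Y (lt l) = derL X Y l := by
  simp [der, derHom]

@[simp] lemma der_one (X Y : FA P) : der X Y 1 = 0 := by simp [der]

lemma der_mul (X Y f g : FA P) : der X Y (f * g) = der X Y f * g + f * der X Y g := by
  simp [der, derHom_fst, add_comm]

lemma der_wd (X Y : FA P) (w : List (Lt P)) :
    der X Y (wd w) = sp w (fun a l b => wd a * derL X Y l * wd b) := by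
  induction w with
  | nil => simp [sp]
  | cons l w ih =>
    have h : ∀ (w : List (Lt P)) (g : List (Lt P) → Lt P → List (Lt P) → FA P) (f : FA P),
        f * sp w g = sp w (fun a l b => f * g a l b) := by
      intro w
      induction w with
      | nil => intro g f; simp [sp]
      | cons l w ih => intro g f; simp only [sp, mul_add, ih]
    rw [wd_cons, der_mul, ih, der_lt, sp, h]
    simp [mul_assoc]

/-- linear statements about formal polynomials can be checked on words -/
lemma FA_induction {C : FA P → Prop} (hw : ∀ w, C (wd w)) (hs : ∀ (r : ℝ) f, C f → C (r • f))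
    (ha : ∀ f g, C f → C g → C (f + g)) (f : FA P) : C f := by
  have h : f ∈ Submodule.span ℝ (Set.range (wd (P := P))) := by
    induction f using FreeAlgebra.induction with
    | grade0 r =>
      rw [Algebra.algebraMap_eq_smul_one]
      exact Submodule.smul_mem _ _ (Submodule.subset_span ⟨[], rfl⟩)
    | grade1 l => exact Submodule.subset_span ⟨[l], by simp⟩
    | mul f g hf hg =>
      have := Submodule.mul_mem_mul hf hg
      rw [Submodule.span_mul_span] at this
      refine Submodule.span_mono ?_ this
      rintro _ ⟨_, ⟨a, rfl⟩, _, ⟨b, rfl⟩, rfl⟩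
      exact ⟨a ++ b, by simp⟩
    | add f g hf hg => exact add_mem hf hg
  induction h using Submodule.span_induction with
  | mem x hx => obtain ⟨w, rfl⟩ := hx; exact hw w
  | zero => simpa using hs 0 _ (hw [])
  | add x y _ _ hx hy => exact ha _ _ hx hy
  | smul r x _ hx => exact hs _ _ hx

lemma ev_mem_adjoin (u s : A) (f : FA P) :
    ev u s f ∈ StarAlgebra.adjoin ℂ ((P : Set A) ∪ {u, s}) := by
  induction f using FreeAlgebra.induction with
  | grade0 r =>
    rw [AlgHom.commutes, Algebra.algebraMap_eq_smul_one, ← Complex.coe_smul]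
    exact SMulMemClass.smul_mem _ (one_mem _)
  | grade1 l =>
    rw [ev_lt]
    cases l with
    | c a => exact StarAlgebra.subset_adjoin _ _ (Or.inl a.2)
    | u => exact StarAlgebra.subset_adjoin _ _ (Or.inr (Or.inl rfl))
    | v => exact star_mem (StarAlgebra.subset_adjoin _ _ (Or.inr (Or.inl rfl)))
    | s => exact StarAlgebra.subset_adjoin _ _ (Or.inr (Or.inr rfl))
  | mul f g hf hg => rw [map_mul]; exact mul_mem hf hg
  | add f g hf hg => rw [map_add]; exact add_mem hf hg

/-- realises the equation lemmas once, in this module -/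
theorem eqn_anchor : True := by
  have := @sTerm.eq_1.{0,0}
  have := @sTerm.eq_2.{0,0}
  have := @uTerm.eq_1.{0,0}
  have := @uTerm.eq_2.{0,0}
  have := @uTerm.eq_3.{0,0}
  have := @evL.eq_1.{0}
  have := @evL.eq_2.{0}
  have := @evL.eq_3.{0}
  have := @evL.eq_4.{0}
  have := @evW.eq_1.{0}
  have := @sp.eq_1.{0,0}
  have := @sp.eq_2.{0,0}
  have := @sp.eq_def.{0,0}
  have := @cheb.eq_1.{0}
  have := @cheb.eq_2.{0}
  have := @cheb.eq_3.{0}
  have := @cheb.eq_def.{0}
  have := @starL.eq_1.{0}
  have := @starL.eq_2.{0}
  have := @starL.eq_3.{0}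
  have := @starL.eq_4.{0}
  have := @derL.eq_1.{0}
  have := @derL.eq_2.{0}
  have := @derL.eq_3.{0}
  have := @derL.eq_4.{0}
  have := @SDs.eq_1.{0,0}
  have := @SDu.eq_1.{0,0}
  have := @FreeHaar.eq_1.{0,0,0}
  have := @wd.eq_1.{0}
  have := @ev.eq_1.{0}
  have := @sTerm.eq_def.{0,0}
  have := @uTerm.eq_def.{0,0}
  have := @evL.eq_def.{0}
  have := @starL.eq_def.{0}
  have := @derL.eq_def.{0}
  trivial

end Crest.Agent.R134
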