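import Crest.Agent.R134.Words

/-! `L²` estimates for the rotation vector field. -/

set_option autoImplicit false

namespace Crest.Agent.R134

open Crest.Agent.R95
open scoped ComplexConjugate

variable {A : Type*} [CStarAlgebra A] {K : Type*} [NormedAddCommGroup K] [InnerProductSpace ℂ K]
  {P : StarSubalgebra ℂ A}

lemma SDs.norm_sq {T : TrModel A K} {u s : A} (h : SDs P T u s) (hs : IsSelfAdjoint s)
    {a b : A} (ha : a ∈ W0 P u) (hb : b ∈ W0 P u) :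
    ‖T.ι (a * s * b)‖ = ‖T.ι a‖ * ‖T.ι b‖ := by
  have := h.norm_sum_sq hs {()} (fun _ => a) (fun _ => b) (fun _ => ha) (fun _ => hb)
    (fun i _ j _ hij => (hij rfl).elim)
  simp only [Finset.sum_singleton, ← mul_pow] at this
  exact (sq_eq_sq₀ (norm_nonneg _) (by positivity)).1 this

lemma SDs.norm_sum_le {T : TrModel A K} {u s : A} (h : SDs P T u s) (hs : IsSelfAdjoint s)
    {I : Type*} (S : Finset I) (a b : I → A) (ha : ∀ i, a i ∈ W0 P u) (hb : ∀ i, b i ∈ W0 P u)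
    (horth : ∀ i ∈ S, ∀ j ∈ S, i ≠ j → T.τ (star (a i) * a j) = 0) {c n : ℝ} (hc : 0 ≤ c)
    (hn : 0 ≤ n) (hS : (S.card : ℝ) ≤ n ^ 2)
    (hab : ∀ i ∈ S, ‖T.ι (a i)‖ ^ 2 * ‖T.ι (b i)‖ ^ 2 ≤ c ^ 2) :
    ‖T.ι (∑ i ∈ S, a i * s * b i)‖ ≤ n * c := by
  refine baire_le_of_sq (by positivity) ?_
  rw [h.norm_sum_sq hs S a b ha hb horth, mul_pow]
  refine (Finset.sum_le_card_nsmul _ _ _ hab).trans ?_
  rw [nsmul_eq_mul]
  gcongr

section main
variable {T : TrModel A K} {g u : unitary A} (hg : (g : A) ∈ P) (hfree : FreeHaar T ![g, u])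
  {s : A} (hs : IsSelfAdjoint s) (hSs : SDs P T u s)
  {p q : P} (hp : IsStarProjection (p : A)) (hq : IsStarProjection (q : A))
  (hp' : (p : A) ∈ T.cl2 (StarAlgebra.adjoin ℂ {(g : A)}))
  (hq' : (q : A) ∈ T.cl2 (StarAlgebra.adjoin ℂ {(g : A)})) {k : ℕ} (hk : 1 ≤ k)

include hs hp hq in
lemma est_x (hpq : (p : A) * q = 0) (X : FA P) :
    ev (u : A) s (der X (fY (⟨g, hg⟩ : P) p q k) (fx p q) + fF (⟨g, hg⟩ : P) p q k) = 0 := by
  rw [map_add, ev_der_fx, ev_fY hg u hs hp hq, ev_fF, mul_neg, neg_mul, mul_add, add_mul]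
  simp only [← mul_assoc, hpq, hp.isIdempotentElem.eq, zero_mul, add_zero]
  rw [mul_assoc _ (q : A) q, hq.isIdempotentElem.eq, neg_add_cancel]

include hs hp hq in
lemma est_other {p' q' : P} (h1 : (p' : A) * p = 0 ∨ (q : A) * q' = 0)
    (h2 : (p' : A) * q = 0 ∨ (p : A) * q' = 0) (X : FA P) :
    ev (u : A) s (der X (fY (⟨g, hg⟩ : P) p q k) (fx p' q')) = 0 := by
  rw [ev_der_fx, ev_fY hg u hs hp hq, mul_neg, neg_mul, mul_add, add_mul]
  have e1 : (p' : A) * (p * gE g u (γL k) * q) * q' = 0 := by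
    rw [show (p' : A) * (p * gE g u (γL k) * q) * q' = (p' * p) * gE g u (γL k) * (q * q') by
      simp only [mul_assoc]]
    rcases h1 with h | h <;> simp [h]
  have e2 : (p' : A) * (q * gE g u (γL k)⁻¹ * p) * q' = 0 := by
    rw [show (p' : A) * (q * gE g u (γL k)⁻¹ * p) * q' = (p' * q) * gE g u (γL k)⁻¹ * (p * q') by
      simp only [mul_assoc]]
    rcases h2 with h | h <;> simp [h]
  rw [e1, e2, add_zero, neg_zero]

include hfree hs hSs hp hq hp' hk in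
lemma est_X : ‖T.ι (ev (u : A) s (fX (⟨g, hg⟩ : P) p q k))‖ ≤ 2 / √k := by
  have hk' : (0 : ℝ) < k := by exact_mod_cast hk
  have h1 : ‖T.ι (∑ a ∈ Finset.Icc 1 k,
      gE g u (γL a)⁻¹ * p * s * (q * gE g u (γR k a)⁻¹))‖ ≤ √k * 1 := by
    refine hSs.norm_sum_le hs _ _ _ (fun a => mul_mem (gE_mem_W0 hg u _) (W0.of_mem p.2))
      (fun a => mul_mem (W0.of_mem q.2) (gE_mem_W0 hg u _)) (fun a _ b _ hab => ?_) zero_le_one
      (Real.sqrt_nonneg _) (by rw [Real.sq_sqrt hk'.le]; simp) (fun a _ => ?_)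
    · have := TF0 hfree (γ₁ := γL a * (γL b)⁻¹) (γ₂ := 1) (DD_of_d (by
        simp only [map_mul, map_inv, map_one, Wr.mul_d, Wr.inv_d, Wr.one_d, γL_d]; omega)) hp' hp'
      rw [gE_one, mul_one, gE_mul] at this
      rw [star_mul, ← gE_inv, inv_inv, hp.isSelfAdjoint.star_eq, ← this]
      simp only [mul_assoc]
    · have e1 : ‖T.ι (gE g u (γL a)⁻¹ * p)‖ ≤ 1 := (T.norm_le _).trans
        (norm_mul_le_one (norm_unitary_le (gE_mem _ _ _)) hp.norm_le)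
      have e2 : ‖T.ι (q * gE g u (γR k a)⁻¹)‖ ≤ 1 := (T.norm_le _).trans
        (norm_mul_le_one hq.norm_le (norm_unitary_le (gE_mem _ _ _)))
      rw [← mul_pow]
      gcongr
      exact mul_le_one₀ e1 (norm_nonneg _) e2
  have h2 : ∑ a ∈ Finset.Icc 1 k, gE g u (γR k a) * q * s * (p * gE g u (γL a)) =
      star (∑ a ∈ Finset.Icc 1 k, gE g u (γL a)⁻¹ * p * s * (q * gE g u (γR k a)⁻¹)) := by
    rw [star_sum]
    refine Finset.sum_congr rfl fun a _ => ?_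
    simp [gE_inv, hs.star_eq, hp.isSelfAdjoint.star_eq, hq.isSelfAdjoint.star_eq, mul_assoc]
  rw [ev_fX hg u hs hp hq, Finset.sum_sub_distrib, h2, map_smul, norm_smul, map_sub, norm_inv,
    Complex.norm_natCast]
  have h3 := norm_sub_le (T.ι (∑ a ∈ Finset.Icc 1 k,
      gE g u (γL a)⁻¹ * p * s * (q * gE g u (γR k a)⁻¹))) (T.ι (star (∑ a ∈ Finset.Icc 1 k,
      gE g u (γL a)⁻¹ * p * s * (q * gE g u (γR k a)⁻¹))))
  rw [T.norm_star] at h3
  have h4 : 0 < √(k : ℝ) := Real.sqrt_pos.2 hk'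
  calc _ ≤ (k : ℝ)⁻¹ * (2 * √k) := by gcongr; linarith
    _ = 2 / √k := by
      field_simp
      rw [Real.sq_sqrt hk'.le]

include hfree hs hSs hp hq hp' hq' hk in
lemma est_F (Y : FA P) : ‖T.ι (ev (u : A) s (der (fX (⟨g, hg⟩ : P) p q k) Y
    (fF (⟨g, hg⟩ : P) p q k) - fx p q))‖ ≤ 3 * (‖T.ι p‖ ^ 2 * ‖T.ι q‖ ^ 2) := by
  have hk' : (0 : ℝ) < k := by exact_mod_cast hk
  have hkc : (k : ℂ) ≠ 0 := by exact_mod_cast hk'.ne'
  set S := Finset.Icc 1 k with hS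
  have hcard : S.card = k := by simp [hS]
  set c := ‖T.ι p‖ ^ 2 * ‖T.ι q‖ ^ 2 with hc
  have hc0 : 0 ≤ c := by positivity
  have hW : ∀ (r r' : P) (γ : F2), (r : A) * gE g u γ * r' ∈ W0 P (u : A) := fun r r' γ =>
    mul_mem (mul_mem (W0.of_mem r.2) (gE_mem_W0 hg u _)) (W0.of_mem r'.2)
  have hoff : (S.offDiag.card : ℝ) ≤ (k : ℝ) ^ 2 := by
    rw [Finset.offDiag_card, hcard]
    exact_mod_cast (by rw [sq]; omega)
  set α₁ : ℕ × ℕ → A := fun i => (p * gE g u (γL i.1 * (γL i.2)⁻¹) * p) * s *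
    (q * gE g u ((γR k i.2)⁻¹ * γR k i.1) * q) with hα₁
  set α₂ : ℕ × ℕ → A := fun i => (p * gE g u (γL i.1 * γR k i.2) * q) * s *
    (p * gE g u (γL i.2 * γR k i.1) * q) with hα₂
  set z : A := (p * gE g u (γL k) * q) * s * (p * gE g u (γL k) * q) with hz
  have n1 : ‖T.ι (∑ i ∈ S.offDiag, α₁ i)‖ ≤ k * c := by
    refine hSs.norm_sum_le hs _ _ _ (fun i => hW _ _ _) (fun i => hW _ _ _)
      (fun i hi j hj hij => ?_) hc0 hk'.le hoff (fun i hi => ?_)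
    · simp only [hS, Finset.mem_offDiag, Finset.mem_Icc] at hi hj
      rw [star_sandwich hp hp]
      exact TF0 hfree (DD_LL hi.1.1 hi.2.1.1 hj.1.1 hj.2.1.1 hi.2.2 hij) hp' hp'
    · simp only [hS, Finset.mem_offDiag, Finset.mem_Icc] at hi
      rw [norm_sandwich_sq hfree _ hp hp hp' hp', norm_sandwich_sq hfree _ hq hq hq' hq', hc]
      · exact le_of_eq (by ring)
      · simp only [map_mul, map_inv, Wr.mul_d, Wr.inv_d, γR_d hi.1.2, γR_d hi.2.1.2]; omega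
      · simp only [map_mul, map_inv, Wr.mul_d, Wr.inv_d, γL_d]; omega
  have n2 : ‖T.ι (∑ i ∈ S.offDiag, α₂ i)‖ ≤ k * c := by
    refine hSs.norm_sum_le hs _ _ _ (fun i => hW _ _ _) (fun i => hW _ _ _)
      (fun i hi j hj hij => ?_) hc0 hk'.le hoff (fun i hi => ?_)
    · simp only [hS, Finset.mem_offDiag, Finset.mem_Icc] at hi hj
      rw [star_sandwich hp hq]
      exact TF0 hfree (DD_LR hi.1.1 hj.1.1 hi.2.1.2 hj.2.1.2 hi.2.2 hij) hq' hp'
    · simp only [hS, Finset.mem_offDiag, Finset.mem_Icc] at hi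
      rw [norm_sandwich_sq hfree _ hp hq hp' hq', norm_sandwich_sq hfree _ hp hq hp' hq', hc]
      · exact le_of_eq (by ring)
      · simp only [map_mul, Wr.mul_d, γL_d, γR_d hi.1.2]; omega
      · simp only [map_mul, Wr.mul_d, γL_d, γR_d hi.2.1.2]; omega
  have n3 : ‖T.ι z‖ ≤ c := by
    refine baire_le_of_sq hc0 ?_
    rw [hz, hSs.norm_sq hs (hW _ _ _) (hW _ _ _), mul_pow,
      norm_sandwich_sq hfree (by rw [γL_d]; omega) hp hq hp' hq', sq c]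
  have d1 : ∑ a ∈ S, α₁ (a, a) = (k : ℂ) • ((p : A) * s * q) := by
    rw [Finset.sum_congr rfl (g := fun _ => (p : A) * s * q), Finset.sum_const, hcard,
      Nat.cast_smul_eq_nsmul]
    intro a _
    simp [hα₁, hp.isIdempotentElem.eq, hq.isIdempotentElem.eq]
  have d2 : ∑ a ∈ S, α₂ (a, a) = (k : ℂ) • z := by
    rw [Finset.sum_congr rfl (g := fun _ => z), Finset.sum_const, hcard,
      Nat.cast_smul_eq_nsmul]
    intro a ha
    simp only [hα₂, hz, γL_mul_γR (Finset.mem_Icc.1 ha).2]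
  have split : ∀ α : ℕ × ℕ → A, ∑ a ∈ S, ∑ b ∈ S, α (a, b) =
      ∑ a ∈ S, α (a, a) + ∑ i ∈ S.offDiag, α i := by
    intro α
    rw [← Finset.sum_product S S α, ← Finset.diag_union_offDiag,
      Finset.sum_union (Finset.disjoint_diag_offDiag _), Finset.sum_diag]
  have main : ev (u : A) s (der (fX (⟨g, hg⟩ : P) p q k) Y (fF (⟨g, hg⟩ : P) p q k) - fx p q) =
      (k : ℂ)⁻¹ • ∑ i ∈ S.offDiag, α₁ i - (k : ℂ)⁻¹ • ∑ i ∈ S.offDiag, α₂ i - z := by
    have e : ev (u : A) s (der (fX (⟨g, hg⟩ : P) p q k) Y (fF (⟨g, hg⟩ : P) p q k)) =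
        (k : ℂ)⁻¹ • (∑ a ∈ S, ∑ b ∈ S, α₁ (a, b) - ∑ a ∈ S, ∑ b ∈ S, α₂ (a, b)) := by
      rw [ev_der_fF, ← Finset.sum_sub_distrib, Finset.smul_sum, ev_fX hg u hs hp hq]
      refine Finset.sum_congr rfl fun a _ => ?_
      rw [mul_smul_comm, smul_mul_assoc, ← Finset.sum_sub_distrib, Finset.mul_sum, Finset.sum_mul]
      congr 1
      refine Finset.sum_congr rfl fun b _ => ?_
      simp only [hα₁, hα₂, gE_mul, mul_sub, sub_mul, mul_assoc]
    rw [map_sub, e, split, split, d1, d2, ev_fx, smul_sub, smul_add, smul_add, smul_smul, smul_smul,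
      inv_mul_cancel₀ hkc, one_smul, one_smul]
    abel
  rw [main, map_sub, map_sub, map_smul, map_smul]
  have m : ∀ v : K, ‖v‖ ≤ k * c → ‖(k : ℂ)⁻¹ • v‖ ≤ c := fun v hv => by
    rw [norm_smul, norm_inv, Complex.norm_natCast, inv_mul_le_iff₀ hk']; exact hv
  have m1 := m _ n1
  have m2 := m _ n2
  linarith [norm_sub_le ((k : ℂ)⁻¹ • T.ι (∑ i ∈ S.offDiag, α₁ i) -
    (k : ℂ)⁻¹ • T.ι (∑ i ∈ S.offDiag, α₂ i)) (T.ι z),
    norm_sub_le ((k : ℂ)⁻¹ • T.ι (∑ i ∈ S.offDiag, α₁ i)) ((k : ℂ)⁻¹ • T.ι (∑ i ∈ S.offDiag, α₂ i))]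

end main

end Crest.Agent.R134
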