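import Crest.Agent.R134.FockAux

/-! The operators of the Fock model and their relations. -/

set_option autoImplicit false

namespace Crest.Agent.R134

open scoped ComplexConjugate InnerProductSpace Topology

/-- non-empty tuples of group elements -/
inductive FockTup (G : Type) : Type
  | one (g : G) : FockTup G
  | cons (g : G) (t : FockTup G) : FockTup G

namespace FockTup

variable {G : Type}

noncomputable instance : DecidableEq (FockTup G) := Classical.decEq _

/-- the underlying list -/
def toList : FockTup G → List G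
  | one g => [g]
  | cons g t => g :: toList t

theorem toList_ne_nil (t : FockTup G) : toList t ≠ [] := by cases t <;> simp [toList]

theorem toList_injective : Function.Injective (toList : FockTup G → List G) := by
  intro t
  induction t with
  | one g =>
    intro t' h
    cases t' with
    | one g' => simpa [toList] using h
    | cons g' t' =>
      simp only [toList, List.cons.injEq] at h
      exact absurd h.2.symm (toList_ne_nil t')
  | cons g t ih =>
    intro t' h
    cases t' with
    | one g' =>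
      simp only [toList, List.cons.injEq] at h
      exact absurd h.2 (toList_ne_nil t)
    | cons g' t' =>
      simp only [toList, List.cons.injEq] at h
      rw [h.1, ih h.2]

instance [Countable G] : Countable (FockTup G) := toList_injective.countable

/-- first entry -/
def head : FockTup G → G
  | one g => g
  | cons g _ => g

/-- last entry -/
def last : FockTup G → G
  | one g => g
  | cons _ t => last t

variable [Group G]

/-- left multiplication of the first entry -/
def lmul (γ : G) : FockTup G → FockTup G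
  | one g => one (γ * g)
  | cons g t => cons (γ * g) t

/-- right multiplication of the last entry -/
def rmul (γ : G) : FockTup G → FockTup G
  | one g => one (g * γ)
  | cons g t => cons g (rmul γ t)

/-- append the entry `1` -/
def app : FockTup G → FockTup G
  | one g => cons g (one 1)
  | cons g t => cons g (app t)

theorem lmul_lmul (γ δ : G) (t : FockTup G) : lmul γ (lmul δ t) = lmul (γ * δ) t := by
  cases t <;> simp [lmul, mul_assoc]

theorem lmul_one (t : FockTup G) : lmul 1 t = t := by cases t <;> simp [lmul]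

theorem rmul_rmul (γ δ : G) (t : FockTup G) : rmul γ (rmul δ t) = rmul (δ * γ) t := by
  induction t with
  | one g => simp [rmul, mul_assoc]
  | cons g t ih => simp [rmul, ih]

theorem rmul_one (t : FockTup G) : rmul 1 t = t := by
  induction t with
  | one g => simp [rmul]
  | cons g t ih => simp [rmul, ih]

theorem lmul_injective (γ : G) : Function.Injective (lmul γ) :=
  Function.LeftInverse.injective (g := lmul γ⁻¹) fun t => by rw [lmul_lmul, inv_mul_cancel, lmul_one]

theorem rmul_injective (γ : G) : Function.Injective (rmul γ) :=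
  Function.LeftInverse.injective (g := rmul γ⁻¹) fun t => by rw [rmul_rmul, mul_inv_cancel, rmul_one]

theorem app_ne_one (t : FockTup G) (g : G) : app t ≠ one g := by cases t <;> simp [app]

theorem app_injective : Function.Injective (app : FockTup G → FockTup G) := by
  intro t
  induction t with
  | one g =>
    intro t' h
    cases t' with
    | one g' => simpa [app] using h
    | cons g' t' =>
      simp only [app, cons.injEq] at h
      exact absurd h.2.symm (app_ne_one _ _)
  | cons g t ih =>
    intro t' h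
    cases t' with
    | one g' =>
      simp only [app, cons.injEq] at h
      exact absurd h.2 (app_ne_one _ _)
    | cons g' t' =>
      simp only [app, cons.injEq] at h
      rw [h.1, ih h.2]

theorem push_injective : Function.Injective (cons (1 : G)) := fun _ _ h => by simpa using h

theorem head_lmul (γ : G) (t : FockTup G) : head (lmul γ t) = γ * head t := by cases t <;> rfl

end FockTup

open FockTup

variable {G : Type} [Group G]

/-- left regular action -/
noncomputable def fLam (γ : G) : FockL2 (FockTup G) →L[ℂ] FockL2 (FockTup G) :=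
  fockV (lmul γ) (lmul_injective γ)

/-- right regular action -/
noncomputable def fRho (γ : G) : FockL2 (FockTup G) →L[ℂ] FockL2 (FockTup G) :=
  fockV (rmul γ) (rmul_injective γ)

variable (G) in
/-- left creation operator -/
noncomputable def fL : FockL2 (FockTup G) →L[ℂ] FockL2 (FockTup G) :=
  fockV (cons 1) push_injective

variable (G) in
/-- right creation operator -/
noncomputable def fR : FockL2 (FockTup G) →L[ℂ] FockL2 (FockTup G) :=
  fockV app app_injective

variable (G) in
/-- vacuum vector -/
noncomputable def fOm : FockL2 (FockTup G) := fockD (one 1)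

variable (G) in
/-- vacuum projection -/
noncomputable def fP : FockL2 (FockTup G) →L[ℂ] FockL2 (FockTup G) :=
  InnerProductSpace.rankOne ℂ (fOm G) (fOm G)

variable (G) in
/-- the semicircular element -/
noncomputable def fS : FockL2 (FockTup G) →L[ℂ] FockL2 (FockTup G) := fL G + star (fL G)

variable (G) in
/-- the right semicircular element -/
noncomputable def fS' : FockL2 (FockTup G) →L[ℂ] FockL2 (FockTup G) := fR G + star (fR G)

theorem fock_mul_apply {H : Type*} [NormedAddCommGroup H] [NormedSpace ℂ H] (a b : H →L[ℂ] H)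
    (ξ : H) : (a * b) ξ = a (b ξ) := rfl

theorem fock_add_apply {H : Type*} [NormedAddCommGroup H] [NormedSpace ℂ H] (a b : H →L[ℂ] H)
    (ξ : H) : (a + b) ξ = a ξ + b ξ := rfl

theorem fLam_D (γ : G) (t : FockTup G) : fLam γ (fockD t) = fockD (lmul γ t) := fockV_D _ _ _
theorem fRho_D (γ : G) (t : FockTup G) : fRho γ (fockD t) = fockD (rmul γ t) := fockV_D _ _ _
theorem fL_D (t : FockTup G) : fL G (fockD t) = fockD (cons 1 t) := fockV_D _ _ _
theorem fR_D (t : FockTup G) : fR G (fockD t) = fockD (app t) := fockV_D _ _ _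

theorem fLam_mul (γ δ : G) : fLam (γ * δ) = fLam γ * fLam δ :=
  fock_ext fun t => by rw [fock_mul_apply, fLam_D, fLam_D, fLam_D, lmul_lmul]

theorem fLam_one : fLam (1 : G) = 1 := fock_ext fun t => by rw [fLam_D, lmul_one]; rfl

theorem star_fLam (γ : G) : star (fLam γ) = fLam γ⁻¹ := by
  refine fock_ext fun t => ?_
  rw [fLam, star_fockV, fLam_D]
  conv_lhs => rw [← lmul_one t, ← mul_inv_cancel γ, ← lmul_lmul]
  exact fockCmp_D _ _ _

theorem star_fRho (γ : G) : star (fRho γ) = fRho γ⁻¹ := by
  refine fock_ext fun t => ?_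
  rw [fRho, star_fockV, fRho_D]
  conv_lhs => rw [← rmul_one t, ← inv_mul_cancel γ, ← rmul_rmul]
  exact fockCmp_D _ _ _

theorem fLam_apply (γ : G) (ξ : FockL2 (FockTup G)) (t : FockTup G) :
    fLam γ ξ t = ξ (lmul γ⁻¹ t) := by
  rw [← inv_inv γ, ← star_fLam, fLam, star_fockV, fockCmp_apply, inv_inv]

theorem star_fL_apply (ξ : FockL2 (FockTup G)) (t : FockTup G) :
    star (fL G) ξ t = ξ (cons 1 t) := by
  rw [fL, star_fockV, fockCmp_apply]

theorem star_fL_D_one (g : G) : star (fL G) (fockD (one g)) = 0 := by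
  rw [fL, star_fockV]
  exact fockCmp_D_of_ne _ _ (by simp)

theorem star_fL_D_cons (t : FockTup G) : star (fL G) (fockD (cons 1 t)) = fockD t := by
  rw [fL, star_fockV]
  exact fockCmp_D _ _ _

theorem star_fL_D_cons_ne {g : G} (hg : g ≠ 1) (t : FockTup G) :
    star (fL G) (fockD (cons g t)) = 0 := by
  rw [fL, star_fockV]
  exact fockCmp_D_of_ne _ _ (by simp [Ne.symm hg])

theorem star_fL_fL (ξ : FockL2 (FockTup G)) : star (fL G) (fL G ξ) = ξ := by
  have : star (fL G) * fL G = 1 :=
    fock_ext fun t => by rw [fock_mul_apply, fL_D, star_fL_D_cons]; rfl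
  rw [← fock_mul_apply, this]; rfl

theorem star_fR_om : star (fR G) (fOm G) = 0 := by
  rw [fR, star_fockV]
  exact fockCmp_D_of_ne _ _ fun t => app_ne_one t _

theorem star_fL_om : star (fL G) (fOm G) = 0 := star_fL_D_one 1

theorem fP_apply (ξ : FockL2 (FockTup G)) : fP G ξ = ξ (one 1) • fOm G := by
  rw [fP, InnerProductSpace.rankOne_apply, fOm, inner_fockD]

theorem star_fP : star (fP G) = fP G := by
  rw [fP, ContinuousLinearMap.star_eq_adjoint, InnerProductSpace.adjoint_rankOne]

theorem fS_sa : IsSelfAdjoint (fS G) := IsSelfAdjoint.add_star_self _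

theorem fS'_sa : IsSelfAdjoint (fS' G) := IsSelfAdjoint.add_star_self _

theorem norm_fS_le : ‖fS G‖ ≤ 2 := by
  have h : ‖fL G‖ ≤ 1 := norm_fockV_le _ _
  have h' : ‖star (fL G)‖ ≤ 1 := by
    rw [fL, star_fockV]
    exact norm_fockCmp_le _ _
  have := norm_add_le (fL G) (star (fL G))
  unfold fS
  linarith

theorem fRho_fLam (δ γ : G) : fRho δ * fLam γ = fLam γ * fRho δ := by
  refine fock_ext fun t => ?_
  rw [fock_mul_apply, fock_mul_apply, fLam_D, fRho_D, fRho_D, fLam_D]
  cases t <;> simp [lmul, rmul, mul_assoc]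

theorem fR_fLam (γ : G) : fR G * fLam γ = fLam γ * fR G := by
  refine fock_ext fun t => ?_
  rw [fock_mul_apply, fock_mul_apply, fLam_D, fR_D, fR_D, fLam_D]
  cases t <;> simp [lmul, app]

theorem star_fR_fLam (γ : G) : star (fR G) * fLam γ = fLam γ * star (fR G) := by
  have := congrArg star (fR_fLam γ⁻¹)
  rw [star_mul, star_mul, star_fLam, inv_inv] at this
  exact this.symm

theorem fS'_fLam (γ : G) : fS' G * fLam γ = fLam γ * fS' G := by
  rw [fS', add_mul, mul_add, fR_fLam, star_fR_fLam]

theorem fRho_fL (δ : G) : fRho δ * fL G = fL G * fRho δ := by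
  refine fock_ext fun t => ?_
  rw [fock_mul_apply, fock_mul_apply, fL_D, fRho_D, fRho_D, fL_D, rmul]

theorem fRho_fS (δ : G) : fRho δ * fS G = fS G * fRho δ := by
  have := congrArg star (fRho_fL δ⁻¹)
  rw [star_mul, star_mul, star_fRho, inv_inv] at this
  rw [fS, add_mul, mul_add, fRho_fL, this]

theorem fL_fR : fL G * fR G = fR G * fL G := by
  refine fock_ext fun t => ?_
  rw [fock_mul_apply, fock_mul_apply, fL_D, fR_D, fR_D, fL_D, app]

theorem star_fL_fR : star (fL G) * fR G = fR G * star (fL G) + fP G := by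
  refine fock_ext fun t => ?_
  rw [fock_add_apply, fock_mul_apply, fock_mul_apply, fR_D, fP_apply, fockD_apply]
  cases t with
  | one g =>
    rw [star_fL_D_one, map_zero, zero_add, app]
    by_cases hg : g = 1
    · subst hg
      rw [star_fL_D_cons, if_pos rfl, one_smul, fOm]
    · rw [star_fL_D_cons_ne hg, if_neg (by simpa using Ne.symm hg), zero_smul]
  | cons g t =>
    rw [if_neg (by simp), zero_smul, add_zero, app]
    by_cases hg : g = 1
    · subst hg
      rw [star_fL_D_cons, star_fL_D_cons, fR_D]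
    · rw [star_fL_D_cons_ne hg, star_fL_D_cons_ne hg, map_zero]

theorem fS_fR : fS G * fR G - fR G * fS G = fP G := by
  rw [fS, add_mul, mul_add, fL_fR, star_fL_fR]
  abel

theorem fS'_fS : fS' G * fS G = fS G * fS' G := by
  have h1 := fS_fR (G := G)
  have h2 := congrArg star h1
  rw [star_sub, star_mul, star_mul, fS_sa.star_eq, star_fP, ← h1] at h2
  rw [fS', add_mul, mul_add]
  rw [sub_eq_iff_eq_add] at h2
  rw [h2]
  abel

theorem fS_om : fS G (fOm G) = fR G (fOm G) := by
  rw [fS, fock_add_apply, star_fL_om, add_zero, fOm, fL_D, fR_D, app]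

theorem fS'_om : fS' G (fOm G) = fR G (fOm G) := by
  rw [fS', fock_add_apply, star_fR_om, add_zero]

theorem fLam_om (γ : G) : fLam γ (fOm G) = fRho γ (fOm G) := by
  rw [fOm, fLam_D, fRho_D, lmul, rmul, mul_one, one_mul]

variable (G) in
/-- the generators -/
def fGen : Set (FockL2 (FockTup G) →L[ℂ] FockL2 (FockTup G)) := Set.range fLam ∪ {fS G}

theorem fGen_right : ∀ a ∈ fGen G, ∃ b : FockL2 (FockTup G) →L[ℂ] FockL2 (FockTup G),
    (∀ c ∈ fGen G, b * c = c * b ∧ b * star c = star c * b) ∧
      a (fOm G) = b (fOm G) ∧ (star a) (fOm G) = (star b) (fOm G) := by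
  rintro a (⟨γ, rfl⟩ | rfl)
  · refine ⟨fRho γ, ?_, fLam_om γ, by rw [star_fLam, star_fRho, fLam_om]⟩
    rintro c (⟨δ, rfl⟩ | rfl)
    · exact ⟨fRho_fLam _ _, by rw [star_fLam, fRho_fLam]⟩
    · exact ⟨fRho_fS _, by rw [fS_sa.star_eq, fRho_fS]⟩
  · refine ⟨fS' G, ?_, by rw [fS_om, fS'_om], by rw [fS_sa.star_eq, fS'_sa.star_eq, fS_om, fS'_om]⟩
    rintro c (⟨δ, rfl⟩ | rfl)
    · exact ⟨fS'_fLam _, by rw [star_fLam, fS'_fLam]⟩
    · exact ⟨fS'_fS, by rw [fS_sa.star_eq, fS'_fS]⟩

theorem fGen_cyclic : Dense ((fun x : FockL2 (FockTup G) →L[ℂ] FockL2 (FockTup G) => x (fOm G)) ''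
    (StarAlgebra.adjoin ℂ (fGen G) : Set (FockL2 (FockTup G) →L[ℂ] FockL2 (FockTup G)))) := by
  let D : Submodule ℂ (FockL2 (FockTup G)) :=
    (Subalgebra.toSubmodule (StarAlgebra.adjoin ℂ (fGen G)).toSubalgebra).map
      ((ContinuousLinearMap.apply ℂ (FockL2 (FockTup G)) (fOm G)) :
        (FockL2 (FockTup G) →L[ℂ] FockL2 (FockTup G)) →ₗ[ℂ] FockL2 (FockTup G))
  have hinv : ∀ c ∈ fGen G, ∀ ξ ∈ D, c ξ ∈ D := by
    rintro c hc _ ⟨x, hx, rfl⟩
    exact ⟨c * x, (StarAlgebra.adjoin ℂ (fGen G)).mul_mem (StarAlgebra.subset_adjoin _ _ hc) hx, rfl⟩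
  have hom : fOm G ∈ D := ⟨1, (StarAlgebra.adjoin ℂ (fGen G)).one_mem, rfl⟩
  have key : ∀ t : FockTup G, fockD t ∈ D ∧ star (fL G) (fockD t) ∈ D := by
    intro t
    induction t with
    | one g =>
      refine ⟨?_, by rw [star_fL_D_one]; exact D.zero_mem⟩
      have := hinv (fLam g) (Or.inl ⟨g, rfl⟩) _ hom
      rwa [fOm, fLam_D, lmul, mul_one] at this
    | cons g t ih =>
      constructor
      · have h1 : fockD (cons 1 t) ∈ D := by
          have h2 := D.sub_mem (hinv (fS G) (Or.inr rfl) _ ih.1) ih.2
          have h3 : fS G (fockD t) = fL G (fockD t) + star (fL G) (fockD t) := rfl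
          rwa [h3, add_sub_cancel_right, fL_D] at h2
        have := hinv (fLam g) (Or.inl ⟨g, rfl⟩) _ h1
        rwa [fLam_D, lmul, mul_one] at this
      · by_cases hg : g = 1
        · subst hg
          rw [star_fL_D_cons]
          exact ih.1
        · rw [star_fL_D_cons_ne hg]
          exact D.zero_mem
  exact fock_dense D fun t => (key t).1

/-- the vacuum state -/
noncomputable def fPhi : (FockL2 (FockTup G) →L[ℂ] FockL2 (FockTup G)) →+ ℂ where
  toFun x := x (fOm G) (one 1)
  map_zero' := rfl
  map_add' _ _ := rfl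

theorem fPhi_apply (x : FockL2 (FockTup G) →L[ℂ] FockL2 (FockTup G)) :
    fPhi x = x (fOm G) (one 1) := rfl

theorem fPhi_eq (x : FockL2 (FockTup G) →L[ℂ] FockL2 (FockTup G)) :
    fPhi x = ⟪fOm G, x (fOm G)⟫_ℂ := by
  rw [fPhi_apply, fOm, inner_fockD]

theorem fPhi_P (a b : FockL2 (FockTup G) →L[ℂ] FockL2 (FockTup G)) :
    fPhi (a * fP G * b) = fPhi a * fPhi b := by
  rw [fPhi_apply, fock_mul_apply, fock_mul_apply, fP_apply, map_smul, fPhi_apply, fPhi_apply,
    mul_comm]
  rfl

theorem fPhi_comm_zero {x y : FockL2 (FockTup G) →L[ℂ] FockL2 (FockTup G)} (h : x * y = y * x)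
    (a b : FockL2 (FockTup G) →L[ℂ] FockL2 (FockTup G)) :
    0 = fPhi (a * (x * y - y * x) * b) := by
  rw [h, sub_self, mul_zero, zero_mul, map_zero]

theorem fPhi_fR_s (a b : FockL2 (FockTup G) →L[ℂ] FockL2 (FockTup G)) :
    fPhi (a * (fS G * fR G - fR G * fS G) * b) = fPhi a * fPhi b := by
  rw [fS_fR, fPhi_P]

theorem fPhi_mul_of_star {a : FockL2 (FockTup G) →L[ℂ] FockL2 (FockTup G)}
    (ha : star a (fOm G) = 0) (b : FockL2 (FockTup G) →L[ℂ] FockL2 (FockTup G)) :
    fPhi (a * b) = 0 := by
  rw [fPhi_eq, fock_mul_apply, ← ContinuousLinearMap.adjoint_inner_left,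
    ← ContinuousLinearMap.star_eq_adjoint, ha, inner_zero_left]

section Free
variable {ι : Type} [DecidableEq ι]

/-- the projection onto tuples whose last entry ends with the letter `j` -/
noncomputable def fE (j : ι) :
    FockL2 (FockTup (FreeGroup ι)) →L[ℂ] FockL2 (FockTup (FreeGroup ι)) :=
  fockE fun t => t.last.toWord.getLast? = some (j, true)

theorem star_fE (j : ι) : star (fE j) = fE j := star_fockE _

theorem fE_om (j : ι) : fE j (fOm (FreeGroup ι)) = 0 :=
  fockE_D_neg (by simp [last])

theorem fE_fS (j : ι) : fE j * fS (FreeGroup ι) = fS (FreeGroup ι) * fE j := by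
  have h1 : fE j * fL (FreeGroup ι) = fL (FreeGroup ι) * fE j :=
    fockE_comm _ _ fun t => Iff.rfl
  have h2 := congrArg star h1
  rw [star_mul, star_mul, star_fE] at h2
  rw [fS, add_mul, mul_add, h1, h2]

theorem fE_fLam_ne {i j : ι} (h : i ≠ j) :
    fE j * fLam (FreeGroup.of i) = fLam (FreeGroup.of i) * fE j := by
  refine fockE_comm _ _ fun t => ?_
  cases t with
  | one g => simp only [lmul, last]; rw [fock_last_of_mul]; simp [h]
  | cons g t => exact Iff.rfl

theorem fE_fLam (j : ι) : fE j * fLam (FreeGroup.of j) =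
    fLam (FreeGroup.of j) * fE j + fLam (FreeGroup.of j) * fP (FreeGroup ι) := by
  refine fock_ext fun t => ?_
  rw [fock_add_apply, fock_mul_apply, fock_mul_apply, fock_mul_apply, fLam_D, fP_apply, fockD_apply, fE]
  by_cases ht : t = one 1
  · subst ht
    rw [if_pos rfl, one_smul, fockE_D_neg (x := one 1) (by simp [last]), map_zero, zero_add,
      fockE_D_pos (by simp [lmul, last]), fOm, fLam_D]
  · rw [if_neg (Ne.symm ht), zero_smul, map_zero, add_zero]
    have hiff : (lmul (FreeGroup.of j) t).last.toWord.getLast? = some (j, true) ↔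
        t.last.toWord.getLast? = some (j, true) := by
      cases t with
      | one g =>
        have hg : g ≠ 1 := fun h => ht (by rw [h])
        simp only [lmul, last]; rw [fock_last_of_mul]; simp [hg]
      | cons g t => exact Iff.rfl
    by_cases hp : t.last.toWord.getLast? = some (j, true)
    · rw [fockE_D_pos (x := t) hp, fockE_D_pos (x := lmul _ t) (hiff.2 hp), fLam_D]
    · rw [fockE_D_neg (x := t) hp, fockE_D_neg (x := lmul _ t) (fun h => hp (hiff.1 h)), map_zero]

theorem fPhi_fE_u (j : ι)
    (a b : FockL2 (FockTup (FreeGroup ι)) →L[ℂ] FockL2 (FockTup (FreeGroup ι))) :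
    fPhi (a * fLam (FreeGroup.of j)) * fPhi b =
      -fPhi (a * (fLam (FreeGroup.of j) * fE j - fE j * fLam (FreeGroup.of j)) * b) := by
  rw [fE_fLam, sub_add_cancel_left, mul_neg, neg_mul, map_neg, neg_neg, ← mul_assoc, fPhi_P]

theorem fPhi_fE_v (j : ι)
    (a b : FockL2 (FockTup (FreeGroup ι)) →L[ℂ] FockL2 (FockTup (FreeGroup ι))) :
    -(fPhi a * fPhi (star (fLam (FreeGroup.of j)) * b)) =
      -fPhi (a * (star (fLam (FreeGroup.of j)) * fE j - fE j * star (fLam (FreeGroup.of j))) * b) := by
  have hv := congrArg star (fE_fLam j)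
  rw [star_add, star_mul, star_mul, star_mul, star_fE, star_fP] at hv
  rw [hv, add_sub_cancel_left, ← mul_assoc, mul_assoc _ (star _), fPhi_P]

/-- the ping-pong class of a tuple -/
def fCls (o : Option ι) (t : FockTup (FreeGroup ι)) : Prop :=
  match o with
  | none => ∃ t', t = cons 1 t'
  | some i => t.head.toWord.head?.map Prod.fst = some i

theorem fCls_unique {o o' : Option ι} {t : FockTup (FreeGroup ι)} (h : fCls o t)
    (h' : fCls o' t) : o = o' := by
  cases o with
  | none =>
    cases o' with
    | none => rfl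
    | some i =>
      obtain ⟨t', rfl⟩ := h
      simp [fCls, head] at h'
  | some i =>
    cases o' with
    | none =>
      obtain ⟨t', rfl⟩ := h'
      simp [fCls, head] at h
    | some j =>
      simp only [fCls] at h h'
      rw [h] at h'
      exact h'

theorem not_fCls_om (o : Option ι) : ¬ fCls o (one 1) := by
  cases o <;> simp [fCls, head]

theorem fLam_pingpong (i : ι) (n : ℤ) (hn : n ≠ 0) (ξ : FockL2 (FockTup (FreeGroup ι)))
    (hξ : ∀ t, fCls (some i) t → ξ t = 0) (t : FockTup (FreeGroup ι)) (ht : ¬ fCls (some i) t) :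
    fLam (FreeGroup.of i ^ n) ξ t = 0 := by
  rw [fLam_apply]
  refine hξ _ ?_
  change (lmul _ t).head.toWord.head?.map Prod.fst = some i
  rw [head_lmul, ← zpow_neg]
  exact fock_head_zpow_mul i _ ht _ (neg_ne_zero.2 hn)

theorem cheb_pingpong (m : ℕ) (ξ : FockL2 (FockTup (FreeGroup ι)))
    (hξ : ∀ t, fCls none t → ξ t = 0) (t : FockTup (FreeGroup ι)) (ht : ¬ fCls none t) :
    cheb (fS (FreeGroup ι)) (m + 1) ξ t = 0 := by
  have h1 : star (fL (FreeGroup ι)) ξ = 0 := by
    ext t'
    rw [star_fL_apply]
    exact hξ _ ⟨t', rfl⟩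
  rw [fS, fock_cheb_apply _ star_fL_fL ξ h1, pow_succ', fock_mul_apply]
  exact fockV_apply_of_ne _ _ _ fun t' h => ht ⟨t', h.symm⟩

end Free

end Crest.Agent.R134
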