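import Crest.Agent.R134.Std
import Crest.Agent.R134.FockAux2

/-! The Fock model of a free group factor with a free semicircular element adjoined. -/

set_option autoImplicit false

namespace Crest.Agent.R134

open Crest.Agent.R95
open scoped ComplexConjugate InnerProductSpace Topology

section Model

variable {G : Type} [Group G]

variable (G) in
/-- bounded operators on the Fock space -/
abbrev FockB : Type := FockL2 (FockTup G) →L[ℂ] FockL2 (FockTup G)

variable (G) in
/-- the von Neumann algebra generated by the left regular action and the semicircular element -/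
noncomputable def fockM : VonNeumannAlgebra (FockL2 (FockTup G)) where
  toStarSubalgebra := StarSubalgebra.centralizer ℂ
    ((StarSubalgebra.centralizer ℂ (fGen G) : Set (FockB G)))
  centralizer_centralizer' := by
    change Set.centralizer (Set.centralizer ((StarSubalgebra.centralizer ℂ
      ((StarSubalgebra.centralizer ℂ (fGen G) : Set (FockB G)))) : Set (FockB G))) = _
    rw [StarSubalgebra.coe_centralizer_centralizer, Set.centralizer_centralizer_centralizer]
    exact (StarSubalgebra.coe_centralizer_centralizer ℂ (fGen G)).symm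

theorem coe_fockM : (fockM G : Set (FockB G)) =
    Set.centralizer (Set.centralizer (fGen G ∪ star (fGen G))) :=
  StarSubalgebra.coe_centralizer_centralizer ℂ (fGen G)

theorem fGen_mem {x : FockB G} (hx : x ∈ fGen G) : x ∈ (fockM G).toStarSubalgebra := by
  have : x ∈ (fockM G : Set (FockB G)) := by
    rw [coe_fockM]
    exact Set.subset_centralizer_centralizer (Or.inl hx)
  exact this

theorem fockM_le (N : VonNeumannAlgebra (FockL2 (FockTup G))) (h : ∀ x ∈ fGen G, x ∈ N)
    {x : FockB G} (hx : x ∈ (fockM G).toStarSubalgebra) : x ∈ N := by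
  have h1 : x ∈ (fockM G : Set (FockB G)) := hx
  rw [coe_fockM] at h1
  have h2 : fGen G ∪ star (fGen G) ⊆ (N : Set (FockB G)) := by
    rintro y (hy | hy)
    · exact h y hy
    · have := star_mem (h _ (Set.mem_star.1 hy))
      rwa [star_star] at this
  have h3 := Set.centralizer_subset (Set.centralizer_subset h2) h1
  rwa [N.centralizer_centralizer] at h3

variable (G) in
/-- the left regular action, inside the algebra -/
noncomputable def fockLam : G →* unitary (fockM G).toStarSubalgebra where
  toFun γ := ⟨⟨fLam γ, fGen_mem (Or.inl ⟨γ, rfl⟩)⟩, by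
    constructor
    · refine Subtype.ext ?_
      exact (congrArg (· * fLam γ) (star_fLam γ)).trans (by rw [← fLam_mul, inv_mul_cancel, fLam_one]; rfl)
    · refine Subtype.ext ?_
      exact (congrArg (fLam γ * ·) (star_fLam γ)).trans (by rw [← fLam_mul, mul_inv_cancel, fLam_one]; rfl)⟩
  map_one' := Subtype.ext (Subtype.ext fLam_one)
  map_mul' γ δ := Subtype.ext (Subtype.ext (fLam_mul γ δ))

theorem coe_fockLam (γ : G) :
    (((fockLam G γ : unitary (fockM G).toStarSubalgebra) : (fockM G).toStarSubalgebra) : FockB G) =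
      fLam γ := rfl

variable (G) in
/-- the semicircular element, inside the algebra -/
noncomputable def fockS : (fockM G).toStarSubalgebra := ⟨fS G, fGen_mem (Or.inr rfl)⟩

theorem coe_fockS : ((fockS G : (fockM G).toStarSubalgebra) : FockB G) = fS G := rfl

theorem fock_faithful : Crest.OpAlg.IsFaithfulTracialVectorState (fockM G)
    (fun n => if n = 0 then fOm G else 0) :=
  std_form (fGen G) (fOm G) (norm_fockD _) fGen_right fGen_cyclic (fockM G) coe_fockM

variable (T : TrModel (fockM G).toStarSubalgebra (lp (fun _ : ℕ => FockL2 (FockTup G)) 2))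
  (hT : ∀ (x : (fockM G).toStarSubalgebra) (n : ℕ),
    T.ι x n = (x : FockB G) ((fun n => if n = 0 then fOm G else 0) n))
include hT

theorem fock_τ (x : (fockM G).toStarSubalgebra) : T.τ x = fPhi (x : FockB G) := by
  rw [model_τ T hT, Crest.OpAlg.vectorState, tsum_eq_single 0, fPhi_eq]
  · simp
  · intro n hn
    simp [hn]

theorem fock_comm_of_mem_cl2 (S : Set (fockM G).toStarSubalgebra) (y : FockB G)
    (hy : ∀ c ∈ S, y * (c : FockB G) = (c : FockB G) * y ∧
      star y * (c : FockB G) = (c : FockB G) * star y)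
    {x : (fockM G).toStarSubalgebra} (hx : x ∈ T.cl2 (StarAlgebra.adjoin ℂ S)) :
    (x : FockB G) * y = y * (x : FockB G) := by
  let N : VonNeumannAlgebra (FockL2 (FockTup G)) :=
    ⟨StarSubalgebra.centralizer ℂ {y}, by simp⟩
  have h1 : (x : FockB G) ∈ N := by
    refine (model_mem_cl2_iff T hT fock_faithful S x).1 hx N fun c hc => ?_
    have : (c : FockB G) ∈ StarSubalgebra.centralizer ℂ {y} := by
      rw [StarSubalgebra.mem_centralizer_iff]
      rintro _ rfl
      exact hy c hc
    exact this
  have h2 : (x : FockB G) ∈ StarSubalgebra.centralizer ℂ {y} := h1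
  rw [StarSubalgebra.mem_centralizer_iff] at h2
  exact (h2 y rfl).1.symm

omit T hT in
theorem fock_word_comm {P : StarSubalgebra ℂ (fockM G).toStarSubalgebra}
    (u s : (fockM G).toStarSubalgebra) (y : FockB G) (w : List (Lt P)) :
    fPhi ((evW u s w).1 * y) - fPhi (y * (evW u s w).1) =
      sp w (fun a l b => fPhi ((evW u s a).1 *
        ((evL u s l).1 * y - y * (evL u s l).1) * (evW u s b).1)) := by
  rw [← map_sub, fock_sp_comm (fun w : List (Lt P) => (evW u s w).1)
    (fun l => (evL u s l).1) rfl (fun l w => by rw [evW_cons]; rfl) y w, fock_map_sp]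

theorem fock_SDs (S : Set (fockM G).toStarSubalgebra)
    (hS : ∀ c ∈ S, ∃ γ, (c : FockB G) = fLam γ) (γ : G) :
    SDs (T.cl2 (StarAlgebra.adjoin ℂ S)) T (fockLam G γ) (fockS G) := by
  intro w
  have h1 := fock_word_comm (fockLam G γ : (fockM G).toStarSubalgebra) (fockS G) (fR G) w
  rw [fPhi_mul_of_star star_fR_om, sub_zero] at h1
  have h2 : T.τ (fockS G * evW (fockLam G γ : (fockM G).toStarSubalgebra) (fockS G) w) =
      fPhi ((evW (fockLam G γ : (fockM G).toStarSubalgebra) (fockS G) w).1 * fR G) := by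
    rw [T.τ_comm, fock_τ T hT, MulMemClass.coe_mul, coe_fockS, fPhi_apply, fPhi_apply,
      fock_mul_apply, fock_mul_apply, fS_om]
  rw [h2, h1]
  refine fock_sp_congr _ _ _ fun a l b => ?_
  cases l with
  | c x =>
    have := fock_comm_of_mem_cl2 T hT S (fR G) (fun c hc => by
      obtain ⟨δ, hδ⟩ := hS c hc
      rw [hδ]
      exact ⟨fR_fLam δ, star_fR_fLam δ⟩) x.2
    exact (fPhi_comm_zero this _ _).symm
  | u => exact (fPhi_comm_zero (fR_fLam γ).symm _ _).symm
  | v =>
    have : star (fLam γ) * fR G = fR G * star (fLam γ) := by rw [star_fLam, fR_fLam]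
    exact (fPhi_comm_zero this _ _).symm
  | s =>
    simp only [sTerm, fock_τ T hT]
    exact fPhi_fR_s _ _

end Model

section Free

variable {ι : Type} [DecidableEq ι]
  (T : TrModel (fockM (FreeGroup ι)).toStarSubalgebra
    (lp (fun _ : ℕ => FockL2 (FockTup (FreeGroup ι))) 2))
  (hT : ∀ (x : (fockM (FreeGroup ι)).toStarSubalgebra) (n : ℕ),
    T.ι x n = (x : FockB (FreeGroup ι)) ((fun n => if n = 0 then fOm (FreeGroup ι) else 0) n))
include hT

theorem fock_SDu (j : ι) (S : Set (fockM (FreeGroup ι)).toStarSubalgebra)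
    (hS : ∀ c ∈ S, ∃ i, i ≠ j ∧ (c : FockB (FreeGroup ι)) = fLam (FreeGroup.of i)) :
    SDu (T.cl2 (StarAlgebra.adjoin ℂ S)) T (fockLam (FreeGroup ι) (FreeGroup.of j))
      (fockS (FreeGroup ι)) := by
  intro w
  have h1 := fock_word_comm
    (fockLam (FreeGroup ι) (FreeGroup.of j) : (fockM (FreeGroup ι)).toStarSubalgebra)
    (fockS (FreeGroup ι)) (fE j) w
  rw [fPhi_mul_of_star (a := fE j) (by rw [star_fE, fE_om]), sub_zero, fPhi_apply, fock_mul_apply, fE_om,
    map_zero] at h1
  have h2 := congrArg (negAddMonoidHom : ℂ →+ ℂ) h1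
  rw [fock_map_sp] at h2
  refine Eq.trans (fock_sp_congr _ _ _ fun a l b => ?_) (h2.symm.trans (by simp))
  rw [negAddMonoidHom_apply]
  cases l with
  | c x =>
    have := fock_comm_of_mem_cl2 T hT S (fE j) (fun c hc => by
      obtain ⟨i, hi, hδ⟩ := hS c hc
      rw [hδ, star_fE]
      exact ⟨fE_fLam_ne hi, fE_fLam_ne hi⟩) x.2
    exact neg_zero.symm.trans (congrArg Neg.neg (fPhi_comm_zero this _ _))
  | u =>
    simp only [uTerm, fock_τ T hT]
    exact fPhi_fE_u j _ _
  | v =>
    simp only [uTerm, fock_τ T hT]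
    exact fPhi_fE_v j _ _
  | s => exact neg_zero.symm.trans (congrArg Neg.neg (fPhi_comm_zero (fE_fS j).symm _ _))

theorem fock_free (v : unitary (fockM (FreeGroup ι)).toStarSubalgebra)
    (hv : ∀ n : ℤ, n ≠ 0 → ((v ^ n : unitary (fockM (FreeGroup ι)).toStarSubalgebra) :
      (fockM (FreeGroup ι)).toStarSubalgebra) ∈
        closure (Submodule.span ℂ (Set.range fun m => cheb (fockS (FreeGroup ι)) (m + 1)) :
          Set (fockM (FreeGroup ι)).toStarSubalgebra)) :
    FreeHaar T (fun o : Option ι => o.elim v fun i => fockLam (FreeGroup ι) (FreeGroup.of i)) := by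
  intro γ hγ
  obtain ⟨o, ho⟩ := fock_pingpong
    (fun (x : unitary (fockM (FreeGroup ι)).toStarSubalgebra) (ξ : FockL2 (FockTup (FreeGroup ι))) =>
      ((x : (fockM (FreeGroup ι)).toStarSubalgebra) : FockB (FreeGroup ι)) ξ)
    (fun x y ξ => rfl)
    (fun o : Option ι => o.elim v fun i => fockLam (FreeGroup ι) (FreeGroup.of i))
    (fun o => {ξ | ∀ t, ¬ fCls o t → ξ t = 0}) (fun o => {ξ | ∀ t, fCls o t → ξ t = 0})
    (fOm (FreeGroup ι))
    (fun o t ht => by
      rw [fOm, fockD_apply, if_neg]
      rintro rfl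
      exact not_fCls_om o ht)
    (fun o o' hoo ξ hξ t ht => hξ t fun h => hoo (fCls_unique h ht))
    (fun o n hn ξ hξ t ht => by
      cases o with
      | none =>
        let φ : (fockM (FreeGroup ι)).toStarSubalgebra →ₗ[ℂ] ℂ :=
          { toFun := fun x => (x : FockB (FreeGroup ι)) ξ t
            map_add' := fun x y => rfl
            map_smul' := fun c x => rfl }
        have hφ : Continuous φ := by
          have h1 : Continuous fun x : (fockM (FreeGroup ι)).toStarSubalgebra =>
              (x : FockB (FreeGroup ι)) ξ := continuous_subtype_val.clm_apply continuous_const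
          exact (lp.lipschitzWith_one_eval (E := fun _ : FockTup (FreeGroup ι) => ℂ) 2
            t).continuous.comp h1
        have hker : (Submodule.span ℂ (Set.range fun m => cheb (fockS (FreeGroup ι)) (m + 1)) :
            Set (fockM (FreeGroup ι)).toStarSubalgebra) ⊆ {x | φ x = 0} := by
          have : Submodule.span ℂ (Set.range fun m => cheb (fockS (FreeGroup ι)) (m + 1)) ≤
              LinearMap.ker φ := by
            rw [Submodule.span_le]
            rintro _ ⟨m, rfl⟩
            have h2 := fock_map_cheb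
              ((fockM (FreeGroup ι)).toStarSubalgebra.subtype : _ →+* FockB (FreeGroup ι))
              (fockS (FreeGroup ι)) (m + 1)
            have h3 := cheb_pingpong m ξ hξ t ht
            exact (congrArg (fun z : FockB (FreeGroup ι) => z ξ t) h2).trans h3
          exact fun x hx => this hx
        exact (isClosed_eq hφ continuous_const).closure_subset_iff.2 hker (hv n hn)
      | some i =>
        have h1 := fLam_pingpong i n hn ξ hξ t ht
        rw [← coe_fockLam, map_zpow] at h1
        exact h1)
    γ hγ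
  rw [fock_τ T hT, fPhi_apply]
  exact ho _ (not_fCls_om o)

end Free

variable {A : Type*} [CStarAlgebra A] {K : Type*} [NormedAddCommGroup K] [InnerProductSpace ℂ K]

theorem fock_model (ι : Type) [DecidableEq ι] [Countable ι] (i₁ : ι) :
    ∃ (A : Type) (_ : CStarAlgebra A) (K : Type) (_ : NormedAddCommGroup K)
      (_ : InnerProductSpace ℂ K) (T : TrModel A K) (a : ι → unitary A) (s : A),
      T.Sep ∧ IsSelfAdjoint s ∧ ‖s‖ ≤ 2 ∧ FreeHaar T a ∧
      T.cl2 (StarAlgebra.adjoin ℂ ((Set.range fun i => (a i : A)) ∪ {s})) = ⊤ ∧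
      SDs (T.cl2 (StarAlgebra.adjoin ℂ ((fun i => (a i : A)) '' {i | i ≠ i₁}))) T (a i₁) s ∧
      SDu (T.cl2 (StarAlgebra.adjoin ℂ ((fun i => (a i : A)) '' {i | i ≠ i₁}))) T (a i₁) s ∧
      (∀ m, T.τ (cheb s (m + 1)) = 0) ∧
      ∀ v : unitary A, (∀ n : ℤ, n ≠ 0 → ((v ^ n : unitary A) : A) ∈
          closure (Submodule.span ℂ (Set.range fun m => cheb s (m + 1)) : Set A)) →
        FreeHaar T (fun o : Option ι => o.elim v a) := by
  obtain ⟨T, hT⟩ := exists_model _ _ (fock_faithful (G := FreeGroup ι))
  have := fock_separable (X := FockTup (FreeGroup ι))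
  refine ⟨(fockM (FreeGroup ι)).toStarSubalgebra, inferInstance, _, inferInstance, inferInstance, T,
    fun i => fockLam (FreeGroup ι) (FreeGroup.of i), fockS (FreeGroup ι), model_sep T,
    Subtype.ext fS_sa.star_eq, norm_fS_le, ?_, ?_, ?_, ?_, ?_, fock_free T hT⟩
  · intro γ hγ
    rw [← FreeGroup.lift_unique (fockLam (FreeGroup ι)) (fun _ => rfl), fock_τ T hT, coe_fockLam,
      fPhi_apply, fOm, fLam_D, fockD_apply, if_neg]
    simpa [FockTup.lmul] using Ne.symm hγ
  · refine eq_top_iff.2 fun x _ => (model_mem_cl2_iff T hT fock_faithful _ x).2 fun N hN => ?_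
    refine fockM_le N ?_ x.2
    rintro _ (⟨γ, rfl⟩ | rfl)
    · induction γ using FreeGroup.induction_on with
      | C1 => rw [fLam_one]; exact one_mem N
      | of i => exact hN _ (Or.inl ⟨i, rfl⟩)
      | inv_of i hi => rw [← star_fLam]; exact star_mem hi
      | mul x y hx hy => rw [fLam_mul]; exact mul_mem hx hy
    · exact hN (fockS _) (Or.inr rfl)
  · refine fock_SDs T hT _ ?_ _
    rintro _ ⟨i, _, rfl⟩
    exact ⟨_, rfl⟩
  · refine fock_SDu T hT i₁ _ ?_
    rintro _ ⟨i, hi, rfl⟩
    exact ⟨i, hi, rfl⟩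
  · intro m
    have h2 := fock_map_cheb
      ((fockM (FreeGroup ι)).toStarSubalgebra.subtype : _ →+* FockB (FreeGroup ι))
      (fockS (FreeGroup ι)) (m + 1)
    have h3 := cheb_pingpong m (fOm (FreeGroup ι)) (fun t ht => by
      rw [fOm, fockD_apply, if_neg]
      rintro rfl
      exact not_fCls_om none ht) _ (not_fCls_om none)
    rw [fock_τ T hT, fPhi_apply]
    exact (congrArg (fun z : FockB (FreeGroup ι) => z (fOm _) (FockTup.one 1)) h2).trans h3

end Crest.Agent.R134
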