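import Crest.Agent.R134.Defs

/-! Tracial algebras generated by free Haar unitaries are isomorphic. -/

set_option autoImplicit false

namespace Crest.Agent.R134

open Crest.Agent.R95
open scoped ComplexConjugate InnerProductSpace Topology
open Filter Complex

variable {A : Type*} [CStarAlgebra A] {K : Type*} [NormedAddCommGroup K] [InnerProductSpace ℂ K]

section Aux

variable {A' : Type*} [CStarAlgebra A'] {K' : Type*} [NormedAddCommGroup K']
  [InnerProductSpace ℂ K'] {C : Type*} [CStarAlgebra C]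

lemma iso_mul_aux (T : TrModel A K) {x y b c : A} {ε δ : ℝ}
    (h1 : ‖T.ι (x - b)‖ < ε / (2 * (‖y‖ + 1))) (h2 : ‖T.ι (y - c)‖ < δ)
    (hδ : δ ≤ ε / (2 * (‖b‖ + 1))) : ‖T.ι (x * y - b * c)‖ < ε := by
  rw [show x * y - b * c = (x - b) * y + b * (y - c) by noncomm_ring, map_add]
  have h2 := h2.trans_le hδ
  have h3 : ‖T.ι ((x - b) * y)‖ < ε / 2 := by
    refine (T.norm_mul_le' _ _).trans_lt ?_
    rw [lt_div_iff₀ (by positivity)] at h1
    nlinarith [norm_nonneg y, norm_nonneg (T.ι (x - b))]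
  have h4 : ‖T.ι (b * (y - c))‖ < ε / 2 := by
    refine (T.norm_mul_le _ _).trans_lt ?_
    rw [lt_div_iff₀ (by positivity)] at h2
    nlinarith [norm_nonneg b, norm_nonneg (T.ι (y - c))]
  linarith [norm_add_le (T.ι ((x - b) * y)) (T.ι (b * (y - c)))]

lemma iso_add_aux (T : TrModel A K) {x y b c : A} {ε : ℝ}
    (h1 : ‖T.ι (x - b)‖ < ε / 2) (h2 : ‖T.ι (y - c)‖ < ε / 2) : ‖T.ι (x + y - (b + c))‖ < ε := by
  rw [show x + y - (b + c) = (x - b) + (y - c) by abel, map_add]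
  linarith [norm_add_le (T.ι (x - b)) (T.ι (y - c))]

lemma iso_tri_aux (T : TrModel A K) {x b c : A} {ε : ℝ}
    (h1 : ‖T.ι (x - b)‖ < ε / 2) (h2 : ‖T.ι (b - c)‖ < ε / 2) : ‖T.ι (x - c)‖ < ε := by
  rw [show x - c = (x - b) + (b - c) by abel, map_add]
  linarith [norm_add_le (T.ι (x - b)) (T.ι (b - c))]

/-- joint 2-norm closure -/
def isoCl (T : TrModel A K) (T' : TrModel A' K') (π : C →⋆ₐ[ℂ] A) (π' : C →⋆ₐ[ℂ] A')
    (B : StarSubalgebra ℂ C) : StarSubalgebra ℂ C where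
  carrier := {x | ∀ ε : ℝ, 0 < ε → ∃ b ∈ B, ‖T.ι (π x - π b)‖ < ε ∧ ‖T'.ι (π' x - π' b)‖ < ε}
  mul_mem' := by
    intro x y hx hy ε hε
    obtain ⟨b, hb, h1, h1'⟩ := hx (min (ε / (2 * (‖π y‖ + 1))) (ε / (2 * (‖π' y‖ + 1))))
      (by positivity)
    obtain ⟨c, hc, h2, h2'⟩ := hy (min (ε / (2 * (‖π b‖ + 1))) (ε / (2 * (‖π' b‖ + 1))))
      (by positivity)
    refine ⟨b * c, mul_mem hb hc, ?_, ?_⟩
    · rw [map_mul, map_mul]
      exact iso_mul_aux T (h1.trans_le (min_le_left _ _)) h2 (min_le_left _ _)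
    · rw [map_mul, map_mul]
      exact iso_mul_aux T' (h1'.trans_le (min_le_right _ _)) h2' (min_le_right _ _)
  add_mem' := by
    intro x y hx hy ε hε
    obtain ⟨b, hb, h1, h1'⟩ := hx (ε / 2) (by positivity)
    obtain ⟨c, hc, h2, h2'⟩ := hy (ε / 2) (by positivity)
    refine ⟨b + c, add_mem hb hc, ?_, ?_⟩
    · rw [map_add π, map_add π]; exact iso_add_aux T h1 h2
    · rw [map_add π', map_add π']; exact iso_add_aux T' h1' h2'
  algebraMap_mem' := fun r ε hε =>
    ⟨algebraMap ℂ C r, B.algebraMap_mem r, by simpa using hε, by simpa using hε⟩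
  star_mem' := by
    intro x hx ε hε
    obtain ⟨b, hb, h1, h1'⟩ := hx ε hε
    refine ⟨star b, star_mem hb, ?_, ?_⟩
    · rwa [map_star, map_star, ← star_sub, T.norm_star]
    · rwa [map_star, map_star, ← star_sub, T'.norm_star]

variable {T : TrModel A K} {T' : TrModel A' K'} {π : C →⋆ₐ[ℂ] A} {π' : C →⋆ₐ[ℂ] A'}
  {B : StarSubalgebra ℂ C}

lemma mem_isoCl {x : C} : x ∈ isoCl T T' π π' B ↔
    ∀ ε : ℝ, 0 < ε → ∃ b ∈ B, ‖T.ι (π x - π b)‖ < ε ∧ ‖T'.ι (π' x - π' b)‖ < ε := Iff.rfl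

lemma isoCl_swap : isoCl T T' π π' B = isoCl T' T π' π B := by
  ext x
  simp only [mem_isoCl, and_comm]

lemma le_isoCl : B ≤ isoCl T T' π π' B :=
  fun x hx ε hε => ⟨x, hx, by simpa using hε, by simpa using hε⟩

lemma mem_isoCl_of_approx {x : C} (h : ∀ ε : ℝ, 0 < ε → ∃ b ∈ isoCl T T' π π' B,
    ‖T.ι (π x - π b)‖ < ε ∧ ‖T'.ι (π' x - π' b)‖ < ε) : x ∈ isoCl T T' π π' B := by
  intro ε hε
  obtain ⟨b, hb, h1, h1'⟩ := h (ε / 2) (by positivity)
  obtain ⟨c, hc, h2, h2'⟩ := hb (ε / 2) (by positivity)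
  exact ⟨c, hc, iso_tri_aux T h1 h2, iso_tri_aux T' h1' h2'⟩

lemma isClosed_isoCl : IsClosed (isoCl T T' π π' B : Set C) := by
  refine isClosed_of_closure_subset fun x hx => mem_isoCl_of_approx fun ε hε => ?_
  obtain ⟨b, hb, h⟩ := Metric.mem_closure_iff.1 hx ε hε
  rw [dist_eq_norm] at h
  refine ⟨b, hb, ?_, ?_⟩
  · rw [← map_sub π]
    exact ((T.norm_le _).trans (NonUnitalStarAlgHom.norm_apply_le π _)).trans_lt h
  · rw [← map_sub π']
    exact ((T'.norm_le _).trans (NonUnitalStarAlgHom.norm_apply_le π' _)).trans_lt h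

lemma isoCl_τ (hB : ∀ b ∈ B, T.τ (π b) = T'.τ (π' b)) {x : C} (hx : x ∈ isoCl T T' π π' B) :
    T.τ (π x) = T'.τ (π' x) := by
  rw [← sub_eq_zero, ← norm_eq_zero]
  refine le_antisymm (le_of_forall_pos_le_add fun ε hε => ?_) (norm_nonneg _)
  obtain ⟨b, hb, h1, h1'⟩ := hx (ε / 2) (by positivity)
  have e : T.τ (π x) - T'.τ (π' x) = T.τ (π x - π b) - T'.τ (π' x - π' b) := by
    rw [map_sub, map_sub, hB b hb]; ring
  rw [e]
  linarith [norm_sub_le (T.τ (π x - π b)) (T'.τ (π' x - π' b)), T.norm_τ_le (π x - π b),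
    T'.norm_τ_le (π' x - π' b)]

lemma isoCl_norm (hB : ∀ b ∈ B, T.τ (π b) = T'.τ (π' b)) {x : C} (hx : x ∈ isoCl T T' π π' B) :
    ‖T.ι (π x)‖ = ‖T'.ι (π' x)‖ := by
  have := isoCl_τ hB (mul_mem (star_mem hx) hx)
  rw [map_mul π, map_mul π', map_star π, map_star π'] at this
  refine (sq_eq_sq₀ (norm_nonneg _) (norm_nonneg _)).1 ?_
  rw [T.norm_sq_eq, T'.norm_sq_eq, this]

lemma isoCl_injective (hB : ∀ b ∈ B, T.τ (π b) = T'.τ (π' b))
    (hinj : ∀ x, π x = 0 → π' x = 0 → x = 0) :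
    Function.Injective (π.comp (isoCl T T' π π' B).subtype) := by
  rw [injective_iff_map_eq_zero]
  intro x hx
  have hx' : π x = 0 := hx
  have := isoCl_norm hB x.2
  rw [hx', map_zero, norm_zero] at this
  exact Subtype.ext (hinj _ hx' (T'.eq_zero_of_norm this.symm))

lemma iso_inv_mem {S : StarSubalgebra ℂ C} (hS : IsClosed (S : Set C)) {x y : C} (hx : x ∈ S)
    (h1 : x * y = 1) (h2 : y * x = 1) : y ∈ S := by
  have hu : IsUnit ((⟨x, hx⟩ : S) : C) := ⟨⟨x, y, h1, h2⟩, rfl⟩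
  obtain ⟨z, hz⟩ := ((S.coe_isUnit (hS := hS)).1 hu).exists_right_inv
  have hz' : x * (z : C) = 1 := congrArg Subtype.val hz
  rw [left_inv_eq_right_inv h2 hz']
  exact z.2

lemma iso_map_res (π : C →⋆ₐ[ℂ] A) {x : C} (hx : IsSelfAdjoint x) : π (res x) = res (π x) := by
  have h := congrArg π (mul_res hx)
  rw [map_mul, map_sub, map_one, map_smul] at h
  exact (left_inv_eq_right_inv (res_mul (hx.map π)) h).symm

lemma isoCl_surjective (hB : ∀ b ∈ B, T.τ (π b) = T'.τ (π' b))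
    (hinj : ∀ x, π x = 0 → π' x = 0 → x = 0) (hpair : ∀ c c', ∃ x, π x = c ∧ π' x = c')
    (hg : T.cl2 (B.map π) = ⊤) :
    Function.Surjective (π.comp (isoCl T T' π π' B).subtype) := by
  have hcl : IsClosed (isoCl T T' π π' B : Set C) := isClosed_isoCl
  have hiso := NonUnitalStarAlgHom.isometry _ (isoCl_injective hB hinj)
  have hrange : (((isoCl T T' π π' B).map π : StarSubalgebra ℂ A) : Set A) =
      Set.range (π.comp (isoCl T T' π π' B).subtype) := by
    ext y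
    constructor
    · rintro ⟨x, hx, rfl⟩
      exact ⟨⟨x, hx⟩, rfl⟩
    · rintro ⟨x, rfl⟩
      exact ⟨x, x.2, rfl⟩
  have hS : IsClosed (((isoCl T T' π π' B).map π : StarSubalgebra ℂ A) : Set A) := by
    rw [hrange]
    exact hiso.isClosedEmbedding.isClosed_range
  have hsa : ∀ x : A, IsSelfAdjoint x → x ∈ (isoCl T T' π π' B).map π := by
    intro x hx
    have happ : ∀ n : ℕ, ∃ b ∈ B, IsSelfAdjoint b ∧ ‖T.ι (π b - x)‖ < 1 / ((n : ℝ) + 1) := by
      intro n
      have hx' : x ∈ T.cl2 (B.map π) := hg ▸ StarSubalgebra.mem_top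
      obtain ⟨_, ⟨b, hb, rfl⟩, h⟩ := hx' (1 / ((n : ℝ) + 1)) (by positivity)
      refine ⟨(2 : ℂ)⁻¹ • (b + star b), SMulMemClass.smul_mem _ (add_mem hb (star_mem hb)), ?_, ?_⟩
      · simp [IsSelfAdjoint, add_comm]
      · have e : π ((2 : ℂ)⁻¹ • (b + star b)) - x =
            (-(2 : ℂ)⁻¹) • ((x - π b) + star (x - π b)) := by
          rw [map_smul, map_add, map_star, star_sub, hx.star_eq]
          module
        have h' : ‖T.ι (x - π b)‖ < 1 / ((n : ℝ) + 1) := h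
        rw [e, map_smul, map_add, norm_smul]
        have h3 := norm_add_le (T.ι (x - π b)) (T.ι (star (x - π b)))
        rw [T.norm_star] at h3
        simp only [norm_neg, norm_inv, Complex.norm_ofNat]
        linarith
    choose b hb hbs hbx using happ
    have hres : ∀ n, res (b n) ∈ isoCl T T' π π' B := fun n =>
      iso_inv_mem hcl (sub_mem (one_mem _) (SMulMemClass.smul_mem I (le_isoCl (hb n))))
        (mul_res (hbs n)) (res_mul (hbs n))
    have hlim : Tendsto (fun n => T.ι (π (res (b n)))) atTop (𝓝 (T.ι (res x))) := by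
      rw [tendsto_iff_norm_sub_tendsto_zero]
      refine squeeze_zero (fun n => norm_nonneg _) (fun n => ?_)
        tendsto_one_div_add_atTop_nhds_zero_nat
      rw [iso_map_res π (hbs n), ← map_sub]
      exact (T.norm_res_sub_res_le hx ((hbs n).map π)).trans (hbx n).le
    have hcau : CauchySeq fun n => T'.ι (π' (res (b n))) := by
      have := hlim.cauchySeq
      rw [Metric.cauchySeq_iff] at this ⊢
      intro ε hε
      obtain ⟨N, hN⟩ := this ε hε
      refine ⟨N, fun m hm n hn => ?_⟩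
      have h := hN m hm n hn
      rw [dist_eq_norm, ← map_sub, ← map_sub] at h ⊢
      rwa [← isoCl_norm hB (sub_mem (hres m) (hres n))]
    obtain ⟨c', -, hc'⟩ := T'.complete (fun n => π' (res (b n))) 1
      (fun n => by rw [iso_map_res π' (hbs n)]; exact norm_res_le ((hbs n).map π')) hcau
    obtain ⟨p, hp, hp'⟩ := hpair (res x) c'
    have hpm : p ∈ isoCl T T' π π' B := by
      refine mem_isoCl_of_approx fun ε hε => ?_
      obtain ⟨n, h1, h2⟩ := (((Metric.tendsto_nhds.1 hlim) ε hε).and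
        ((Metric.tendsto_nhds.1 hc') ε hε)).exists
      rw [dist_comm, dist_eq_norm, ← map_sub] at h1 h2
      exact ⟨_, hres n, hp ▸ h1, hp' ▸ h2⟩
    have h1 : 1 - I • x ∈ (isoCl T T' π π' B).map π :=
      iso_inv_mem hS ⟨p, hpm, hp⟩ (res_mul hx) (mul_res hx)
    have h2 := SMulMemClass.smul_mem I (sub_mem h1 (one_mem _))
    have e : I • (1 - I • x - 1) = x := by
      rw [sub_sub_cancel_left, smul_neg, smul_smul, I_mul_I]; simp
    rwa [e] at h2
  intro x
  have : x ∈ (isoCl T T' π π' B).map π := by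
    rw [← realPart_add_I_smul_imaginaryPart x]
    exact add_mem (hsa _ (realPart x).2) (SMulMemClass.smul_mem I (hsa _ (imaginaryPart x).2))
  change x ∈ Set.range _
  rw [← hrange]
  exact this

lemma iso_of_pair (hB : ∀ b ∈ B, T.τ (π b) = T'.τ (π' b))
    (hinj : ∀ x, π x = 0 → π' x = 0 → x = 0) (hpair : ∀ c c', ∃ x, π x = c ∧ π' x = c')
    (hg : T.cl2 (B.map π) = ⊤) (hg' : T'.cl2 (B.map π') = ⊤) :
    ∃ Φ : A ≃⋆ₐ[ℂ] A', ∀ x, T'.τ (Φ x) = T.τ x := by
  have h1 : Function.Bijective (π.comp (isoCl T T' π π' B).subtype) :=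
    ⟨isoCl_injective hB hinj, isoCl_surjective hB hinj hpair hg⟩
  have h2 : Function.Bijective (π'.comp (isoCl T T' π π' B).subtype) := by
    rw [isoCl_swap]
    have hB' : ∀ b ∈ B, T'.τ (π' b) = T.τ (π b) := fun b hb => (hB b hb).symm
    have hinj' : ∀ x, π' x = 0 → π x = 0 → x = 0 := fun x h h' => hinj x h' h
    exact ⟨isoCl_injective hB' hinj', isoCl_surjective hB' hinj'
      (fun c c' => (hpair c' c).imp fun _ h => h.symm) hg'⟩
  refine ⟨(StarAlgEquiv.ofBijective _ h1).symm.trans (StarAlgEquiv.ofBijective _ h2), fun x => ?_⟩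
  obtain ⟨p, rfl⟩ := EquivLike.surjective (StarAlgEquiv.ofBijective _ h1) x
  rw [StarAlgEquiv.trans_apply, StarAlgEquiv.symm_apply_apply]
  exact (isoCl_τ hB p.2).symm

end Aux

theorem exists_iso {A' : Type*} [CStarAlgebra A'] {K' : Type*} [NormedAddCommGroup K']
    [InnerProductSpace ℂ K'] (T : TrModel A K) (T' : TrModel A' K') {ι : Type*}
    (a : ι → unitary A) (a' : ι → unitary A') (h : FreeHaar T a) (h' : FreeHaar T' a')
    (hg : T.cl2 (StarAlgebra.adjoin ℂ (Set.range fun i => (a i : A))) = ⊤)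
    (hg' : T'.cl2 (StarAlgebra.adjoin ℂ (Set.range fun i => (a' i : A'))) = ⊤) :
    ∃ Φ : A ≃⋆ₐ[ℂ] A', ∀ x, T'.τ (Φ x) = T.τ x := by
  let φ : FreeGroup ι →* A × A' :=
    ((unitary A).subtype.comp (FreeGroup.lift a)).prod ((unitary A').subtype.comp (FreeGroup.lift a'))
  let s : Set (A × A') := Set.range fun i => ((a i : A), (a' i : A'))
  refine iso_of_pair (π := StarAlgHom.fst ℂ A A') (π' := StarAlgHom.snd ℂ A A')
    (B := StarAlgebra.adjoin ℂ s) ?_ (fun x h h' => Prod.ext h h')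
    (fun c c' => ⟨(c, c'), rfl, rfl⟩) ?_ ?_
  · intro b hb
    have hb' : b ∈ Submodule.span ℂ (Submonoid.closure (s ∪ star s) : Set (A × A')) := by
      rw [← Algebra.adjoin_eq_span]
      exact hb
    have hle : Submonoid.closure (s ∪ star s) ≤ MonoidHom.mrange φ := by
      rw [Submonoid.closure_le]
      rintro p (⟨i, rfl⟩ | hp)
      · exact ⟨FreeGroup.of i, by simp [φ]⟩
      · obtain ⟨i, hi⟩ := Set.mem_star.1 hp
        refine ⟨(FreeGroup.of i)⁻¹, ?_⟩
        rw [← star_star p, ← hi]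
        simp [φ, ← Unitary.star_eq_inv, Prod.star_def]
    have hb'' := Submodule.span_mono (R := ℂ) (SetLike.coe_subset_coe.2 hle) hb'
    clear hb hb'
    induction hb'' using Submodule.span_induction with
    | mem x hx =>
      obtain ⟨γ, rfl⟩ := hx
      by_cases hγ : γ = 1
      · subst hγ; simp
      · exact (h γ hγ).trans (h' γ hγ).symm
    | zero => simp
    | add x y _ _ hx hy => simp only [map_add, hx, hy]
    | smul c x _ hx => simp only [map_smul, hx]
  · rw [eq_top_iff, ← hg]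
    refine T.cl2_mono (StarAlgebra.adjoin_le ?_)
    rintro _ ⟨i, rfl⟩
    exact ⟨_, StarAlgebra.subset_adjoin ℂ s ⟨i, rfl⟩, rfl⟩
  · rw [eq_top_iff, ← hg']
    refine T'.cl2_mono (StarAlgebra.adjoin_le ?_)
    rintro _ ⟨i, rfl⟩
    exact ⟨_, StarAlgebra.subset_adjoin ℂ s ⟨i, rfl⟩, rfl⟩

end Crest.Agent.R134
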