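import Crest.Agent.R134.Defs

/-! A Haar unitary generating the same algebra as a semicircular element. -/

set_option autoImplicit false

namespace Crest.Agent.R134

open Crest.Agent.R95
open scoped ComplexConjugate InnerProductSpace Topology
open Real Set

/-- A continuous function on a compact space that factors through `a` lies in every closed
⋆-subalgebra containing `a`. -/
lemma semi_mem_of_factorsThrough {X : Type*} [TopologicalSpace X] [CompactSpace X]
    (B : StarSubalgebra ℂ C(X, ℂ)) (hB : IsClosed (B : Set C(X, ℂ))) {a G : C(X, ℂ)} (ha : a ∈ B)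
    (h : ∀ x y, a x = a y → G x = G y) : G ∈ B := by
  have : CompactSpace (range a) := isCompact_iff_compactSpace.1 (isCompact_range a.continuous)
  let a' : C(X, range a) := ⟨fun x => ⟨a x, mem_range_self x⟩, by fun_prop⟩
  have hq : Topology.IsQuotientMap a' :=
    a'.continuous.isClosedMap.isQuotientMap a'.continuous
      (by rintro ⟨_, x, rfl⟩; exact ⟨x, rfl⟩)
  have hf : Function.FactorsThrough G a' := fun x y hxy => h x y (congrArg Subtype.val hxy)
  rw [← hq.lift_comp G hf]
  generalize hq.lift G hf = g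
  induction g using ContinuousMap.induction_on_of_compact with
  | const r => exact B.algebraMap_mem r
  | id => exact ha
  | star_id => exact star_mem ha
  | add f g hf hg => exact add_mem hf hg
  | mul f g hf hg => exact mul_mem hf hg
  | frequently f hf =>
    exact hf.mem_of_closed (hB.preimage (ContinuousMap.continuous_precomp a'))

/-- the parameter interval -/
abbrev semiJ : Type := Icc (0 : ℝ) π

/-- the function `2 cos θ` -/
noncomputable def semiC : C(semiJ, ℂ) := ⟨fun θ => ((2 * cos θ : ℝ) : ℂ), by fun_prop⟩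

lemma semiC_apply (θ : semiJ) : semiC θ = ((2 * cos θ : ℝ) : ℂ) := rfl

lemma semiC_star : star semiC = semiC := by
  ext θ
  rw [ContinuousMap.star_apply, semiC_apply]
  exact Complex.conj_ofReal _

lemma semi_cheb_apply (m : ℕ) (θ : semiJ) :
    cheb semiC m θ * (sin θ : ℝ) = (sin ((m + 1) * θ) : ℝ) := by
  induction m using Nat.twoStepInduction with
  | zero => simp [cheb]
  | one =>
    rw [cheb, semiC_apply, ← Complex.ofReal_mul]
    congr 1
    rw [show ((1 : ℕ) + 1 : ℝ) * θ = 2 * θ by norm_num, sin_two_mul]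
    ring
  | more m ih0 ih1 =>
    rw [cheb, ContinuousMap.sub_apply, ContinuousMap.mul_apply, sub_mul, mul_assoc, ih0, ih1,
      semiC_apply, ← Complex.ofReal_mul, ← Complex.ofReal_sub]
    congr 1
    have e1 : ((m + 2 : ℕ) + 1 : ℝ) * θ = ((m + 1 : ℕ) + 1 : ℝ) * θ + θ := by push_cast; ring
    have e2 : (m + 1 : ℝ) * θ = ((m + 1 : ℕ) + 1 : ℝ) * θ - θ := by push_cast; ring
    rw [e1, e2, sin_add, sin_sub]
    ring

/-- the span of the Chebyshev functions is dense -/
lemma semi_dense (G : C(semiJ, ℂ)) :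
    G ∈ closure (Submodule.span ℂ (range fun m => cheb semiC m) : Set C(semiJ, ℂ)) := by
  set W := Submodule.span ℂ (range fun m => cheb semiC m) with hW
  have hm : ∀ m, cheb semiC m ∈ W := fun m => Submodule.subset_span ⟨m, rfl⟩
  have hmul : ∀ F ∈ W, semiC * F ∈ W := by
    intro F hF
    induction hF using Submodule.span_induction with
    | mem x hx =>
      obtain ⟨m, rfl⟩ := hx
      cases m with
      | zero => simpa [cheb] using hm 1
      | succ m =>
        have : semiC * cheb semiC (m + 1) = cheb semiC (m + 2) + cheb semiC m := by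
          rw [cheb]; abel
        beta_reduce
        rw [this]
        exact add_mem (hm _) (hm _)
    | zero => simp
    | add x y _ _ hx hy => rw [mul_add]; exact add_mem hx hy
    | smul r x _ hx => rw [mul_smul_comm]; exact W.smul_mem _ hx
  have hpow : ∀ k : ℕ, semiC ^ k ∈ W := by
    intro k
    induction k with
    | zero => simpa [cheb] using hm 0
    | succ k ih => rw [pow_succ']; exact hmul _ ih
  have hadj : (StarAlgebra.adjoin ℂ {semiC} : Set C(semiJ, ℂ)) ⊆ W := by
    intro F hF
    have h1 : F ∈ (StarAlgebra.adjoin ℂ {semiC}).toSubalgebra := hF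
    rw [StarAlgebra.adjoin_toSubalgebra, star_singleton, semiC_star, union_self,
      Algebra.adjoin_singleton_eq_range_aeval] at h1
    obtain ⟨p, rfl⟩ := h1
    change Polynomial.aeval semiC p ∈ W
    rw [Polynomial.aeval_eq_sum_range]
    exact Submodule.sum_mem _ fun i _ => W.smul_mem _ (hpow i)
  refine closure_mono hadj ?_
  refine semi_mem_of_factorsThrough (StarAlgebra.adjoin ℂ {semiC}).topologicalClosure
    (StarSubalgebra.isClosed_topologicalClosure _)
    (StarSubalgebra.le_topologicalClosure _ (StarAlgebra.self_mem_adjoin_singleton ℂ _))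
    fun x y hxy => ?_
  rw [semiC_apply, semiC_apply, Complex.ofReal_inj] at hxy
  rw [Subtype.ext (injOn_cos x.2 y.2 (by linarith))]

/-- the semicircle law, in the angle variable -/
noncomputable def semiL : C(semiJ, ℂ) →ₗ[ℂ] ℂ where
  toFun G := (2 / π : ℝ) * ∫ θ in (0 : ℝ)..π, G (projIcc 0 π pi_pos.le θ) * ((sin θ ^ 2 : ℝ) : ℂ)
  map_add' F G := by
    simp only [ContinuousMap.add_apply, add_mul]
    rw [intervalIntegral.integral_add, mul_add]
    · exact Continuous.intervalIntegrable (by fun_prop) _ _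
    · exact Continuous.intervalIntegrable (by fun_prop) _ _
  map_smul' r F := by
    simp only [ContinuousMap.smul_apply, smul_eq_mul, mul_assoc, RingHom.id_apply]
    rw [intervalIntegral.integral_const_mul]
    ring

lemma semiL_eq (G : C(semiJ, ℂ)) (f : ℝ → ℂ)
    (h : ∀ θ : semiJ, G θ * ((sin θ ^ 2 : ℝ) : ℂ) = f θ) :
    semiL G = (2 / π : ℝ) * ∫ θ in (0 : ℝ)..π, f θ := by
  change (_ : ℂ) * _ = _
  congr 1
  refine intervalIntegral.integral_congr fun θ hθ => ?_
  rw [uIcc_of_le pi_pos.le] at hθ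
  simp only [projIcc_of_mem _ hθ]
  exact h ⟨θ, hθ⟩

lemma semiL_norm_le (G : C(semiJ, ℂ)) {M : ℝ} (h : ∀ θ : semiJ, ‖G θ‖ * sin θ ^ 2 ≤ M) :
    ‖semiL G‖ ≤ 2 * M := by
  change ‖(_ : ℂ) * _‖ ≤ _
  have h1 := intervalIntegral.norm_integral_le_of_norm_le_const (a := 0) (b := π) (C := M)
    (f := fun θ => G (projIcc 0 π pi_pos.le θ) * ((sin θ ^ 2 : ℝ) : ℂ)) fun θ hθ => by
      rw [uIoc_of_le pi_pos.le] at hθ
      have hθ' := Ioc_subset_Icc_self hθ
      rw [projIcc_of_mem _ hθ', norm_mul, Complex.norm_real, Real.norm_of_nonneg (sq_nonneg _)]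
      exact h ⟨θ, hθ'⟩
  rw [sub_zero, abs_of_pos pi_pos] at h1
  rw [norm_mul, Complex.norm_real, Real.norm_of_nonneg (by positivity)]
  refine (mul_le_mul_of_nonneg_left h1 (by positivity)).trans (le_of_eq ?_)
  field_simp

lemma semiL_continuous : Continuous semiL := by
  refine (semiL.mkContinuous 2 fun G => semiL_norm_le G fun θ => ?_).continuous
  exact (mul_le_of_le_one_right (norm_nonneg _) (sin_sq_le_one _)).trans (G.norm_coe_le_norm θ)

lemma semiL_one : semiL 1 = 1 := by
  rw [semiL_eq 1 (fun θ => ((sin θ ^ 2 : ℝ) : ℂ)) (fun θ => by simp),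
    intervalIntegral.integral_ofReal, integral_sin_sq, ← Complex.ofReal_mul]
  have := pi_pos
  rw [← Complex.ofReal_one]
  congr 1
  simp only [sin_zero, cos_zero, sin_pi, cos_pi]
  field_simp
  ring

lemma semiL_cheb (m : ℕ) : semiL (cheb semiC (m + 1)) = 0 := by
  rw [semiL_eq _ (fun θ => ((sin ((m + 2) * θ) * sin θ : ℝ) : ℂ)) (fun θ => by
    rw [sq, Complex.ofReal_mul, ← mul_assoc, semi_cheb_apply, ← Complex.ofReal_mul]
    congr 3
    push_cast
    ring), intervalIntegral.integral_ofReal]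
  have h1 : (m + 1 : ℝ) ≠ 0 := by positivity
  have h3 : (m + 3 : ℝ) ≠ 0 := by positivity
  rw [intervalIntegral.integral_eq_sub_of_hasDerivAt
    (f := fun θ => (sin ((m + 1) * θ) / (m + 1) - sin ((m + 3) * θ) / (m + 3)) / 2)]
  · have e1 : sin ((m + 1 : ℝ) * π) = 0 := by exact_mod_cast sin_nat_mul_pi (m + 1)
    have e3 : sin ((m + 3 : ℝ) * π) = 0 := by exact_mod_cast sin_nat_mul_pi (m + 3)
    simp [e1, e3]
  · intro θ _
    have a1 := ((hasDerivAt_id θ).const_mul (m + 1 : ℝ)).sin.div_const (m + 1 : ℝ)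
    have a3 := ((hasDerivAt_id θ).const_mul (m + 3 : ℝ)).sin.div_const (m + 3 : ℝ)
    refine HasDerivAt.congr_deriv ((a1.sub a3).div_const 2) ?_
    have e1 : (m + 1 : ℝ) * θ = (m + 2) * θ - θ := by ring
    have e3 : (m + 3 : ℝ) * θ = (m + 2) * θ + θ := by ring
    simp only [id, mul_one]
    rw [mul_div_cancel_right₀ _ h1, mul_div_cancel_right₀ _ h3, e1, e3, cos_sub, cos_add]
    ring
  · exact Continuous.intervalIntegrable (by fun_prop) _ _

/-- the distribution function of the semicircle law, times `2π` -/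
noncomputable def semiψ (θ : ℝ) : ℝ := 2 * θ - sin (2 * θ)

lemma semiψ_hasDerivAt (θ : ℝ) : HasDerivAt semiψ (4 * sin θ ^ 2) θ := by
  have a1 := (hasDerivAt_id θ).const_mul (2 : ℝ)
  refine HasDerivAt.congr_deriv (a1.sub a1.sin) ?_
  simp only [id, mul_one]
  rw [cos_two_mul, cos_sq']
  ring

@[fun_prop] lemma semiψ_continuous : Continuous semiψ := by
  unfold semiψ
  fun_prop

lemma semiψ_zero : semiψ 0 = 0 := by simp [semiψ]

lemma semiψ_pi : semiψ π = 2 * π := by simp [semiψ]

lemma semiψ_strictMonoOn : StrictMonoOn semiψ (Icc 0 π) := by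
  refine strictMonoOn_of_deriv_pos (convex_Icc _ _) semiψ_continuous.continuousOn fun θ hθ => ?_
  rw [interior_Icc] at hθ
  rw [(semiψ_hasDerivAt θ).deriv]
  have := sin_pos_of_pos_of_lt_pi hθ.1 hθ.2
  positivity

/-- the characters `exp (i n ψ)` -/
noncomputable def semiE (n : ℤ) : C(semiJ, ℂ) :=
  ⟨fun θ => Complex.exp (n * (semiψ θ * Complex.I)), by fun_prop⟩

lemma semiE_apply (n : ℤ) (θ : semiJ) : semiE n θ = Complex.exp (n * (semiψ θ * Complex.I)) := rfl

lemma semiE_zero : semiE 0 = 1 := by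
  ext θ
  simp [semiE_apply]

lemma semiE_add (n m : ℤ) : semiE (n + m) = semiE n * semiE m := by
  ext θ
  rw [ContinuousMap.mul_apply, semiE_apply, semiE_apply, semiE_apply, ← Complex.exp_add]
  congr 1
  push_cast
  ring

lemma semiE_star (n : ℤ) : star (semiE n) = semiE (-n) := by
  ext θ
  rw [ContinuousMap.star_apply, semiE_apply, semiE_apply, RCLike.star_def, ← Complex.exp_conj]
  congr 1
  simp

lemma semiL_E {n : ℤ} (hn : n ≠ 0) : semiL (semiE n) = 0 := by
  rw [semiL_eq _ (fun θ => Complex.exp (n * (semiψ θ * Complex.I)) * ((sin θ ^ 2 : ℝ) : ℂ))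
    (fun θ => rfl)]
  have hn' : (n : ℂ) ≠ 0 := by exact_mod_cast hn
  rw [intervalIntegral.integral_eq_sub_of_hasDerivAt
    (f := fun θ => Complex.exp (n * (semiψ θ * Complex.I)) / (4 * n * Complex.I))]
  · rw [semiψ_zero, semiψ_pi]
    have := Complex.exp_int_mul_two_pi_mul_I n
    push_cast
    rw [this]
    simp
  · intro θ _
    have a1 := (((semiψ_hasDerivAt θ).ofReal_comp.mul_const Complex.I).const_mul (n : ℂ)).cexp
    refine HasDerivAt.congr_deriv (a1.div_const _) ?_
    push_cast
    field_simp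
  · exact Continuous.intervalIntegrable (by fun_prop) _ _

lemma semiE_inj {x y : semiJ} (h : semiE 1 x = semiE 1 y) :
    x = y ∨ (sin (x : ℝ) = 0 ∧ sin (y : ℝ) = 0) := by
  rw [semiE_apply, semiE_apply, Complex.exp_eq_exp_iff_exists_int] at h
  obtain ⟨n, hn⟩ := h
  have h1 : semiψ x = semiψ y + n * (2 * π) := by
    have := congrArg Complex.im hn
    simpa using this
  have hp := pi_pos
  have m0 : (0 : ℝ) ∈ Icc 0 π := left_mem_Icc.2 hp.le
  have mp : π ∈ Icc 0 π := right_mem_Icc.2 hp.le
  have l0 : ∀ z : semiJ, 0 ≤ semiψ z := fun z =>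
    semiψ_zero.ge.trans (semiψ_strictMonoOn.monotoneOn m0 z.2 z.2.1)
  have lp : ∀ z : semiJ, semiψ z ≤ 2 * π := fun z =>
    (semiψ_strictMonoOn.monotoneOn z.2 mp z.2.2).trans semiψ_pi.le
  have e0 : ∀ z : semiJ, semiψ z ≤ 0 → sin (z : ℝ) = 0 := fun z hz => by
    rw [semiψ_strictMonoOn.injOn z.2 m0 (by rw [semiψ_zero]; exact le_antisymm hz (l0 z)), sin_zero]
  have ep : ∀ z : semiJ, 2 * π ≤ semiψ z → sin (z : ℝ) = 0 := fun z hz => by
    rw [semiψ_strictMonoOn.injOn z.2 mp (by rw [semiψ_pi]; exact le_antisymm (lp z) hz), sin_pi]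
  rcases lt_trichotomy n 0 with h0 | h0 | h0
  · have : (n : ℝ) ≤ -1 := by exact_mod_cast Int.le_sub_one_of_lt h0
    right
    exact ⟨e0 x (by nlinarith [lp y]), ep y (by nlinarith [l0 x])⟩
  · left
    rw [h0, Int.cast_zero, zero_mul, add_zero] at h1
    exact Subtype.ext (semiψ_strictMonoOn.injOn x.2 y.2 h1)
  · have : (1 : ℝ) ≤ n := by exact_mod_cast h0
    right
    exact ⟨ep x (by nlinarith [l0 y]), e0 y (by nlinarith [lp x])⟩

variable {A : Type*} [CStarAlgebra A] {K : Type*} [NormedAddCommGroup K] [InnerProductSpace ℂ K]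

/-- functional calculus in the angle variable -/
lemma semi_exists_hom {s : A} (hs : IsSelfAdjoint s) (hn : ‖s‖ ≤ 2) :
    ∃ Φ : C(semiJ, ℂ) →⋆ₐ[ℂ] A, Continuous Φ ∧ Φ semiC = s := by
  let k : C(spectrum ℂ s, semiJ) :=
    ⟨fun z => ⟨arccos ((z : ℂ).re / 2), arccos_nonneg _, arccos_le_pi _⟩, by fun_prop⟩
  refine ⟨(cfcHom (R := ℂ) hs.isStarNormal).comp (ContinuousMap.compStarAlgHom' ℂ ℂ k),
    (cfcHom_continuous hs.isStarNormal).comp (ContinuousMap.continuous_precomp k), ?_⟩
  refine Eq.trans ?_ (cfcHom_id (R := ℂ) hs.isStarNormal)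
  change cfcHom _ (semiC.comp k) = _
  congr 1
  ext z
  have h1 : ‖(z : ℂ)‖ ≤ 2 := by
    refine (spectrum.norm_le_norm_mul_of_mem z.2).trans ?_
    exact (mul_le_of_le_one_right (norm_nonneg _) norm_one_le').trans hn
  have h2 := abs_le.1 ((Complex.abs_re_le_norm (z : ℂ)).trans h1)
  change ((2 * cos (arccos ((z : ℂ).re / 2)) : ℝ) : ℂ) = z
  rw [cos_arccos (by linarith [h2.1]) (by linarith [h2.2]), mul_div_cancel₀ _ two_ne_zero]
  exact (hs.mem_spectrum_eq_re z.2).symm

lemma semi_map_cheb {B : Type*} [CStarAlgebra B] (Φ : B →⋆ₐ[ℂ] A) (b : B) (m : ℕ) :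
    Φ (cheb b m) = cheb (Φ b) m := by
  induction m using Nat.twoStepInduction with
  | zero => simp [cheb]
  | one => simp [cheb]
  | more m ih0 ih1 => rw [cheb, cheb, map_sub, map_mul, ih0, ih1]

lemma semi_τ_continuous (T : TrModel A K) : Continuous T.τ :=
  (T.τ.mkContinuous 1 fun a => by
    rw [one_mul]; exact (T.norm_τ_le a).trans (T.norm_le a)).continuous

lemma semi_isClosed_cl2 (T : TrModel A K) (B : StarSubalgebra ℂ A) :
    IsClosed (T.cl2 B : Set A) := by
  refine isClosed_of_closure_subset fun x hx ε hε => ?_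
  obtain ⟨y, hy, hxy⟩ := Metric.mem_closure_iff.1 hx (ε / 2) (by positivity)
  obtain ⟨b, hb, hyb⟩ := hy (ε / 2) (by positivity)
  refine ⟨b, hb, ?_⟩
  rw [show x - b = (x - y) + (y - b) by abel, map_add]
  rw [dist_eq_norm] at hxy
  linarith [norm_add_le (T.ι (x - y)) (T.ι (y - b)), T.norm_le (x - y)]

theorem haar_of_semicircular (T : TrModel A K) {s : A} (hs : IsSelfAdjoint s) (hn : ‖s‖ ≤ 2)
    (hτ : ∀ m, T.τ (cheb s (m + 1)) = 0) :
    ∃ v : unitary A, (∀ n : ℤ, n ≠ 0 → ((v ^ n : unitary A) : A) ∈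
        closure (Submodule.span ℂ (Set.range fun m => cheb s (m + 1)) : Set A)) ∧
      s ∈ T.cl2 (StarAlgebra.adjoin ℂ {(v : A)}) := by
  obtain ⟨Φ, hΦ, hΦs⟩ := semi_exists_hom hs hn
  have hch : ∀ m, Φ (cheb semiC m) = cheb s m := fun m => by rw [semi_map_cheb, hΦs]
  -- the trace is the semicircle law
  have hL : ∀ G, T.τ (Φ G) = semiL G := by
    intro G
    refine (isClosed_eq ((semi_τ_continuous T).comp hΦ) semiL_continuous).closure_subset_iff.2
      (fun F hF => ?_) (semi_dense G)
    change T.τ (Φ F) = semiL F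
    induction hF using Submodule.span_induction with
    | mem x hx =>
      obtain ⟨m, rfl⟩ := hx
      cases m with
      | zero => simp [cheb, semiL_one]
      | succ m => beta_reduce; rw [hch, hτ, semiL_cheb]
    | zero => simp
    | add x y _ _ hx hy => simp only [map_add, hx, hy]
    | smul r x _ hx => simp only [map_smul, hx]
  -- centred elements lie in the closed span
  set W := Submodule.span ℂ (Set.range fun m => cheb s (m + 1)) with hW
  have hcen : ∀ G, Φ G - semiL G • (1 : A) ∈ closure (W : Set A) := by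
    intro G
    have hc : Continuous fun G : C(semiJ, ℂ) => Φ G - semiL G • (1 : A) :=
      hΦ.sub (semiL_continuous.smul continuous_const)
    refine map_mem_closure (f := fun G : C(semiJ, ℂ) => Φ G - semiL G • (1 : A)) hc
      (semi_dense G) fun F hF => ?_
    change Φ F - semiL F • (1 : A) ∈ W
    induction hF using Submodule.span_induction with
    | mem x hx =>
      obtain ⟨m, rfl⟩ := hx
      cases m with
      | zero => simp [cheb, semiL_one]
      | succ m =>
        beta_reduce
        rw [hch, semiL_cheb, zero_smul, sub_zero]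
        exact Submodule.subset_span ⟨m, rfl⟩
    | zero => simp
    | add x y _ _ hx hy =>
      rw [map_add, map_add, add_smul, add_sub_add_comm]
      exact add_mem hx hy
    | smul r x _ hx =>
      rw [map_smul, map_smul, smul_assoc, ← smul_sub]
      exact W.smul_mem _ hx
  -- the unitaries
  have hU : ∀ n, Φ (semiE n) ∈ unitary A := by
    intro n
    constructor
    · rw [← map_star, ← map_mul, semiE_star, ← semiE_add, neg_add_cancel, semiE_zero, map_one]
    · rw [← map_star, ← map_mul, semiE_star, ← semiE_add, add_neg_cancel, semiE_zero, map_one]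
  let V : ℤ → unitary A := fun n => ⟨Φ (semiE n), hU n⟩
  have hVadd : ∀ n m, V (n + m) = V n * V m := fun n m =>
    Subtype.ext (by change Φ _ = Φ _ * Φ _; rw [semiE_add, map_mul])
  have hV : ∀ n, V 1 ^ n = V n := by
    intro n
    induction n using Int.induction_on with
    | zero => exact Subtype.ext (by change (1 : A) = Φ _; rw [semiE_zero, map_one])
    | succ n ih => rw [zpow_add_one, ih, hVadd]
    | pred n ih =>
      rw [zpow_sub_one, ih, mul_inv_eq_iff_eq_mul, ← hVadd, sub_add_cancel]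
  refine ⟨V 1, fun n hn0 => ?_, ?_⟩
  · have := hcen (semiE n)
    rw [semiL_E hn0, zero_smul, sub_zero] at this
    rw [hV]
    exact this
  · set B := StarAlgebra.adjoin ℂ {(V 1 : A)} with hB
    refine T.cl2_le_of_le_cl2 (le_refl (T.cl2 B)) fun ε hε => ?_
    set η : ℝ := ε ^ 2 / 4 with hη
    have hη0 : 0 < η := by positivity
    let G : C(semiJ, ℂ) := ⟨fun θ => ((2 * cos θ * (sin θ ^ 2 / (sin θ ^ 2 + η)) : ℝ) : ℂ), by
      refine Complex.continuous_ofReal.comp (Continuous.mul (by fun_prop)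
        (Continuous.div (by fun_prop) (by fun_prop) fun θ => ?_))
      positivity⟩
    have hGa : ∀ θ : semiJ, G θ = ((2 * cos θ * (sin θ ^ 2 / (sin θ ^ 2 + η)) : ℝ) : ℂ) :=
      fun _ => rfl
    have hG : G ∈ (T.cl2 B).comap Φ := by
      refine semi_mem_of_factorsThrough _ ((semi_isClosed_cl2 T B).preimage hΦ) (a := semiE 1)
        (T.le_cl2 B (StarAlgebra.self_mem_adjoin_singleton ℂ _)) fun x y hxy => ?_
      rcases semiE_inj hxy with rfl | ⟨hx, hy⟩
      · rfl
      · rw [hGa, hGa, hx, hy]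
        simp
    refine ⟨Φ G, hG, ?_⟩
    have h1 : ‖T.ι (s - Φ G)‖ ^ 2 ≤ 2 * η := by
      rw [T.norm_sq_eq, ← hΦs, ← map_sub, ← map_star, ← map_mul, hL]
      refine (Complex.re_le_norm _).trans (semiL_norm_le _ fun θ => ?_)
      rw [ContinuousMap.mul_apply, ContinuousMap.star_apply, norm_mul, norm_star,
        ContinuousMap.sub_apply, hGa, semiC_apply, ← Complex.ofReal_sub, Complex.norm_real,
        Real.norm_eq_abs, abs_mul_abs_self]
      have ha : 0 ≤ sin (θ : ℝ) ^ 2 := sq_nonneg _
      have hc : cos (θ : ℝ) ^ 2 ≤ 1 := cos_sq_le_one _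
      generalize sin (θ : ℝ) ^ 2 = a at ha
      generalize cos (θ : ℝ) = c at hc
      have hpos : 0 < a + η := by positivity
      have e : (2 * c - 2 * c * (a / (a + η))) * (2 * c - 2 * c * (a / (a + η))) * a =
          c ^ 2 * (η * (4 * a * η / (a + η) ^ 2)) := by
        field_simp
        ring
      rw [e]
      have h2 : 4 * a * η / (a + η) ^ 2 ≤ 1 := by
        rw [div_le_one (by positivity)]
        nlinarith [sq_nonneg (a - η)]
      calc c ^ 2 * (η * (4 * a * η / (a + η) ^ 2)) ≤ 1 * (η * 1) := by gcongr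
        _ = η := by ring
    refine lt_of_pow_lt_pow_left₀ 2 hε.le (h1.trans_lt ?_)
    rw [hη]
    nlinarith [pow_pos hε 2]

end Crest.Agent.R134
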