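import Crest.Agent.R134.Absorb
import Crest.Agent.R134.Iso
import Crest.Agent.R134.Fock
import Crest.Agent.R134.Semi

/-! The free group factors are isomorphic. -/

set_option autoImplicit false

namespace Crest.Agent.R134

open Crest.Agent.R95
open scoped ComplexConjugate InnerProductSpace Topology

variable {A : Type*} [CStarAlgebra A] {K : Type*} [NormedAddCommGroup K] [InnerProductSpace ℂ K]

lemma Final.freeHaar_comp {T : TrModel A K} {ι κ : Type*} {a : ι → unitary A} (h : FreeHaar T a)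
    (e : κ → ι) (he : Function.Injective e) : FreeHaar T (a ∘ e) := by
  intro γ hγ
  have h1 : FreeGroup.lift (a ∘ e) γ = FreeGroup.lift a (FreeGroup.map e γ) := by
    have : FreeGroup.lift (a ∘ e) = (FreeGroup.lift a).comp (FreeGroup.map e) := by
      ext i; simp
    rw [this]; rfl
  rw [h1]
  refine h _ fun h2 => hγ (FreeGroup.map_injective he ?_)
  rw [h2, map_one]

lemma Final.lift_eq_evW {ι : Type*} [DecidableEq ι] (P : StarSubalgebra ℂ A) (a : ι → unitary A)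
    (i₁ : ι) (hP : ∀ i, i ≠ i₁ → (a i : A) ∈ P) (L : List (ι × Bool)) :
    ∃ w : List (Lt P), (∀ l ∈ w, l ≠ Lt.s) ∧ ∀ u : unitary A,
      ((FreeGroup.lift (Function.update a i₁ u) (FreeGroup.mk L) : unitary A) : A) =
        evW (u : A) 0 w := by
  induction L with
  | nil => exact ⟨[], by simp, fun u => by simp [← FreeGroup.one_eq_mk]⟩
  | cons x L ih =>
    obtain ⟨w, hw, h⟩ := ih
    obtain ⟨i, b⟩ := x
    have key : ∃ l : Lt P, l ≠ Lt.s ∧ ∀ u : unitary A,
        ((FreeGroup.lift (Function.update a i₁ u) (FreeGroup.mk [(i, b)]) : unitary A) : A) =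
          evL (u : A) 0 l := by
      by_cases hi : i = i₁
      · subst hi
        cases b
        · exact ⟨Lt.v, by simp, fun u => by simp [evL, ← Unitary.star_eq_inv]⟩
        · exact ⟨Lt.u, by simp, fun u => by simp [evL]⟩
      · cases b
        · exact ⟨Lt.c ⟨star (a i : A), star_mem (hP i hi)⟩, by simp, fun u => by
            simp [evL, hi, ← Unitary.star_eq_inv]⟩
        · exact ⟨Lt.c ⟨(a i : A), hP i hi⟩, by simp, fun u => by simp [evL, hi]⟩
    obtain ⟨l, hl, hl'⟩ := key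
    refine ⟨l :: w, ?_, fun u => ?_⟩
    · intro l' hl''
      rcases List.mem_cons.1 hl'' with rfl | h'
      · exact hl
      · exact hw _ h'
    · rw [evW_cons, ← hl', ← h, show (i, b) :: L = [(i, b)] ++ L from rfl, ← FreeGroup.mul_mk,
        map_mul]
      rfl

/-- one algebra generated both by `n` and by `n + 1` free Haar unitaries -/
theorem Final.two_families (n : ℕ) (hn : 2 ≤ n) :
    ∃ (A : Type) (_ : CStarAlgebra A) (K : Type) (_ : NormedAddCommGroup K)
      (_ : InnerProductSpace ℂ K) (T : TrModel A K) (a : Fin n → unitary A)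
      (b : Fin (n + 1) → unitary A), FreeHaar T a ∧ FreeHaar T b ∧
      T.cl2 (StarAlgebra.adjoin ℂ (Set.range fun i => (a i : A))) = ⊤ ∧
      T.cl2 (StarAlgebra.adjoin ℂ (Set.range fun i => (b i : A))) = ⊤ := by
  let i₀ : Fin n := ⟨0, by omega⟩
  let i₁ : Fin n := ⟨1, by omega⟩
  have h01 : i₀ ≠ i₁ := by simp [i₀, i₁]
  obtain ⟨A, _, K, _, _, T, a, s, hsep, hs, hs2, hfree, hgen, hSs, hSu, hτ, hv⟩ :=
    fock_model (Fin n) i₁
  obtain ⟨v, hv1, hv2⟩ := haar_of_semicircular T hs hs2 hτ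
  set P := T.cl2 (StarAlgebra.adjoin ℂ ((fun i => (a i : A)) '' {i | i ≠ i₁})) with hPdef
  have hP : ∀ i, i ≠ i₁ → (a i : A) ∈ P := fun i hi =>
    T.le_cl2 _ (StarAlgebra.subset_adjoin _ _ ⟨i, hi, rfl⟩)
  have hfree2 : FreeHaar T ![a i₀, a i₁] := by
    have := Final.freeHaar_comp hfree ![i₀, i₁] (by
      intro x y hxy
      fin_cases x <;> fin_cases y <;> simp_all [h01.symm])
    convert this using 1
    funext x; fin_cases x <;> rfl
  obtain ⟨u, hu1, hu2⟩ := absorb T hsep P (a i₀) (a i₁) hs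
    (T.cl2_mono (StarAlgebra.adjoin_mono (by
      rintro _ rfl; exact ⟨i₀, h01, rfl⟩))) hfree2 hSs hSu (by
      refine top_le_iff.1 (hgen ▸ T.cl2_mono (StarAlgebra.adjoin_mono ?_))
      rintro x (⟨i, rfl⟩ | rfl)
      · by_cases hi : i = i₁
        · exact Or.inr (Or.inl (by rw [hi]))
        · exact Or.inl (hP i hi)
      · exact Or.inr (Or.inr rfl))
  refine ⟨A, inferInstance, K, inferInstance, inferInstance, T, Function.update a i₁ u,
    (fun o : Option (Fin n) => o.elim v a) ∘ finSuccEquiv n, ?_, ?_, ?_, ?_⟩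
  · intro γ hγ
    obtain ⟨L, rfl⟩ := Quot.exists_rep γ
    obtain ⟨w, hw, h⟩ := Final.lift_eq_evW P a i₁ hP L
    change T.τ ((FreeGroup.lift _ (FreeGroup.mk L) : unitary A) : A) = 0
    rw [h, hu1 w hw, ← h, Function.update_eq_self]
    exact hfree _ hγ
  · exact Final.freeHaar_comp (hv v hv1) _ (finSuccEquiv n).injective
  · refine top_le_iff.1 (hu2 ▸ T.cl2_le_of_le_cl2 (StarAlgebra.adjoin_le ?_))
    rintro x (hx | rfl)
    · refine T.cl2_mono (StarAlgebra.adjoin_mono ?_) hx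
      rintro _ ⟨i, hi, rfl⟩
      exact ⟨i, by simp [Function.update_of_ne hi]⟩
    · exact T.le_cl2 _ (StarAlgebra.subset_adjoin _ _ ⟨i₁, by simp⟩)
  · refine top_le_iff.1 (hgen ▸ T.cl2_le_of_le_cl2 (StarAlgebra.adjoin_le ?_))
    rintro x (⟨i, rfl⟩ | rfl)
    · exact T.le_cl2 _ (StarAlgebra.subset_adjoin _ _ ⟨i.succ, by simp⟩)
    · refine T.cl2_mono (StarAlgebra.adjoin_mono ?_) hv2
      rintro _ rfl
      exact ⟨0, by simp⟩

theorem free_group_factor_iso (n : ℕ) (hn : 2 ≤ n) :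
    ∃ Φ : (Crest.OpAlg.groupVNA (FreeGroup (Fin n))).toStarSubalgebra ≃⋆ₐ[ℂ]
        (Crest.OpAlg.groupVNA (FreeGroup (Fin (n + 1)))).toStarSubalgebra,
      ∀ x : (Crest.OpAlg.groupVNA (FreeGroup (Fin n))).toStarSubalgebra,
        Crest.OpAlg.groupTrace (FreeGroup (Fin (n + 1)))
          ((Φ x : (Crest.OpAlg.groupVNA (FreeGroup (Fin (n + 1)))).toStarSubalgebra) :
            Crest.OpAlg.ltwo (FreeGroup (Fin (n + 1))) →L[ℂ]
              Crest.OpAlg.ltwo (FreeGroup (Fin (n + 1)))) =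
          Crest.OpAlg.groupTrace (FreeGroup (Fin n))
            (x : Crest.OpAlg.ltwo (FreeGroup (Fin n)) →L[ℂ] Crest.OpAlg.ltwo (FreeGroup (Fin n))) := by
  obtain ⟨A, _, K, _, _, T, a, b, ha, hb, hga, hgb⟩ := Final.two_families n hn
  obtain ⟨T₁, a₁, h₁, hg₁, hτ₁⟩ := group_model (Fin n)
  obtain ⟨T₂, a₂, h₂, hg₂, hτ₂⟩ := group_model (Fin (n + 1))
  obtain ⟨Φ₁, hΦ₁⟩ := exists_iso T₁ T a₁ a h₁ ha hg₁ hga
  obtain ⟨Φ₂, hΦ₂⟩ := exists_iso T T₂ b a₂ hb h₂ hgb hg₂
  refine ⟨Φ₁.trans Φ₂, fun x => ?_⟩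
  rw [← hτ₁, ← hτ₂, StarAlgEquiv.trans_apply, hΦ₂, hΦ₁]

end Crest.Agent.R134
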