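import Crest.Agent.R134.Defs

/-! Lie series flow of a trace-annihilating polynomial derivation. -/

set_option autoImplicit false

namespace Crest.Agent.R134

open Crest.Agent.R95
open scoped ComplexConjugate InnerProductSpace Topology Nat
open Finset Filter

variable {A : Type*} [CStarAlgebra A] {K : Type*} [NormedAddCommGroup K] [InnerProductSpace ℂ K]

section Bounds
variable {P : StarSubalgebra ℂ A}

/-- weight of a letter -/
noncomputable def flowWt (ρ : ℝ) : Lt P → ℝ
  | .c a => ‖(a : A)‖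
  | .u => 1
  | .v => 1
  | .s => max ρ 1

/-- weight of a word -/
noncomputable def flowWtW (ρ : ℝ) (w : List (Lt P)) : ℝ := (w.map (flowWt ρ)).prod

lemma flowWt_nonneg (ρ : ℝ) (l : Lt P) : 0 ≤ flowWt ρ l := by
  cases l <;> simp [flowWt]

@[simp] lemma flowWtW_nil (ρ : ℝ) : flowWtW (P := P) ρ [] = 1 := rfl

@[simp] lemma flowWtW_cons (ρ : ℝ) (l : Lt P) (w : List (Lt P)) :
    flowWtW ρ (l :: w) = flowWt ρ l * flowWtW ρ w := by simp [flowWtW]

@[simp] lemma flowWtW_append (ρ : ℝ) (w w' : List (Lt P)) :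
    flowWtW ρ (w ++ w') = flowWtW ρ w * flowWtW ρ w' := by simp [flowWtW]

lemma flowWtW_nonneg (ρ : ℝ) (w : List (Lt P)) : 0 ≤ flowWtW ρ w := by
  induction w with
  | nil => simp
  | cons l w ih => rw [flowWtW_cons]; exact mul_nonneg (flowWt_nonneg ρ l) ih

/-- `f` has degree at most `d` and weighted `ℓ¹` norm at most `r` -/
inductive FlowBd (ρ : ℝ) (d : ℕ) : ℝ → FA P → Prop
  | word (c : ℝ) (w : List (Lt P)) (r : ℝ) (hd : w.length ≤ d) (hr : |c| * flowWtW ρ w ≤ r) :
      FlowBd ρ d r (c • wd w)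
  | add {r r' : ℝ} {f g : FA P} : FlowBd ρ d r f → FlowBd ρ d r' g → FlowBd ρ d (r + r') (f + g)

namespace FlowBd
variable {ρ : ℝ} {d d' : ℕ} {r r' : ℝ} {f g : FA P}

lemma nonneg (h : FlowBd ρ d r f) : 0 ≤ r := by
  induction h with
  | word c w r _ hr => exact (mul_nonneg (abs_nonneg c) (flowWtW_nonneg ρ w)).trans hr
  | add _ _ h1 h2 => exact add_nonneg h1 h2

lemma mono (h : FlowBd ρ d r f) (hd : d ≤ d') (hr : r ≤ r') : FlowBd ρ d' r' f := by
  induction h generalizing r' with
  | word c w r h1 h2 => exact .word c w r' (h1.trans hd) (h2.trans hr)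
  | @add r₁ r₂ f g _ _ h1 h2 =>
    have := FlowBd.add (h1 le_rfl) (h2 (r' := r' - r₁) (by linarith))
    rwa [add_sub_cancel] at this

lemma zero (hr : 0 ≤ r) : FlowBd ρ d r (0 : FA P) := by
  simpa using FlowBd.word (P := P) (ρ := ρ) (d := d) 0 [] r (by simp) (by simpa using hr)

lemma of_wd (ρ : ℝ) (w : List (Lt P)) : FlowBd ρ w.length (flowWtW ρ w) (wd w) := by
  simpa using FlowBd.word (ρ := ρ) (d := w.length) 1 w (flowWtW ρ w) le_rfl (by simp)

lemma of_lt (ρ : ℝ) (l : Lt P) : FlowBd ρ 1 (flowWt ρ l) (lt l) := by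
  simpa using of_wd ρ [l]

lemma mul (hf : FlowBd ρ d r f) (hg : FlowBd ρ d' r' g) : FlowBd ρ (d + d') (r * r') (f * g) := by
  induction hf with
  | word c w r h1 h2 =>
    induction hg with
    | word c' w' r' k1 k2 =>
      rw [smul_mul_smul_comm, ← wd_append]
      refine .word _ _ _ (by rw [List.length_append]; omega) ?_
      rw [abs_mul, flowWtW_append, mul_mul_mul_comm]
      exact mul_le_mul h2 k2 (mul_nonneg (abs_nonneg _) (flowWtW_nonneg _ _))
        ((mul_nonneg (abs_nonneg _) (flowWtW_nonneg _ _)).trans h2)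
    | add _ _ k1 k2 => rw [mul_add, mul_add]; exact k1.add k2
  | add _ _ h1 h2 => rw [add_mul, add_mul]; exact h1.add h2

lemma smul (c : ℝ) (hf : FlowBd ρ d r f) : FlowBd ρ d (|c| * r) (c • f) := by
  have := (FlowBd.word (P := P) (ρ := ρ) (d := 0) c [] |c| le_rfl (by simp)).mul hf
  simpa using this

lemma exists_bd (ρ : ℝ) (f : FA P) : ∃ d r, FlowBd ρ d r f := by
  induction f using FA_induction with
  | hw w => exact ⟨_, _, of_wd ρ w⟩
  | hs c f h => obtain ⟨d, r, h⟩ := h; exact ⟨_, _, h.smul c⟩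
  | ha f g hf hg =>
    obtain ⟨d, r, h⟩ := hf
    obtain ⟨d', r', h'⟩ := hg
    exact ⟨max d d', r + r',
      (h.mono (le_max_left _ _) le_rfl).add (h'.mono (le_max_right _ _) le_rfl)⟩

lemma norm_ev_le {u s : A} (hu : u ∈ unitary A) (hs : ‖s‖ ≤ ρ) (h : FlowBd ρ d r f) :
    ‖ev u s f‖ ≤ r := by
  induction h with
  | word c w r h1 h2 =>
    refine le_trans ?_ h2
    rw [map_smul, norm_smul, Real.norm_eq_abs, ev_wd]
    refine mul_le_mul_of_nonneg_left ?_ (abs_nonneg c)
    clear h1 h2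
    induction w with
    | nil => simpa using norm_one_le'
    | cons l w ih =>
      rw [evW_cons, flowWtW_cons]
      refine (norm_mul_le _ _).trans (mul_le_mul ?_ ih (norm_nonneg _) (flowWt_nonneg _ _))
      cases l with
      | c a => exact le_rfl
      | u => exact norm_unitary_le hu
      | v => exact norm_unitary_le (Unitary.star_mem hu)
      | s => exact hs.trans (le_max_left _ _)
  | add _ _ h1 h2 => rw [map_add]; exact (norm_add_le _ _).trans (add_le_add h1 h2)

lemma exists_derL (ρ : ℝ) (X Y : FA P) :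
    ∃ (D : ℕ) (C : ℝ), 1 ≤ D ∧ 0 ≤ C ∧ ∀ l, FlowBd ρ D (C * flowWt ρ l) (derL X Y l) := by
  obtain ⟨d₁, r₁, h₁⟩ := exists_bd ρ (derL X Y .u)
  obtain ⟨d₂, r₂, h₂⟩ := exists_bd ρ (derL X Y .v)
  obtain ⟨d₃, r₃, h₃⟩ := exists_bd ρ (derL X Y .s)
  have := h₁.nonneg
  have := h₂.nonneg
  have := h₃.nonneg
  refine ⟨d₁ + d₂ + d₃ + 1, r₁ + r₂ + r₃, by omega, by positivity, fun l => ?_⟩
  cases l with
  | c a => exact zero (mul_nonneg (by positivity) (flowWt_nonneg _ _))
  | u => exact h₁.mono (by omega) (by simp only [flowWt]; linarith)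
  | v => exact h₂.mono (by omega) (by simp only [flowWt]; linarith)
  | s =>
    refine h₃.mono (by omega) ?_
    have h1 : (1 : ℝ) ≤ max ρ 1 := le_max_right _ _
    simp only [flowWt]
    nlinarith

lemma der_bd {X Y : FA P} {D : ℕ} {C : ℝ} (hC : 0 ≤ C)
    (hL : ∀ l, FlowBd ρ D (C * flowWt ρ l) (derL X Y l)) (h : FlowBd ρ d r f) :
    FlowBd ρ (d + D) (d * C * r) (der X Y f) := by
  have hw : ∀ w : List (Lt P),
      FlowBd ρ (w.length + D) (w.length * C * flowWtW ρ w) (der X Y (wd w)) := by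
    intro w
    induction w with
    | nil => simpa using zero le_rfl
    | cons l w ih =>
      rw [wd_cons, der_mul, der_lt]
      have h1 := ((hL l).mul (of_wd ρ w)).mono (d' := (l :: w).length + D)
        (by simp only [List.length_cons]; omega) le_rfl
      have h2 := ((of_lt ρ l).mul ih).mono (d' := (l :: w).length + D)
        (by simp only [List.length_cons]; omega) le_rfl
      refine (h1.add h2).mono le_rfl (le_of_eq ?_)
      simp only [List.length_cons, flowWtW_cons]
      push_cast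
      ring
  induction h with
  | word c w r h1 h2 =>
    rw [map_smul]
    refine ((hw w).smul c).mono (by omega) ?_
    have h3 : (w.length : ℝ) ≤ d := by exact_mod_cast h1
    have h4 := mul_nonneg (abs_nonneg c) (flowWtW_nonneg ρ w)
    calc |c| * (w.length * C * flowWtW ρ w) = w.length * C * (|c| * flowWtW ρ w) := by ring
      _ ≤ d * C * r := by gcongr
  | add _ _ h1 h2 => rw [map_add, mul_add]; exact h1.add h2

lemma der_pow_bd {X Y : FA P} {D : ℕ} {C : ℝ} (hD : 1 ≤ D) (hC : 0 ≤ C)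
    (hL : ∀ l, FlowBd ρ D (C * flowWt ρ l) (derL X Y l)) (h : FlowBd ρ d r f) (m : ℕ) :
    FlowBd ρ (d + m * D) (r * (C * D) ^ m * ((d + 1).ascFactorial m : ℕ))
      (((der X Y : Module.End ℝ (FA P)) ^ m) f) := by
  induction m with
  | zero => simpa using h
  | succ m ih =>
    rw [pow_succ' (der X Y : Module.End ℝ (FA P)), Module.End.mul_apply]
    refine (ih.der_bd hC hL).mono (le_of_eq (by ring)) ?_
    have h0 := h.nonneg
    have h1 : ((d + m * D : ℕ) : ℝ) ≤ D * (d + 1 + m : ℕ) := by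
      exact_mod_cast (by nlinarith : d + m * D ≤ D * (d + 1 + m))
    rw [Nat.ascFactorial_succ, Nat.cast_mul]
    calc ((d + m * D : ℕ) : ℝ) * C * (r * (C * D) ^ m * ((d + 1).ascFactorial m : ℕ))
        ≤ (D * (d + 1 + m : ℕ)) * C * (r * (C * D) ^ m * ((d + 1).ascFactorial m : ℕ)) := by
          gcongr
      _ = _ := by ring

end FlowBd

/-- factorial growth of the iterated derivation -/
lemma flow_growth (ρ : ℝ) (X Y : FA P) :
    ∃ R : ℝ, 0 < R ∧ ∃ r : FA P → ℝ, ∀ f, 0 ≤ r f ∧ ∀ u s : A, u ∈ unitary A → ‖s‖ ≤ ρ → ∀ m : ℕ,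
      ‖ev u s (((der X Y : Module.End ℝ (FA P)) ^ m) f)‖ ≤ r f * R ^ m * m ! := by
  obtain ⟨D, C, hD, hC, hL⟩ := FlowBd.exists_derL ρ X Y
  choose d r hdr using FlowBd.exists_bd (P := P) ρ
  refine ⟨2 * (C * D) + 1, by positivity, fun f => r f * 2 ^ d f, fun f => ?_⟩
  have h0 := (hdr f).nonneg
  refine ⟨by positivity, fun u s hu hs m => ?_⟩
  refine (((hdr f).der_pow_bd hD hC hL m).norm_ev_le hu hs).trans ?_
  rw [Nat.ascFactorial_eq_factorial_mul_choose, Nat.cast_mul]
  have h1 : (((d f + m).choose m : ℕ) : ℝ) ≤ 2 ^ (d f + m) := by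
    exact_mod_cast Nat.choose_le_two_pow _ _
  calc r f * (C * D) ^ m * ((m ! : ℕ) * ((d f + m).choose m : ℕ))
      ≤ r f * (C * D) ^ m * ((m ! : ℕ) * 2 ^ (d f + m)) := by gcongr
    _ = r f * 2 ^ d f * (2 * (C * D)) ^ m * m ! := by rw [mul_pow 2, pow_add]; ring
    _ ≤ r f * 2 ^ d f * (2 * (C * D) + 1) ^ m * m ! := by gcongr; linarith

end Bounds

section Series
variable {P : StarSubalgebra ℂ A}

lemma flow_der_pow_mul (X Y f g : FA P) (m : ℕ) :
    ((der X Y : Module.End ℝ (FA P)) ^ m) (f * g) =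
      ∑ p ∈ antidiagonal m, m.choose p.1 •
        (((der X Y : Module.End ℝ (FA P)) ^ p.1) f * ((der X Y : Module.End ℝ (FA P)) ^ p.2) g) := by
  induction m with
  | zero => simp
  | succ m ih =>
    rw [pow_succ' (der X Y : Module.End ℝ (FA P)), Module.End.mul_apply, ih,
      sum_antidiagonal_choose_succ_nsmul (fun i j =>
        ((der X Y : Module.End ℝ (FA P)) ^ i) f * ((der X Y : Module.End ℝ (FA P)) ^ j) g),
      map_sum, ← sum_add_distrib]
    refine sum_congr rfl fun p hp => ?_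
    rw [map_nsmul, der_mul, smul_add, add_comm, pow_succ', pow_succ', Module.End.mul_apply,
      Module.End.mul_apply, ← Nat.choose_symm_of_eq_add (mem_antidiagonal.1 hp).symm]

/-- the terms of the Lie series -/
noncomputable def flowE (X Y : FA P) (h : ℝ) (m : ℕ) : Module.End ℝ (FA P) :=
  (h ^ m / m !) • (der X Y : Module.End ℝ (FA P)) ^ m

lemma flowE_apply (X Y : FA P) (h : ℝ) (m : ℕ) (f : FA P) :
    flowE X Y h m f = (h ^ m / m !) • ((der X Y : Module.End ℝ (FA P)) ^ m) f := rfl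

@[simp] lemma flowE_zero (X Y : FA P) (h : ℝ) (f : FA P) : flowE X Y h 0 f = f := by
  simp [flowE_apply]

lemma flowE_one (X Y : FA P) (h : ℝ) (f : FA P) : flowE X Y h 1 f = h • der X Y f := by
  simp [flowE_apply]

lemma flowE_succ (X Y : FA P) (h : ℝ) (m : ℕ) (f : FA P) :
    flowE X Y h (m + 1) f =
      der X Y ((h ^ (m + 1) / (m + 1)!) • ((der X Y : Module.End ℝ (FA P)) ^ m) f) := by
  rw [flowE_apply, pow_succ' (der X Y : Module.End ℝ (FA P)), Module.End.mul_apply, map_smul]

lemma flowE_succ_eq_zero {X Y f : FA P} (hf : der X Y f = 0) (h : ℝ) (m : ℕ) :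
    flowE X Y h (m + 1) f = 0 := by
  rw [flowE_apply, pow_succ (der X Y : Module.End ℝ (FA P)), Module.End.mul_apply, hf, map_zero,
    smul_zero]

lemma flow_choose_div (a b : ℝ) (i j : ℕ) :
    ((i + j).choose i : ℝ) * (a * b) / (i + j)! = a / i ! * (b / j !) := by
  have h : (((i + j)! : ℕ) : ℝ) = (i + j).choose i * i ! * j ! := by
    rw [Nat.choose_symm_add]
    exact_mod_cast (Nat.add_choose_mul_factorial_mul_factorial i j).symm
  have h1 : (((i + j).choose i : ℕ) : ℝ) ≠ 0 := by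
    exact_mod_cast (Nat.choose_pos (Nat.le_add_right i j)).ne'
  have h2 : ((i ! : ℕ) : ℝ) ≠ 0 := by exact_mod_cast i.factorial_ne_zero
  have h3 : ((j ! : ℕ) : ℝ) ≠ 0 := by exact_mod_cast j.factorial_ne_zero
  rw [h]
  field_simp

lemma flowE_mul (X Y : FA P) (h : ℝ) (m : ℕ) (f g : FA P) :
    flowE X Y h m (f * g) = ∑ p ∈ antidiagonal m, flowE X Y h p.1 f * flowE X Y h p.2 g := by
  rw [flowE_apply, flow_der_pow_mul, smul_sum]
  refine sum_congr rfl fun p hp => ?_
  rw [flowE_apply, flowE_apply, smul_mul_smul_comm, ← Nat.cast_smul_eq_nsmul ℝ, smul_smul,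
    ← flow_choose_div, ← pow_add, mem_antidiagonal.1 hp]
  congr 1
  ring

lemma flowE_flowE (X Y : FA P) (h k : ℝ) (l m : ℕ) (f : FA P) :
    flowE X Y k l (flowE X Y h m f) =
      (((m + l).choose m : ℝ) * (h ^ m * k ^ l) / (m + l)!) •
        ((der X Y : Module.End ℝ (FA P)) ^ (m + l)) f := by
  rw [flowE_apply, flowE_apply, map_smul, smul_smul, flow_choose_div, mul_comm, add_comm m l,
    pow_add, Module.End.mul_apply]

lemma flowE_antidiagonal (X Y : FA P) (h : ℝ) (n : ℕ) (f : FA P) :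
    ∑ p ∈ antidiagonal (n + 1), flowE X Y h p.2 (flowE X Y (-h) p.1 f) = 0 := by
  have h1 : ∀ p ∈ antidiagonal (n + 1), flowE X Y h p.2 (flowE X Y (-h) p.1 f) =
      (((n + 1).choose p.1 • ((-h) ^ p.1 * h ^ p.2)) / ((n + 1)! : ℝ)) •
        ((der X Y : Module.End ℝ (FA P)) ^ (n + 1)) f := by
    intro p hp
    rw [flowE_flowE, mem_antidiagonal.1 hp, nsmul_eq_mul]
  rw [sum_congr rfl h1, ← sum_smul, ← sum_div, ← (Commute.all (-h) h).add_pow']
  simp

lemma flow_der_sig {X Y : FA P} (hX : sig X = -X) (hY : sig Y = Y) (f : FA P) :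
    der X Y (sig f) = sig (der X Y f) := by
  induction f using FreeAlgebra.induction with
  | grade0 r => rw [sig_algebraMap, Algebra.algebraMap_eq_smul_one]; simp
  | grade1 l => cases l <;> simp [starL, derL, hX, hY]
  | mul f g hf hg => simp [der_mul, hf, hg, add_comm]
  | add f g hf hg => simp [hf, hg]

lemma flowE_sig {X Y : FA P} (hX : sig X = -X) (hY : sig Y = Y) (h : ℝ) (m : ℕ) (f : FA P) :
    flowE X Y h m (sig f) = sig (flowE X Y h m f) := by
  rw [flowE_apply, flowE_apply, map_smul]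
  congr 1
  induction m with
  | zero => simp
  | succ m ih =>
    rw [pow_succ' (der X Y : Module.End ℝ (FA P)), Module.End.mul_apply, Module.End.mul_apply, ih,
      flow_der_sig hX hY]

lemma flow_hasSum_antidiagonal {F : ℕ × ℕ → A} {a : A} (h : HasSum F a) :
    HasSum (fun n => ∑ p ∈ antidiagonal n, F p) a := by
  refine (Finset.HasAntidiagonal.sigmaAntidiagonalEquivProd.hasSum_iff.2 h).sigma fun n => ?_
  rw [← Finset.sum_finset_coe]
  exact hasSum_fintype _

lemma flow_mem_cl2_of_tendsto (T : TrModel A K) {B : StarSubalgebra ℂ A} {x : ℕ → A} {a : A}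
    (hx : ∀ n, x n ∈ B) (h : Tendsto x atTop (𝓝 a)) : a ∈ T.cl2 B := by
  intro ε hε
  obtain ⟨n, hn⟩ := (Metric.tendsto_nhds.1 h ε hε).exists
  refine ⟨x n, hx n, (T.norm_le _).trans_lt ?_⟩
  rwa [dist_comm, dist_eq_norm] at hn

end Series

theorem flow {P : StarSubalgebra ℂ A} (T : TrModel A K) (X Y : FA P) (hX : sig X = -X)
    (hY : sig Y = Y) (ρ : ℝ) :
    ∃ h₀ : ℝ, 0 < h₀ ∧ ∃ C : FA P → ℝ, ∀ u s : A, u ∈ unitary A → IsSelfAdjoint s → ‖s‖ ≤ ρ →
      (∀ f : FA P, T.τ (ev u s (der X Y f)) = 0) → ∀ h : ℝ, |h| ≤ h₀ →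
        ∃ u' s' : A, u' ∈ unitary A ∧ IsSelfAdjoint s' ∧
          (∀ f : FA P, T.τ (ev u' s' f) = T.τ (ev u s f)) ∧
          (∀ f : FA P, ‖ev u' s' f - ev u s f - h • ev u s (der X Y f)‖ ≤ C f * h ^ 2) ∧
          u ∈ T.cl2 (StarAlgebra.adjoin ℂ ((P : Set A) ∪ {u', s'})) ∧
          s ∈ T.cl2 (StarAlgebra.adjoin ℂ ((P : Set A) ∪ {u', s'})) := by
  obtain ⟨R, hR, r, hr⟩ := flow_growth ρ X Y
  refine ⟨1 / (4 * R), by positivity, fun f => 2 * r f * R ^ 2, ?_⟩
  intro u s hu hs hρ hτ h hh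
  have hhR : |h| * R ≤ 1 / 4 := by
    rw [le_div_iff₀ (by positivity)] at hh
    linarith
  have hfac : ∀ m : ℕ, (0 : ℝ) < m ! := fun m => by exact_mod_cast m.factorial_pos
  -- bounds on the terms
  have hE : ∀ f m, ‖ev u s (flowE X Y h m f)‖ ≤ r f * (|h| * R) ^ m := by
    intro f m
    rw [flowE_apply, map_smul, norm_smul, Real.norm_eq_abs, abs_div, abs_pow,
      abs_of_pos (hfac m)]
    calc |h| ^ m / m ! * ‖ev u s (((der X Y : Module.End ℝ (FA P)) ^ m) f)‖
        ≤ |h| ^ m / m ! * (r f * R ^ m * m !) := by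
          gcongr; exact (hr f).2 u s hu hρ m
      _ = r f * (|h| * R) ^ m := by
          have := (hfac m).ne'
          rw [mul_pow]; field_simp
  have hE' : ∀ f m, ‖ev u s (flowE X Y h m f)‖ ≤ r f * (1 / 2) ^ m := by
    intro f m
    refine (hE f m).trans ?_
    have := (hr f).1
    gcongr
    linarith
  have hsn : ∀ f, Summable fun m => ‖ev u s (flowE X Y h m f)‖ := fun f =>
    Summable.of_nonneg_of_le (fun _ => norm_nonneg _) (hE' f)
      (summable_geometric_two.mul_left (r f))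
  set α : FA P → A := fun f => ∑' m, ev u s (flowE X Y h m f) with hα
  have hsum : ∀ f, HasSum (fun m => ev u s (flowE X Y h m f)) (α f) := fun f =>
    (hsn f).of_norm.hasSum
  have hconst : ∀ f, der X Y f = 0 → α f = ev u s f := by
    intro f hf
    refine (hsum f).unique ?_
    have := hasSum_single (f := fun m => ev u s (flowE X Y h m f)) 0 (fun m hm => by
      obtain ⟨k, rfl⟩ := Nat.exists_eq_succ_of_ne_zero hm
      rw [flowE_succ_eq_zero hf, map_zero])
    simpa using this
  have hadd : ∀ f g, α (f + g) = α f + α g := by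
    intro f g
    refine (hsum _).unique ?_
    simpa only [map_add] using (hsum f).add (hsum g)
  have hmul : ∀ f g, α (f * g) = α f * α g := by
    intro f g
    simp only [hα]
    rw [tsum_mul_tsum_eq_tsum_sum_antidiagonal_of_summable_norm (hsn f) (hsn g)]
    simp only [flowE_mul, map_sum, map_mul]
  have hstar : ∀ f, α (sig f) = star (α f) := by
    intro f
    refine (hsum _).unique ?_
    simpa only [flowE_sig hX hY, ev_sig hs] using (hsum f).star
  set u' := α (lt .u) with hu'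
  set s' := α (lt .s) with hs'
  have hev : ∀ f, ev u' s' f = α f := by
    intro f
    induction f using FreeAlgebra.induction with
    | grade0 c =>
      rw [hconst _ (by rw [Algebra.algebraMap_eq_smul_one]; simp), AlgHom.commutes,
        AlgHom.commutes]
    | grade1 l =>
      cases l with
      | c a => rw [hconst _ (by simp [derL]), ev_lt, ev_lt]; rfl
      | u => rw [ev_lt]; rfl
      | v => rw [ev_lt, evL, hu', ← hstar, sig_lt]; rfl
      | s => rw [ev_lt]; rfl
    | mul f g hf hg => rw [map_mul, hmul, hf, hg]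
    | add f g hf hg => rw [map_add, hadd, hf, hg]
  have hsa : IsSelfAdjoint s' := by
    rw [IsSelfAdjoint, hs', ← hstar, sig_lt]; rfl
  have hcont : Continuous T.τ :=
    AddMonoidHomClass.continuous_of_bound T.τ 1 fun a => by
      rw [one_mul]; exact (T.norm_τ_le a).trans (T.norm_le a)
  have htr : ∀ f : FA P, T.τ (ev u' s' f) = T.τ (ev u s f) := by
    intro f
    rw [hev]
    refine ((hsum f).map T.τ hcont).unique ?_
    have := hasSum_single (f := fun m => T.τ (ev u s (flowE X Y h m f))) 0 (fun m hm => by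
      obtain ⟨k, rfl⟩ := Nat.exists_eq_succ_of_ne_zero hm
      rw [flowE_succ, hτ])
    rw [flowE_zero] at this
    exact this
  have hker : ∀ f : FA P, ev u s f = 0 → ev u' s' f = 0 := by
    intro f hf
    refine T.eq_zero_of_norm (pow_eq_zero_iff (two_ne_zero) |>.1 ?_)
    rw [T.norm_sq_eq, ← ev_sig hsa, ← map_mul, htr, map_mul, hf]
    simp
  have hinv : ∀ f : FA P, ev u s f ∈ T.cl2 (StarAlgebra.adjoin ℂ ((P : Set A) ∪ {u', s'})) := by
    intro f
    let F : ℕ × ℕ → A := fun p => ev u s (flowE X Y h p.2 (flowE X Y (-h) p.1 f))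
    have hF : ∀ p, ‖F p‖ ≤ r f * (1 / 2) ^ p.1 * (1 / 2) ^ p.2 := by
      rintro ⟨m, l⟩
      have h0 := (hr f).1
      have h1 : (((m + l).choose m : ℕ) : ℝ) ≤ 2 ^ (m + l) := by
        exact_mod_cast Nat.choose_le_two_pow _ _
      simp only [F]
      rw [flowE_flowE, map_smul, norm_smul, Real.norm_eq_abs, abs_div, abs_mul, abs_mul, abs_pow,
        abs_pow, abs_neg, abs_of_pos (hfac _), Nat.abs_cast, ← pow_add]
      calc ((m + l).choose m : ℝ) * |h| ^ (m + l) / (m + l)! *
            ‖ev u s (((der X Y : Module.End ℝ (FA P)) ^ (m + l)) f)‖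
          ≤ 2 ^ (m + l) * |h| ^ (m + l) / (m + l)! * (r f * R ^ (m + l) * (m + l)!) := by
            gcongr; exact (hr f).2 u s hu hρ _
        _ = r f * (2 * (|h| * R)) ^ (m + l) := by
            have := (hfac (m + l)).ne'
            rw [mul_pow, mul_pow]; field_simp
        _ ≤ r f * (1 / 2) ^ (m + l) := by gcongr; linarith
        _ = _ := by rw [pow_add, mul_assoc]
    have hFs : Summable F := by
      refine Summable.of_norm_bounded ?_ hF
      exact Summable.mul_of_nonneg (f := fun m : ℕ => r f * (1 / 2 : ℝ) ^ m)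
        (g := fun m : ℕ => (1 / 2 : ℝ) ^ m) (summable_geometric_two.mul_left (r f))
        summable_geometric_two (fun m => mul_nonneg (hr f).1 (by positivity))
        (fun m => by positivity)
    have h1 : ∑' p, F p = ev u s f := by
      refine (flow_hasSum_antidiagonal hFs.hasSum).unique ?_
      have := hasSum_single (f := fun n => ∑ p ∈ antidiagonal n, F p) 0 (fun m hm => by
        obtain ⟨k, rfl⟩ := Nat.exists_eq_succ_of_ne_zero hm
        simp only [F]
        rw [← map_sum, flowE_antidiagonal, map_zero])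
      simpa [F] using this
    have h2 : HasSum (fun m => ev u' s' (flowE X Y (-h) m f)) (ev u s f) := by
      rw [← h1]
      refine hFs.hasSum.prod_fiberwise fun m => ?_
      rw [hev]
      exact hsum _
    refine flow_mem_cl2_of_tendsto T (fun n => ?_) h2.tendsto_sum_nat
    exact sum_mem fun m _ => ev_mem_adjoin _ _ _
  refine ⟨u', s', ⟨?_, ?_⟩, hsa, htr, fun f => ?_, ?_, ?_⟩
  · have := hker (lt .v * lt .u - 1) (by simp [evL, hu.1])
    simpa [evL, sub_eq_zero] using this
  · have := hker (lt .u * lt .v - 1) (by simp [evL, hu.2])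
    simpa [evL, sub_eq_zero] using this
  · have h1 := (hasSum_nat_add_iff' 2).2 (hsum f)
    rw [sum_range_succ, sum_range_one, flowE_zero, flowE_one, map_smul, ← sub_sub, ← hev] at h1
    refine (h1.norm_le_of_bounded
      (hasSum_geometric_two.mul_left (r f * R ^ 2 * h ^ 2)) fun m => ?_).trans (le_of_eq (by ring))
    refine (hE f (m + 2)).trans ?_
    have := (hr f).1
    calc r f * (|h| * R) ^ (m + 2) = r f * R ^ 2 * h ^ 2 * (|h| * R) ^ m := by
          rw [pow_add, mul_pow |h| R 2, sq_abs]; ring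
      _ ≤ r f * R ^ 2 * h ^ 2 * (1 / 2) ^ m := by gcongr; linarith
  · simpa [evL] using hinv (lt .u)
  · simpa [evL] using hinv (lt .s)

end Crest.Agent.R134
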