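import Crest.Agent.R134.Defs

/-! Auxiliary material for the Fock model: composition operators on `ℓ²`, splittings of words,
ping-pong, and reduced words. -/

set_option autoImplicit false

namespace Crest.Agent.R134

open scoped ComplexConjugate InnerProductSpace Topology

/-! ### Composition operators -/

section L2

/-- square-summable functions -/
abbrev FockL2 (X : Type*) : Type _ := lp (fun _ : X => ℂ) 2

variable {X Y : Type*}

theorem fock_sum_le {f : X → Y} (hf : Function.Injective f) (ξ : FockL2 Y) (s : Finset X) :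
    ∑ i ∈ s, ‖ξ (f i)‖ ^ (2 : ENNReal).toReal ≤ ‖ξ‖ ^ (2 : ENNReal).toReal := by
  have := lp.sum_rpow_le_norm_rpow (by norm_num) ξ (s.map ⟨f, hf⟩)
  rwa [Finset.sum_map] at this

/-- composition with an injective map -/
noncomputable def fockCmp (f : X → Y) (hf : Function.Injective f) : FockL2 Y →L[ℂ] FockL2 X :=
  LinearMap.mkContinuous
    { toFun := fun ξ => ⟨fun x => ξ (f x), memℓp_gen' (fock_sum_le hf ξ)⟩
      map_add' := fun ξ η => by ext x; rfl
      map_smul' := fun c ξ => by ext x; rfl } 1 (fun ξ => by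
        rw [one_mul]
        exact lp.norm_le_of_forall_sum_le (by norm_num) (norm_nonneg _) (fock_sum_le hf ξ))

theorem fockCmp_apply (f : X → Y) (hf : Function.Injective f) (ξ : FockL2 Y) (x : X) :
    fockCmp f hf ξ x = ξ (f x) := rfl

theorem norm_fockCmp_le (f : X → Y) (hf : Function.Injective f) : ‖fockCmp f hf‖ ≤ 1 :=
  LinearMap.mkContinuous_norm_le _ zero_le_one _

/-- push-forward along an injective map -/
noncomputable def fockV (f : X → Y) (hf : Function.Injective f) : FockL2 X →L[ℂ] FockL2 Y :=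
  ContinuousLinearMap.adjoint (fockCmp f hf)

theorem norm_fockV_le (f : X → Y) (hf : Function.Injective f) : ‖fockV f hf‖ ≤ 1 := by
  rw [fockV, LinearIsometryEquiv.norm_map]
  exact norm_fockCmp_le f hf

theorem star_fockV (f : X → X) (hf : Function.Injective f) : star (fockV f hf) = fockCmp f hf := by
  rw [fockV, ContinuousLinearMap.star_eq_adjoint, ContinuousLinearMap.adjoint_adjoint]

variable [DecidableEq X] [DecidableEq Y]

/-- basis vectors -/
noncomputable def fockD (x : X) : FockL2 X := lp.single 2 x 1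

theorem fockD_apply (x y : X) : fockD x y = if y = x then 1 else 0 := by
  rw [fockD, lp.single_apply, Pi.single_apply]

theorem norm_fockD (x : X) : ‖fockD x‖ = 1 := by
  rw [fockD, lp.norm_single (by norm_num), norm_one]

theorem inner_fockD (x : X) (ξ : FockL2 X) : ⟪fockD x, ξ⟫_ℂ = ξ x := by
  rw [fockD, lp.inner_single_left]
  simp

theorem fock_single_eq (x : X) (c : ℂ) : (lp.single 2 x c : FockL2 X) = c • fockD x := by
  rw [fockD, ← lp.single_smul]
  simp

theorem fock_ext {F : Type*} [NormedAddCommGroup F] [NormedSpace ℂ F] {a b : FockL2 X →L[ℂ] F}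
    (h : ∀ x, a (fockD x) = b (fockD x)) : a = b := by
  refine lp.ext_continuousLinearMap (by norm_num) fun x => ?_
  ext
  simpa [fockD] using h x

theorem fockCmp_D (f : X → Y) (hf : Function.Injective f) (x : X) :
    fockCmp f hf (fockD (f x)) = fockD x := by
  ext y
  rw [fockCmp_apply, fockD_apply, fockD_apply]
  simp [hf.eq_iff]

omit [DecidableEq X] in
theorem fockCmp_D_of_ne (f : X → Y) (hf : Function.Injective f) {y : Y} (hy : ∀ x, f x ≠ y) :
    fockCmp f hf (fockD y) = 0 := by
  ext x
  rw [fockCmp_apply, fockD_apply]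
  simp [hy x]

theorem fockV_D (f : X → Y) (hf : Function.Injective f) (x : X) :
    fockV f hf (fockD x) = fockD (f x) := by
  ext y
  rw [← inner_fockD, fockV, ContinuousLinearMap.adjoint_inner_right, ← inner_conj_symm,
    inner_fockD, fockCmp_apply, fockD_apply, fockD_apply]
  by_cases h : y = f x
  · simp [h]
  · simp [h, Ne.symm h]

omit [DecidableEq X] in
theorem fockV_apply_of_ne (f : X → Y) (hf : Function.Injective f) (ξ : FockL2 X) {y : Y}
    (hy : ∀ x, f x ≠ y) : fockV f hf ξ y = 0 := by
  classical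
  rw [← inner_fockD, fockV, ContinuousLinearMap.adjoint_inner_right, fockCmp_D_of_ne f hf hy,
    inner_zero_left]

/-- the diagonal projection onto the coordinates satisfying `p` -/
noncomputable def fockE (p : X → Prop) : FockL2 X →L[ℂ] FockL2 X :=
  fockV (Subtype.val : {x // p x} → X) Subtype.val_injective ∘L
    fockCmp (Subtype.val : {x // p x} → X) Subtype.val_injective

omit [DecidableEq X] in
theorem star_fockE (p : X → Prop) : star (fockE p) = fockE p := by
  rw [ContinuousLinearMap.star_eq_adjoint, fockE, ContinuousLinearMap.adjoint_comp, fockV,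
    ContinuousLinearMap.adjoint_adjoint]

theorem fockE_D_pos {p : X → Prop} {x : X} (hx : p x) : fockE p (fockD x) = fockD x := by
  have h1 := fockCmp_D (Subtype.val : {x // p x} → X) Subtype.val_injective ⟨x, hx⟩
  have h2 := fockV_D (Subtype.val : {x // p x} → X) Subtype.val_injective ⟨x, hx⟩
  rw [fockE, ContinuousLinearMap.comp_apply]
  exact (congrArg _ h1).trans h2

theorem fockE_D_neg {p : X → Prop} {x : X} (hx : ¬ p x) : fockE p (fockD x) = 0 := by
  rw [fockE, ContinuousLinearMap.comp_apply,
    fockCmp_D_of_ne _ _ (fun y hy => hx (by rw [← hy]; exact y.2)), map_zero]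

theorem fockE_comm {p : X → Prop} (f : X → X) (hf : Function.Injective f)
    (h : ∀ x, p (f x) ↔ p x) : fockE p * fockV f hf = fockV f hf * fockE p := by
  refine fock_ext fun x => ?_
  change fockE p (fockV f hf (fockD x)) = fockV f hf (fockE p (fockD x))
  by_cases hx : p x
  · rw [fockV_D, fockE_D_pos hx, fockE_D_pos ((h x).2 hx), fockV_D]
  · rw [fockV_D, fockE_D_neg hx, fockE_D_neg (fun h' => hx ((h x).1 h')), map_zero]

theorem fock_dense (D : Submodule ℂ (FockL2 X)) (h : ∀ x, fockD x ∈ D) :
    Dense (D : Set (FockL2 X)) := by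
  intro ξ
  refine mem_closure_of_tendsto (lp.hasSum_single (by norm_num) ξ)
    (Filter.Eventually.of_forall fun s => ?_)
  refine Submodule.sum_mem _ fun x _ => ?_
  rw [fock_single_eq]
  exact D.smul_mem _ (h x)

omit [DecidableEq X] in
theorem fock_separable [Countable X] : TopologicalSpace.SeparableSpace (FockL2 X) := by
  classical
  rw [← TopologicalSpace.isSeparable_univ_iff]
  have h1 : TopologicalSpace.IsSeparable (Set.range (fockD : X → FockL2 X)) :=
    (Set.countable_range _).isSeparable
  refine (h1.span (R := ℂ)).closure.mono fun ξ _ => ?_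
  exact fock_dense (Submodule.span ℂ (Set.range fockD))
    (fun x => Submodule.subset_span (Set.mem_range_self x)) ξ

end L2

/-! ### Splittings of words -/

section Sp
variable {L : Type*}

theorem fock_sp_congr {M : Type*} [AddCommMonoid M] (w : List L)
    (g g' : List L → L → List L → M) (h : ∀ a l b, g a l b = g' a l b) : sp w g = sp w g' := by
  have : g = g' := by funext a l b; exact h a l b
  rw [this]

theorem fock_map_sp {M M' : Type*} [AddCommMonoid M] [AddCommMonoid M'] (φ : M →+ M') (w : List L)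
    (g : List L → L → List L → M) : φ (sp w g) = sp w (fun a l b => φ (g a l b)) := by
  induction w generalizing g with
  | nil => simp [sp]
  | cons l w ih => simp only [sp, map_add, ih]

theorem fock_sp_comm {B : Type*} [Ring B] (F : List L → B) (G : L → B) (h0 : F [] = 1)
    (hc : ∀ l w, F (l :: w) = G l * F w) (y : B) (w : List L) :
    F w * y - y * F w = sp w (fun a l b => F a * (G l * y - y * G l) * F b) := by
  induction w with
  | nil => simp [sp, h0]
  | cons l w ih =>
    have h1 := fock_map_sp (AddMonoidHom.mulLeft (G l)) w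
      (fun a l b => F a * (G l * y - y * G l) * F b)
    simp only [AddMonoidHom.coe_mulLeft] at h1
    rw [sp, h0, fock_sp_congr w _ (fun a l' b => G l * (F a * (G l' * y - y * G l') * F b))
      (fun a l' b => by rw [hc]; simp only [mul_assoc]), ← h1, ← ih, hc]
    noncomm_ring

end Sp

theorem fock_map_cheb {A B : Type*} [CStarAlgebra A] [CStarAlgebra B] (f : A →+* B) (s : A) :
    ∀ m, f (cheb s m) = cheb (f s) m
  | 0 => by simp [cheb]
  | 1 => by simp [cheb]
  | m + 2 => by simp only [cheb, map_sub, map_mul, fock_map_cheb f s (m + 1), fock_map_cheb f s m]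

theorem fock_cheb_apply {H : Type*} [NormedAddCommGroup H] [InnerProductSpace ℂ H]
    [CompleteSpace H] (l : H →L[ℂ] H) (hl : ∀ ξ, star l (l ξ) = ξ) (ξ : H) (hξ : star l ξ = 0) :
    ∀ m, cheb (l + star l) m ξ = (l ^ m) ξ
  | 0 => by simp [cheb]
  | 1 => by simp [cheb, hξ]
  | m + 2 => by
    have h1 := fock_cheb_apply l hl ξ hξ (m + 1)
    have h2 := fock_cheb_apply l hl ξ hξ m
    change (l + star l) (cheb (l + star l) (m + 1) ξ) - cheb (l + star l) m ξ = _
    rw [h1, h2, pow_succ' l (m + 1), pow_succ' l m]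
    change l (l ((l ^ m) ξ)) + star l (l ((l ^ m) ξ)) - (l ^ m) ξ = l (l ((l ^ m) ξ))
    rw [hl, add_sub_cancel_right]

/-! ### Ping-pong -/

theorem fock_pingpong {κ U H : Type*} [DecidableEq κ] [Group U] (act : U → H → H)
    (hact : ∀ x y ξ, act (x * y) ξ = act x (act y ξ)) (gen : κ → U) (V W : κ → Set H) (Ω : H)
    (hΩ : ∀ o, Ω ∈ W o) (hVW : ∀ o o', o ≠ o' → V o ⊆ W o')
    (hgen : ∀ o (n : ℤ), n ≠ 0 → ∀ ξ ∈ W o, act (gen o ^ n) ξ ∈ V o)
    (γ : FreeGroup κ) (hγ : γ ≠ 1) : ∃ o, act (FreeGroup.lift gen γ) Ω ∈ V o := by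
  have key : ∀ (L : List (κ × Bool)) (x : κ × Bool), FreeGroup.IsReduced (x :: L) →
      ∃ (n : ℕ) (η : H), η ∈ W x.1 ∧ act (FreeGroup.lift gen (FreeGroup.mk (x :: L))) Ω =
        act ((cond x.2 (gen x.1) (gen x.1)⁻¹) ^ (n + 1)) η := by
    intro L
    induction L with
    | nil => intro x _; exact ⟨0, Ω, hΩ _, by simp [FreeGroup.lift_mk]⟩
    | cons y L ih =>
      intro x hx
      rw [FreeGroup.isReduced_cons_cons] at hx
      obtain ⟨n, η, hη, he⟩ := ih y hx.2
      have hsplit : FreeGroup.lift gen (FreeGroup.mk (x :: y :: L)) =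
          cond x.2 (gen x.1) (gen x.1)⁻¹ * FreeGroup.lift gen (FreeGroup.mk (y :: L)) := by
        simp [FreeGroup.lift_mk]
      by_cases hxy : x.1 = y.1
      · have hxy' : x = y := Prod.ext hxy (hx.1 hxy)
        subst hxy'
        refine ⟨n + 1, η, hη, ?_⟩
        rw [hsplit, hact, he, ← hact, ← pow_succ']
      · refine ⟨0, act (FreeGroup.lift gen (FreeGroup.mk (y :: L))) Ω, ?_, ?_⟩
        · refine hVW y.1 x.1 (Ne.symm hxy) ?_
          rw [he]
          cases hy : y.2
          · have := hgen y.1 (-((n + 1 : ℕ) : ℤ)) (by omega) η hη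
            rwa [zpow_neg, zpow_natCast, ← inv_pow] at this
          · have := hgen y.1 ((n + 1 : ℕ) : ℤ) (by omega) η hη
            rwa [zpow_natCast] at this
        · rw [hsplit, hact, zero_add, pow_one]
  have h1 : γ.toWord ≠ [] := fun h => hγ (FreeGroup.toWord_eq_nil_iff.1 h)
  obtain ⟨x, L, hL⟩ := List.exists_cons_of_ne_nil h1
  obtain ⟨n, η, hη, he⟩ := key L x (hL ▸ FreeGroup.isReduced_toWord)
  rw [← hL, FreeGroup.mk_toWord] at he
  refine ⟨x.1, ?_⟩
  rw [he]
  cases hy : x.2
  · have := hgen x.1 (-((n + 1 : ℕ) : ℤ)) (by omega) η hη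
    rwa [zpow_neg, zpow_natCast, ← inv_pow] at this
  · have := hgen x.1 ((n + 1 : ℕ) : ℤ) (by omega) η hη
    rwa [zpow_natCast] at this

/-! ### Reduced words -/

section Words
variable {ι : Type*} [DecidableEq ι]

theorem fock_head_zpow_mul (i : ι) (g : FreeGroup ι) (hg : g.toWord.head?.map Prod.fst ≠ some i)
    (n : ℤ) (hn : n ≠ 0) : (FreeGroup.of i ^ n * g).toWord.head?.map Prod.fst = some i := by
  have hw : ∃ s : Bool, (FreeGroup.of i ^ n).toWord = List.replicate n.natAbs (i, s) := by
    cases n with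
    | ofNat l => exact ⟨true, by simp⟩
    | negSucc l =>
      refine ⟨false, ?_⟩
      rw [zpow_negSucc, FreeGroup.toWord_inv, FreeGroup.toWord_of_pow]
      simp [FreeGroup.invRev]
  obtain ⟨s, hs⟩ := hw
  have hred : FreeGroup.IsReduced (List.replicate n.natAbs (i, s) ++ g.toWord) := by
    rw [FreeGroup.IsReduced, List.isChain_append]
    refine ⟨?_, FreeGroup.isReduced_toWord, ?_⟩
    · rw [← hs]; exact FreeGroup.isReduced_toWord
    · intro x hx y hy hxy
      exfalso
      have : x = (i, s) := List.eq_of_mem_replicate (List.mem_of_mem_getLast? hx)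
      apply hg
      rw [Option.mem_def.1 hy, Option.map_some, ← hxy, this]
  rw [FreeGroup.toWord_mul, hs, hred.reduce_eq]
  obtain ⟨k, hk⟩ : ∃ k, n.natAbs = k + 1 := ⟨n.natAbs - 1, by omega⟩
  rw [hk, List.replicate_succ]
  simp

theorem fock_last_of_mul (i j : ι) (g : FreeGroup ι) :
    (FreeGroup.of i * g).toWord.getLast? = some (j, true) ↔
      g.toWord.getLast? = some (j, true) ∨ (g = 1 ∧ i = j) := by
  rw [FreeGroup.toWord_mul, FreeGroup.toWord_of, List.singleton_append, FreeGroup.reduce.cons,
    FreeGroup.reduce_toWord, ← FreeGroup.toWord_eq_nil_iff]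
  cases hg : g.toWord with
  | nil => simp
  | cons hd tl =>
    by_cases h : i = hd.1 ∧ true = !hd.2
    · simp only [h, and_self, if_true]
      cases tl with
      | nil =>
        obtain ⟨a, b⟩ := hd
        cases b
        · simp
        · simp at h
      | cons hd' tl' => simp [List.getLast?_cons_cons]
    · simp only [h, if_false]
      simp [List.getLast?_cons_cons]

end Words

end Crest.Agent.R134
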