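import Crest.Agent.R134.Est
import Crest.Agent.R134.Flow

/-! Rotating a block of the semicircular element into the algebra of the unitary. -/

set_option autoImplicit false

namespace Crest.Agent.R134

open Crest.Agent.R95
open scoped ComplexConjugate

variable {A : Type*} [CStarAlgebra A] {K : Type*} [NormedAddCommGroup K] [InnerProductSpace ℂ K]
  {P : StarSubalgebra ℂ A}

variable (P) in
/-- pairs with the same law over `P` as `(u₀, s₀)` that generate together with `P` -/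
structure Nice (T : TrModel A K) (u₀ s₀ u s : A) : Prop where
  hu : u ∈ unitary A
  hs : IsSelfAdjoint s
  tr : ∀ f : FA P, T.τ (ev u s f) = T.τ (ev u₀ s₀ f)
  gen : T.cl2 (StarAlgebra.adjoin ℂ ((P : Set A) ∪ {u, s})) = ⊤

lemma Nice.norm_eq {T : TrModel A K} {u₀ s₀ u s : A} (h : Nice P T u₀ s₀ u s)
    (hs₀ : IsSelfAdjoint s₀) (f : FA P) : ‖T.ι (ev u s f)‖ = ‖T.ι (ev u₀ s₀ f)‖ := by
  refine (sq_eq_sq₀ (norm_nonneg _) (norm_nonneg _)).1 ?_
  rw [T.norm_sq_eq, T.norm_sq_eq, ← ev_sig h.hs, ← ev_sig hs₀, ← map_mul (ev u s),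
    ← map_mul (ev u₀ s₀), h.tr]

lemma ι_add_le (T : TrModel A K) (a b : A) : ‖T.ι (a + b)‖ ≤ ‖T.ι a‖ + ‖T.ι b‖ := by
  rw [map_add]; exact norm_add_le _ _

lemma ι_sub_le (T : TrModel A K) (a b c : A) :
    ‖T.ι (a - c)‖ ≤ ‖T.ι (a - b)‖ + ‖T.ι (b - c)‖ := by
  rw [show a - c = (a - b) + (b - c) by abel]; exact ι_add_le T _ _

lemma ι_sub_rev (T : TrModel A K) (a b : A) : ‖T.ι (a - b)‖ = ‖T.ι (b - a)‖ := by
  rw [map_sub, map_sub, norm_sub_rev]

lemma ι_smul (T : TrModel A K) (r : ℝ) (a : A) : ‖T.ι (r • a)‖ = |r| * ‖T.ι a‖ := by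
  rw [← Complex.coe_smul, map_smul, norm_smul, Complex.norm_real, Real.norm_eq_abs]

lemma trig_bound {t h : ℝ} (h0 : 0 < h) (h1 : h ≤ 1) :
    |h * Real.sin t + Real.cos t - Real.cos (t - h)| ≤ h ^ 2 ∧
      |-(h * Real.cos t) + Real.sin t - Real.sin (t - h)| ≤ h ^ 2 := by
  have a1 := Real.sin_gt_sub_cube h0
  have a2 := Real.sin_le h0.le
  have a3 := Real.one_sub_sq_div_two_le_cos (x := h)
  have a4 := Real.cos_le_one h
  have b1 : |h - Real.sin h| ≤ h ^ 2 / 2 := by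
    rw [abs_of_nonneg (by linarith)]; nlinarith
  have b2 : |1 - Real.cos h| ≤ h ^ 2 / 2 := by
    rw [abs_of_nonneg (by linarith)]; linarith
  have c1 := Real.abs_sin_le_one t
  have c2 := Real.abs_cos_le_one t
  have d : ∀ x y : ℝ, |x| ≤ 1 → |y| ≤ 1 →
      |x * (h - Real.sin h) + y * (1 - Real.cos h)| ≤ h ^ 2 := by
    intro x y hx hy
    refine (abs_add_le _ _).trans ?_
    rw [abs_mul, abs_mul]
    nlinarith [abs_nonneg (h - Real.sin h), abs_nonneg (1 - Real.cos h)]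
  constructor
  · rw [Real.cos_sub]
    convert d _ _ c1 c2 using 2; ring
  · rw [Real.sin_sub]
    convert d (-Real.cos t) _ (by rwa [abs_neg]) c1 using 2; ring

theorem rotate (T : TrModel A K) {u₀ s₀ : A} (hs₀ : IsSelfAdjoint s₀) (X Y x F : FA P)
    (hX : sig X = -X) (hY : sig Y = Y) (hdiv : ∀ f, T.τ (ev u₀ s₀ (der X Y f)) = 0) {M ν : ℝ}
    (hM : ∀ u s : A, u ∈ unitary A → IsSelfAdjoint s → ‖ev u s Y‖ ≤ M)
    (hx : ev u₀ s₀ (der X Y x + F) = 0) (hF : ‖T.ι (ev u₀ s₀ (der X Y F - x))‖ ≤ ν)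
    {u s : A} (h : Nice P T u₀ s₀ u s) {I : Type*} [Fintype I] (f : I → FA P) {ε : ℝ}
    (hε : 0 < ε) :
    ∃ u' s' : A, Nice P T u₀ s₀ u' s' ∧
      (∀ i, ‖T.ι (ev u' s' (f i) - ev u s (f i))‖ ≤ 2 * ‖T.ι (ev u₀ s₀ (der X Y (f i)))‖ + ε) ∧
      ‖T.ι (ev u' s' F - ev u s x)‖ ≤ 2 * ν + ε := by
  have hM0 : 0 ≤ M := (norm_nonneg _).trans (hM u s h.hu h.hs)
  have hν0 : 0 ≤ ν := (norm_nonneg _).trans hF
  obtain ⟨h₀, hh₀, C, hC⟩ := flow T X Y hX hY (‖s‖ + 2 * (M + 1))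
  set C' : ℝ := |C x| + |C F| + ‖T.ι (ev u₀ s₀ x)‖ + ‖T.ι (ev u₀ s₀ F)‖ with hC'
  set B : ℝ := ∑ i, |C (f i)| + C' + |C (lt .s)| + 1 with hB
  have hC'0 : 0 ≤ C' := by positivity
  have hS0 : 0 ≤ ∑ i, |C (f i)| := Finset.sum_nonneg fun i _ => abs_nonneg _
  have hB0 : 0 < B := by positivity
  set m : ℝ := min (min h₀ 1) (min (1 / B) (ε / (2 * B))) with hm
  have hm0 : 0 < m := by positivity
  obtain ⟨N, hN⟩ := exists_nat_gt (Real.pi / 2 / m)
  have hN0 : (0 : ℝ) < N := lt_trans (by positivity) hN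
  set η : ℝ := Real.pi / 2 / N with hη
  have hη0 : 0 < η := by positivity
  have hηm : η ≤ m := by
    rw [hη, div_le_iff₀ hN0]
    rw [div_lt_iff₀ hm0] at hN
    linarith
  have hNη : N * η = Real.pi / 2 := by rw [hη]; field_simp
  have hNη2 : N * η ≤ 2 := by rw [hNη]; linarith [Real.pi_le_four]
  have hη1 : η ≤ h₀ := hηm.trans ((min_le_left _ _).trans (min_le_left _ _))
  have hη2 : η ≤ 1 := hηm.trans ((min_le_left _ _).trans (min_le_right _ _))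
  have hη3 : B * η ≤ 1 := by
    have : η ≤ 1 / B := hηm.trans ((min_le_right _ _).trans (min_le_left _ _))
    rwa [le_div_iff₀ hB0, mul_comm] at this
  have hη4 : 2 * B * η ≤ ε := by
    have : η ≤ ε / (2 * B) := hηm.trans ((min_le_right _ _).trans (min_le_right _ _))
    rwa [le_div_iff₀ (by positivity), mul_comm] at this
  have ind : ∀ j : ℕ, j ≤ N → ∃ u' s' : A, Nice P T u₀ s₀ u' s' ∧
      ‖s'‖ ≤ ‖s‖ + j * η * (M + 1) ∧
      (∀ φ : FA P, ‖T.ι (ev u' s' φ - ev u s φ)‖ ≤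
        j * η * (‖T.ι (ev u₀ s₀ (der X Y φ))‖ + |C φ| * η)) ∧
      ‖T.ι (Real.cos (j * η) • ev u' s' x + Real.sin (j * η) • ev u' s' F - ev u s x)‖ ≤
        j * η * (ν + C' * η) := by
    intro j
    induction j with
    | zero => exact fun _ => ⟨u, s, h, by simp, by simp, by simp⟩
    | succ j ih =>
      intro hj
      obtain ⟨u₁, s₁, n₁, b₁, d₁, r₁⟩ := ih (by omega)
      have hjN : (j : ℝ) * η ≤ 2 := by
        have : (j : ℝ) ≤ N := by exact_mod_cast (by omega : j ≤ N)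
        nlinarith
      obtain ⟨u₂, s₂, hu₂, hs₂, tr₂, e₂, g₁, g₂⟩ := hC u₁ s₁ n₁.hu n₁.hs
        (b₁.trans (by nlinarith)) (fun φ => by rw [n₁.tr, hdiv]) η (by rwa [abs_of_pos hη0])
      have e₃ : ∀ φ : FA P, ‖ev u₂ s₂ φ - ev u₁ s₁ φ - η • ev u₁ s₁ (der X Y φ)‖ ≤ |C φ| * η ^ 2 :=
        fun φ => (e₂ φ).trans (by gcongr; exact le_abs_self _)
      refine ⟨u₂, s₂, ⟨hu₂, hs₂, fun φ => (tr₂ φ).trans (n₁.tr φ), ?_⟩, ?_, fun φ => ?_, ?_⟩
      · rw [eq_top_iff, ← n₁.gen]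
        refine T.cl2_le_of_le_cl2 (StarAlgebra.adjoin_le ?_)
        rintro a (ha | rfl | rfl)
        exacts [T.le_cl2 _ (StarAlgebra.subset_adjoin _ _ (Or.inl ha)), g₁, g₂]
      · have a1 := e₃ (lt .s)
        rw [der_lt, ev_lt, ev_lt] at a1
        simp only [evL, derL] at a1
        have a2 : ‖η • ev u₁ s₁ Y‖ ≤ η * M := by
          rw [norm_smul, Real.norm_of_nonneg hη0.le]
          exact mul_le_mul_of_nonneg_left (hM _ _ n₁.hu n₁.hs) hη0.le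
        have a3 : ‖s₂‖ ≤ ‖s₂ - s₁ - η • ev u₁ s₁ Y‖ + ‖s₁‖ + ‖η • ev u₁ s₁ Y‖ := by
          conv_lhs => rw [show s₂ = (s₂ - s₁ - η • ev u₁ s₁ Y) + s₁ + η • ev u₁ s₁ Y by abel]
          exact norm_add₃_le
        have a4 : |C (lt .s)| * η ≤ 1 := by nlinarith
        push_cast
        nlinarith
      · have a1 := (T.norm_le _).trans (e₃ φ)
        have a2 := ι_add_le T (ev u₂ s₂ φ - ev u₁ s₁ φ - η • ev u₁ s₁ (der X Y φ))
          (η • ev u₁ s₁ (der X Y φ))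
        rw [sub_add_cancel, ι_smul, abs_of_pos hη0, n₁.norm_eq hs₀] at a2
        have a3 := ι_sub_le T (ev u₂ s₂ φ) (ev u₁ s₁ φ) (ev u s φ)
        have a4 := d₁ φ
        push_cast
        nlinarith
      · have hx₁ : ev u₁ s₁ (der X Y x) = -ev u₁ s₁ F := by
          rw [eq_neg_iff_add_eq_zero, ← map_add]
          refine T.eq_zero_of_norm ?_
          rw [n₁.norm_eq hs₀, hx, map_zero, norm_zero]
        have hF₁ : ‖T.ι (ev u₁ s₁ (der X Y F) - ev u₁ s₁ x)‖ ≤ ν := by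
          rw [← map_sub (ev u₁ s₁), n₁.norm_eq hs₀]; exact hF
        set t : ℝ := ((j + 1 : ℕ) : ℝ) * η with ht
        have ht' : (j : ℝ) * η = t - η := by rw [ht]; push_cast; ring
        obtain ⟨t1, t2⟩ := trig_bound (t := t) hη0 hη2
        rw [ht'] at r₁
        have a1 := (T.norm_le _).trans (e₃ x)
        have a2 := (T.norm_le _).trans (e₃ F)
        have key : Real.cos t • ev u₂ s₂ x + Real.sin t • ev u₂ s₂ F - ev u s x =
            Real.cos t • (ev u₂ s₂ x - ev u₁ s₁ x - η • ev u₁ s₁ (der X Y x)) +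
            Real.sin t • (ev u₂ s₂ F - ev u₁ s₁ F - η • ev u₁ s₁ (der X Y F)) +
            (Real.sin t * η) • (ev u₁ s₁ (der X Y F) - ev u₁ s₁ x) +
            (η * Real.sin t + Real.cos t - Real.cos (t - η)) • ev u₁ s₁ x +
            (-(η * Real.cos t) + Real.sin t - Real.sin (t - η)) • ev u₁ s₁ F +
            (Real.cos (t - η) • ev u₁ s₁ x + Real.sin (t - η) • ev u₁ s₁ F - ev u s x) := by
          rw [hx₁]; module
        rw [key]
        refine (ι_add_le T _ _).trans ?_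
        refine (add_le_add_left (ι_add_le T _ _) _).trans ?_
        refine (add_le_add_left (add_le_add_left (ι_add_le T _ _) _) _).trans ?_
        refine (add_le_add_left (add_le_add_left (add_le_add_left (ι_add_le T _ _) _) _) _).trans ?_
        refine (add_le_add_left (add_le_add_left (add_le_add_left (add_le_add_left
          (ι_add_le T _ _) _) _) _) _).trans ?_
        simp only [ι_smul]
        rw [n₁.norm_eq hs₀ x, n₁.norm_eq hs₀ F, abs_mul, abs_of_pos hη0]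
        have c1 := Real.abs_sin_le_one t
        have c2 := Real.abs_cos_le_one t
        have b1 := mul_le_mul c2 a1 (norm_nonneg _) zero_le_one
        have b2 := mul_le_mul c1 a2 (norm_nonneg _) zero_le_one
        have b3 := mul_le_mul (mul_le_mul_of_nonneg_right c1 hη0.le) hF₁ (norm_nonneg _)
          (by positivity)
        have b4 := mul_le_mul_of_nonneg_right t1 (norm_nonneg (T.ι (ev u₀ s₀ x)))
        have b5 := mul_le_mul_of_nonneg_right t2 (norm_nonneg (T.ι (ev u₀ s₀ F)))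
        have b6 : t * (ν + C' * η) = (t - η) * (ν + C' * η) + (η * ν + C' * η ^ 2) := by ring
        rw [b6, hC']
        rw [hC'] at r₁
        linarith
  obtain ⟨u', s', n', -, d', r'⟩ := ind N le_rfl
  refine ⟨u', s', n', fun i => (d' (f i)).trans ?_, ?_⟩
  · have a1 : |C (f i)| ≤ B := by
      have := Finset.single_le_sum (f := fun i => |C (f i)|) (fun i _ => abs_nonneg _)
        (Finset.mem_univ i)
      linarith [abs_nonneg (C (lt .s))]
    have a2 : |C (f i)| * η ≤ ε / 2 := by nlinarith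
    calc _ ≤ 2 * (‖T.ι (ev u₀ s₀ (der X Y (f i)))‖ + ε / 2) := by gcongr
      _ = _ := by ring
  · rw [hNη, Real.cos_pi_div_two, Real.sin_pi_div_two, zero_smul, one_smul, zero_add,
      ← hNη] at r'
    refine r'.trans ?_
    have a1 : C' ≤ B := by linarith [abs_nonneg (C (lt .s))]
    have a2 : C' * η ≤ ε / 2 := by nlinarith
    calc _ ≤ 2 * (ν + ε / 2) := by gcongr
      _ = _ := by ring

/-- one block is rotated into the algebra of the unitary -/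
theorem rotate_block {T : TrModel A K} {g u₀ : unitary A} (hg : (g : A) ∈ P)
    (hfree : FreeHaar T ![g, u₀]) {s₀ : A} (hs₀ : IsSelfAdjoint s₀) (hSs : SDs P T u₀ s₀)
    (hSu : SDu P T u₀ s₀) {p q : P} (hp : IsStarProjection (p : A))
    (hq : IsStarProjection (q : A)) (hp' : (p : A) ∈ T.cl2 (StarAlgebra.adjoin ℂ {(g : A)}))
    (hq' : (q : A) ∈ T.cl2 (StarAlgebra.adjoin ℂ {(g : A)})) (hpq : (p : A) * q = 0)
    {I : Type*} [Fintype I] (p' q' : I → P)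
    (h1 : ∀ i, (p' i : A) * p = 0 ∨ (q : A) * q' i = 0)
    (h2 : ∀ i, (p' i : A) * q = 0 ∨ (p : A) * q' i = 0)
    {u s : A} (h : Nice P T u₀ s₀ u s) {ε : ℝ} (hε : 0 < ε) :
    ∃ u' s' : A, Nice P T u₀ s₀ u' s' ∧ ‖T.ι (u' - u)‖ < ε ∧
      (∃ w ∈ StarAlgebra.adjoin ℂ ((P : Set A) ∪ {u'}),
        ‖T.ι (p * s * q - w)‖ < 6 * (‖T.ι p‖ ^ 2 * ‖T.ι q‖ ^ 2) + ε) ∧
      ∀ i, ‖T.ι (p' i * s' * q' i - p' i * s * q' i)‖ < ε := by
  obtain ⟨k, hk⟩ := exists_nat_gt ((8 / ε) ^ 2)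
  have hk0 : (0 : ℝ) < k := lt_of_le_of_lt (by positivity) hk
  have hk1 : 1 ≤ k := by exact_mod_cast hk0
  have hk2 : 2 * (2 / √(k : ℝ)) ≤ ε / 2 := by
    have : 8 / ε ≤ √(k : ℝ) := Real.le_sqrt_of_sq_le hk.le
    rw [div_le_iff₀ hε] at this
    rw [← mul_div_assoc, div_le_iff₀ (Real.sqrt_pos.2 hk0)]
    linarith
  obtain ⟨u', s', n', d', r'⟩ := rotate T hs₀ (fX (⟨g, hg⟩ : P) p q k) (fY (⟨g, hg⟩ : P) p q k)
    (fx p q) (fF (⟨g, hg⟩ : P) p q k) (sig_fX _ _ _ _) (sig_fY _ _ _ _)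
    (div_free hg hfree hs₀ hSs hSu hp hq hk1)
    (fun u s hu hs => norm_ev_fY hg ⟨u, hu⟩ hs hp hq k) (est_x hg hs₀ hp hq hpq _)
    (est_F hg hfree hs₀ hSs hp hq hp' hq' hk1 _) h
    (fun o : Option I => o.elim (lt .u) fun i => fx (p' i) (q' i)) (ε := ε / 4) (by positivity)
  refine ⟨u', s', n', ?_, ⟨_, ev_fF_mem (s := s') (p := p) (q := q) hg ⟨u', n'.hu⟩ k, ?_⟩,
    fun i => ?_⟩
  · have a1 := d' none
    have a2 := est_X hg hfree hs₀ hSs hp hq hp' hk1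
    simp only [Option.elim, ev_lt, evL, der_lt, derL, map_mul] at a1
    rw [T.norm_unitary_mul u₀.2] at a1
    linarith
  · rw [ev_fx, ι_sub_rev] at r'
    exact r'.trans_lt (by linarith)
  · have a1 := d' (some i)
    simp only [Option.elim] at a1
    rw [est_other hg hs₀ hp hq (h1 i) (h2 i), ev_fx, ev_fx, map_zero, norm_zero] at a1
    linarith

lemma exists_pos_forall {I : Type*} (S : Finset I) (Q : I → ℝ → Prop)
    (hmono : ∀ i δ δ', δ' ≤ δ → Q i δ → Q i δ') (h : ∀ i ∈ S, ∃ δ, 0 < δ ∧ Q i δ) :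
    ∃ δ, 0 < δ ∧ ∀ i ∈ S, Q i δ := by
  classical
  induction S using Finset.induction_on with
  | empty => exact ⟨1, one_pos, by simp⟩
  | insert a S _ ih =>
    obtain ⟨δ₁, h₁, q₁⟩ := ih fun i hi => h i (Finset.mem_insert_of_mem hi)
    obtain ⟨δ₂, h₂, q₂⟩ := h a (Finset.mem_insert_self _ _)
    refine ⟨min δ₁ δ₂, lt_min h₁ h₂, fun i hi => ?_⟩
    rcases Finset.mem_insert.1 hi with rfl | hi
    exacts [hmono _ _ _ (min_le_right _ _) q₂, hmono _ _ _ (min_le_left _ _) (q₁ i hi)]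

/-- openness of the set of unitaries whose algebra nearly contains `z` -/
lemma near_open (T : TrModel A K) (S₀ : Set A) {u : A} (hu : u ∈ unitary A) {z : A} {r : ℝ}
    (h : ∃ w ∈ StarAlgebra.adjoin ℂ (S₀ ∪ {u}), ‖T.ι (z - w)‖ < r) :
    ∃ δ : ℝ, 0 < δ ∧ ∀ v ∈ unitary A, ‖T.ι (v - u)‖ < δ →
      ∃ w ∈ StarAlgebra.adjoin ℂ (S₀ ∪ {v}), ‖T.ι (z - w)‖ < r := by
  obtain ⟨w, hw, hlt⟩ := h
  obtain ⟨δ, hδ, h⟩ := adjoin_lsc T S₀ hu hw (sub_pos.2 hlt)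
  refine ⟨δ, hδ, fun v hv hvu => ?_⟩
  obtain ⟨w', hw', hww⟩ := h v hv hvu
  refine ⟨w', hw', ?_⟩
  rw [ι_sub_rev] at hww
  linarith [ι_sub_le T z w w']

/-- all blocks are rotated one after the other -/
theorem iterate_blocks {T : TrModel A K} {u₀ s₀ : A} {I : Type*} [Fintype I] (x : I → A → A)
    (β : I → ℝ)
    (H : ∀ (i : I) (u s : A), Nice P T u₀ s₀ u s → ∀ ε : ℝ, 0 < ε →
      ∃ u' s' : A, Nice P T u₀ s₀ u' s' ∧ ‖T.ι (u' - u)‖ < ε ∧
        (∃ w ∈ StarAlgebra.adjoin ℂ ((P : Set A) ∪ {u'}), ‖T.ι (x i s - w)‖ < β i + ε) ∧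
        ∀ j, j ≠ i → ‖T.ι (x j s' - x j s)‖ < ε)
    {u s : A} (h : Nice P T u₀ s₀ u s) {ε : ℝ} (hε : 0 < ε) :
    ∃ u' s' : A, Nice P T u₀ s₀ u' s' ∧ ‖T.ι (u' - u)‖ < ε ∧
      ∀ i, ∃ w ∈ StarAlgebra.adjoin ℂ ((P : Set A) ∪ {u'}), ‖T.ι (x i s - w)‖ < β i + ε := by
  classical
  suffices key : ∀ S : Finset I, ∀ ε : ℝ, 0 < ε → ∃ u' s' : A, Nice P T u₀ s₀ u' s' ∧
      ‖T.ι (u' - u)‖ < ε ∧
      (∀ i ∈ S, ∃ w ∈ StarAlgebra.adjoin ℂ ((P : Set A) ∪ {u'}), ‖T.ι (x i s - w)‖ < β i + ε) ∧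
      ∀ j, j ∉ S → ‖T.ι (x j s' - x j s)‖ < ε by
    obtain ⟨u', s', n', d', w', -⟩ := key Finset.univ ε hε
    exact ⟨u', s', n', d', fun i => w' i (Finset.mem_univ _)⟩
  intro S
  induction S using Finset.induction_on with
  | empty => exact fun ε hε => ⟨u, s, h, by simpa using hε, by simp, by simpa using fun _ => hε⟩
  | insert a S ha ih =>
    intro ε hε
    obtain ⟨u₁, s₁, n₁, d₁, w₁, o₁⟩ := ih (ε / 2) (by positivity)
    obtain ⟨δ, hδ, hQ⟩ := exists_pos_forall S (fun i δ => ∀ v ∈ unitary A, ‖T.ι (v - u₁)‖ < δ →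
      ∃ w ∈ StarAlgebra.adjoin ℂ ((P : Set A) ∪ {v}), ‖T.ι (x i s - w)‖ < β i + ε / 2)
      (fun i δ δ' hδ q v hv hvu => q v hv (hvu.trans_le hδ))
      (fun i hi => near_open T _ n₁.hu (w₁ i hi))
    obtain ⟨u₂, s₂, n₂, d₂, ⟨w₂, hw₂, e₂⟩, o₂⟩ := H a u₁ s₁ n₁ (min δ (ε / 2)) (by positivity)
    have m1 := min_le_left δ (ε / 2)
    have m2 := min_le_right δ (ε / 2)
    refine ⟨u₂, s₂, n₂, by linarith [ι_sub_le T u₂ u₁ u], fun i hi => ?_, fun j hj => ?_⟩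
    · rcases Finset.mem_insert.1 hi with rfl | hi
      · refine ⟨w₂, hw₂, ?_⟩
        have := o₁ i ha
        rw [ι_sub_rev] at this
        linarith [ι_sub_le T (x i s) (x i s₁) w₂]
      · obtain ⟨w, hw, e⟩ := hQ i hi u₂ n₂.hu (d₂.trans_le m1)
        exact ⟨w, hw, by linarith⟩
    · rw [Finset.mem_insert, not_or] at hj
      linarith [o₁ j hj.2, o₂ j hj.1, ι_sub_le T (x j s₂) (x j s₁) (x j s)]

end Crest.Agent.R134
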