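import Crest.Agent.R134.Defs

/-! Split sums and the consequences of the Schwinger–Dyson equations. -/

set_option autoImplicit false

namespace Crest.Agent.R134

open Crest.Agent.R95
open scoped ComplexConjugate

section sp
variable {L M M' : Type*} [AddCommMonoid M] [AddCommMonoid M']

@[simp] lemma sp_nil (g : List L → L → List L → M) : sp [] g = 0 := rfl

lemma sp_cons (l : L) (w : List L) (g : List L → L → List L → M) :
    sp (l :: w) g = g [] l w + sp w (fun a l' b => g (l :: a) l' b) := rfl

lemma sp_congr' {w : List L} {g g' : List L → L → List L → M}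
    (h : ∀ a l b, w = a ++ l :: b → g a l b = g' a l b) : sp w g = sp w g' := by
  induction w generalizing g g' with
  | nil => rfl
  | cons l w ih =>
    rw [sp_cons, sp_cons, h [] l w rfl, ih]
    intro a l' b hw
    exact h _ _ _ (by rw [hw]; rfl)

lemma sp_zero (w : List L) : sp w (fun _ _ _ => (0 : M)) = 0 := by
  induction w with
  | nil => rfl
  | cons l w ih => rw [sp_cons, ih, add_zero]

lemma sp_eq_zero {w : List L} {g : List L → L → List L → M}
    (h : ∀ a l b, w = a ++ l :: b → g a l b = 0) : sp w g = 0 :=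
  (sp_congr' h).trans (sp_zero w)

lemma sp_add (w : List L) (g g' : List L → L → List L → M) :
    sp w (fun a l b => g a l b + g' a l b) = sp w g + sp w g' := by
  induction w generalizing g g' with
  | nil => simp
  | cons l w ih => rw [sp_cons, sp_cons, sp_cons, ih]; abel

lemma map_sp {F : Type*} [FunLike F M M'] [AddMonoidHomClass F M M'] (φ : F) (w : List L)
    (g : List L → L → List L → M) : φ (sp w g) = sp w (fun a l b => φ (g a l b)) := by
  induction w generalizing g with
  | nil => simp
  | cons l w ih => rw [sp_cons, sp_cons, map_add, ih]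

lemma sp_append (w w' : List L) (g : List L → L → List L → M) :
    sp (w ++ w') g = sp w (fun a l b => g a l (b ++ w')) + sp w' (fun a l b => g (w ++ a) l b) := by
  induction w generalizing g with
  | nil => simp
  | cons l w ih => rw [List.cons_append, sp_cons, sp_cons, ih, add_assoc]; rfl

lemma sp_sp (w : List L) (G : List L → L → List L → L → List L → M) :
    sp w (fun a l b => sp b (fun b₁ l' b₂ => G a l b₁ l' b₂)) =
      sp w (fun a' l' b₂ => sp a' (fun a l b₁ => G a l b₁ l' b₂)) := by
  induction w generalizing G with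
  | nil => rfl
  | cons l w ih =>
    rw [sp_cons, sp_cons, sp_nil, zero_add, ih]
    simp only [sp_cons]
    rw [sp_add]

end sp

variable {A : Type*} [CStarAlgebra A] {K : Type*} [NormedAddCommGroup K] [InnerProductSpace ℂ K]
  {P : StarSubalgebra ℂ A}

/-- words without the letter `s` -/
def SFree (w : List (Lt P)) : Prop := ∀ l ∈ w, l ≠ Lt.s

lemma SFree.sp_sTerm {w : List (Lt P)} (hw : SFree w) (T : TrModel A K)
    (f g : List (Lt P) → List (Lt P) → A) :
    sp w (fun a l b => sTerm T (f a b) l (g a b)) = 0 := by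
  refine sp_eq_zero fun a l b h => ?_
  have : l ≠ Lt.s := hw l (by rw [h]; simp)
  cases l <;> simp_all [sTerm]

lemma SFree.append {w w' : List (Lt P)} (hw : SFree w) (hw' : SFree w') : SFree (w ++ w') := by
  intro l hl
  rcases List.mem_append.1 hl with h | h
  exacts [hw l h, hw' l h]

lemma SFree.evW_eq {w : List (Lt P)} (hw : SFree w) (u s s' : A) : evW u s w = evW u s' w := by
  induction w with
  | nil => rfl
  | cons l w ih =>
    rw [evW_cons, evW_cons, ih (fun l' hl' => hw l' (List.mem_cons_of_mem _ hl'))]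
    have : l ≠ Lt.s := hw l List.mem_cons_self
    cases l <;> simp_all [evL]

variable (P) in
/-- values of `s`-free words -/
def W0 (u : A) : Submonoid A := Submonoid.closure ((P : Set A) ∪ {u, star u})

lemma W0.of_mem {u a : A} (ha : a ∈ P) : a ∈ W0 P u := Submonoid.subset_closure (Or.inl ha)

lemma W0.self (u : A) : u ∈ W0 P u := Submonoid.subset_closure (Or.inr (Or.inl rfl))

lemma W0.star_self (u : A) : star u ∈ W0 P u := Submonoid.subset_closure (Or.inr (Or.inr rfl))

lemma W0.star_mem {u a : A} (ha : a ∈ W0 P u) : star a ∈ W0 P u := by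
  induction ha using Submonoid.closure_induction with
  | mem x hx =>
    rcases hx with hx | rfl | rfl
    · exact W0.of_mem (StarMemClass.star_mem hx)
    · exact W0.star_self _
    · rw [star_star]; exact W0.self _
  | one => rw [star_one]; exact one_mem _
  | mul x y _ _ hx hy => rw [star_mul]; exact mul_mem hy hx

lemma W0.exists_word {u a : A} (ha : a ∈ W0 P u) (s : A) :
    ∃ w : List (Lt P), SFree w ∧ evW u s w = a := by
  induction ha using Submonoid.closure_induction with
  | mem x hx =>
    rcases hx with hx | rfl | rfl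
    · exact ⟨[.c ⟨x, hx⟩], by simp [SFree], by simp [evL]⟩
    · exact ⟨[.u], by simp [SFree], by simp [evL]⟩
    · exact ⟨[.v], by simp [SFree], by simp [evL]⟩
  | one => exact ⟨[], by simp [SFree], rfl⟩
  | mul x y _ _ hx hy =>
    obtain ⟨w, hw, rfl⟩ := hx
    obtain ⟨w', hw', rfl⟩ := hy
    exact ⟨w ++ w', hw.append hw', by simp⟩

/-- the two point function of the semicircular element -/
lemma SDs.two_point {T : TrModel A K} {u s : A} (h : SDs P T u s) {a b : A} (ha : a ∈ W0 P u)
    (hb : b ∈ W0 P u) : T.τ (s * a * s * b) = T.τ a * T.τ b := by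
  obtain ⟨w, hw, rfl⟩ := W0.exists_word ha s
  obtain ⟨w', hw', rfl⟩ := W0.exists_word hb s
  have := h (w ++ Lt.s :: w')
  rw [sp_append, sp_cons, hw.sp_sTerm, hw'.sp_sTerm] at this
  simpa [sTerm, evL, mul_assoc] using this

lemma SDs.inner_eq {T : TrModel A K} {u s : A} (h : SDs P T u s) (hs : IsSelfAdjoint s)
    {a b a' b' : A} (ha : a ∈ W0 P u) (hb : b ∈ W0 P u) (ha' : a' ∈ W0 P u) (hb' : b' ∈ W0 P u) :
    inner ℂ (T.ι (a * s * b)) (T.ι (a' * s * b')) = T.τ (star a * a') * T.τ (b' * star b) := by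
  rw [T.inner_eq, ← h.two_point (mul_mem (W0.star_mem ha) ha') (mul_mem hb' (W0.star_mem hb)),
    star_mul, star_mul, hs.star_eq, mul_assoc, T.τ_comm]
  simp only [mul_assoc]

lemma norm_sum_sq_of_orth {I : Type*} (S : Finset I) (v : I → K)
    (h : ∀ i ∈ S, ∀ j ∈ S, i ≠ j → inner ℂ (v i) (v j) = 0) :
    ‖∑ i ∈ S, v i‖ ^ 2 = ∑ i ∈ S, ‖v i‖ ^ 2 := by
  classical
  rw [@norm_sq_eq_re_inner ℂ, sum_inner, map_sum]
  refine Finset.sum_congr rfl fun i hi => ?_
  rw [inner_sum, Finset.sum_eq_single i (fun j hj hji => h i hi j hj hji.symm)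
    (fun h => (h hi).elim), ← @norm_sq_eq_re_inner ℂ]

/-- Gram formula for sums of sandwiches of the semicircular element -/
lemma SDs.norm_sum_sq {T : TrModel A K} {u s : A} (h : SDs P T u s) (hs : IsSelfAdjoint s)
    {I : Type*} (S : Finset I) (a b : I → A) (ha : ∀ i, a i ∈ W0 P u) (hb : ∀ i, b i ∈ W0 P u)
    (horth : ∀ i ∈ S, ∀ j ∈ S, i ≠ j → T.τ (star (a i) * a j) = 0) :
    ‖T.ι (∑ i ∈ S, a i * s * b i)‖ ^ 2 = ∑ i ∈ S, ‖T.ι (a i)‖ ^ 2 * ‖T.ι (b i)‖ ^ 2 := by
  rw [map_sum, norm_sum_sq_of_orth]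
  · refine Finset.sum_congr rfl fun i _ => ?_
    rw [@norm_sq_eq_re_inner ℂ, h.inner_eq hs (ha i) (hb i) (ha i) (hb i), T.τ_comm (b i),
      T.τ_star_mul_self, T.τ_star_mul_self, ← Complex.ofReal_mul]
    rfl
  · intro i hi j hj hij
    rw [h.inner_eq hs (ha i) (hb i) (ha j) (hb j), horth i hi j hj hij, zero_mul]

/-- value of the `u`-part of the derivation on a letter -/
def dX (u X : A) : Lt P → A
  | .u => u * X
  | .v => -(X * star u)
  | _ => 0

/-- value of the `s`-part of the derivation on a letter -/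
def dY (Y : A) : Lt P → A
  | .s => Y
  | _ => 0

lemma ev_derL (u s : A) (X Y : FA P) (l : Lt P) :
    ev u s (derL X Y l) = dX u (ev u s X) l + dY (ev u s Y) l := by
  cases l <;> simp [derL, dX, dY, evL]

/-- trace of the `u`-part of the derivation of a word -/
noncomputable def ΦX (T : TrModel A K) (u s : A) (w : List (Lt P)) : A →ₗ[ℂ] ℂ where
  toFun X := sp w (fun a l b => T.τ (evW u s a * dX u X l * evW u s b))
  map_add' X X' := by
    rw [← sp_add]
    refine sp_congr' fun a l b _ => ?_
    cases l <;> simp [dX, mul_add, add_mul, add_comm]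
  map_smul' c X := by
    rw [RingHom.id_apply, smul_eq_mul, ← AddMonoidHom.coe_mulLeft, map_sp]
    refine sp_congr' fun a l b _ => ?_
    cases l <;> simp [dX]

/-- trace of the `s`-part of the derivation of a word -/
noncomputable def ΦY (T : TrModel A K) (u s : A) (w : List (Lt P)) : A →ₗ[ℂ] ℂ where
  toFun Y := sp w (fun a l b => T.τ (evW u s a * dY Y l * evW u s b))
  map_add' X X' := by
    rw [← sp_add]
    refine sp_congr' fun a l b _ => ?_
    cases l <;> simp [dY, mul_add, add_mul]
  map_smul' c X := by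
    rw [RingHom.id_apply, smul_eq_mul, ← AddMonoidHom.coe_mulLeft, map_sp]
    refine sp_congr' fun a l b _ => ?_
    cases l <;> simp [dY]

lemma τ_ev_der_wd (T : TrModel A K) (u s : A) (X Y : FA P) (w : List (Lt P)) :
    T.τ (ev u s (der X Y (wd w))) = ΦX T u s w (ev u s X) + ΦY T u s w (ev u s Y) := by
  rw [der_wd, map_sp, map_sp]
  change _ = sp _ _ + sp _ _
  rw [← sp_add]
  refine sp_congr' fun a l b _ => ?_
  rw [map_mul (ev u s), map_mul (ev u s), ev_wd, ev_wd, ev_derL, mul_add, add_mul, map_add]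

/-- divergence of the vector field `δ u = u A s B` -/
lemma div_term {T : TrModel A K} {u s : A} (hSs : SDs P T u s) (hSu : SDu P T u s)
    {wa wb : List (Lt P)} (ha : SFree wa) (hb : SFree wb) {α β : ℂ}
    (hα : ∀ z : A, sp wa (fun a l b => uTerm T u (evW u s a) l (evW u s b * z)) =
      α * T.τ (evW u s wa * z))
    (hβ : ∀ z : A, sp wb (fun a l b => uTerm T u (z * evW u s a) l (evW u s b)) =
      β * T.τ (z * evW u s wb))
    (w : List (Lt P)) :
    ΦX T u s w (evW u s wa * s * evW u s wb) +
      (α + β) * ΦY T u s w (evW u s wb * evW u s wa) = 0 := by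
  set a₀ := evW u s wa with ha₀
  set b₀ := evW u s wb with hb₀
  -- the double sum
  let G₁ : List (Lt P) → Lt P → List (Lt P) → Lt P → List (Lt P) → ℂ := fun a l b₁ l' b₂ =>
    match l' with
    | .s => uTerm T u (a₀ * evW u s b₂ * evW u s a) l (evW u s b₁ * b₀)
    | _ => 0
  let G₂ : List (Lt P) → Lt P → List (Lt P) → Lt P → List (Lt P) → ℂ := fun a₁ l' a₂ l b =>
    match l' with
    | .s => uTerm T u (a₀ * evW u s a₂) l (evW u s b * evW u s a₁ * b₀)
    | _ => 0
  have h1 : ∀ (a : List (Lt P)) (l : Lt P) (b : List (Lt P)),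
      T.τ (evW u s a * dX u (a₀ * s * b₀) l * evW u s b) =
        sp b (fun b₁ l' b₂ => G₁ a l b₁ l' b₂) + sp a (fun a₁ l' a₂ => G₂ a₁ l' a₂ l b) := by
    intro a l b
    cases l with
    | c x =>
      rw [sp_eq_zero, sp_eq_zero]
      · simp [dX]
      · intro a₁ l' a₂ _; cases l' <;> simp [G₂, uTerm]
      · intro a₁ l' a₂ _; cases l' <;> simp [G₁, uTerm]
    | s =>
      rw [sp_eq_zero, sp_eq_zero]
      · simp [dX]
      · intro a₁ l' a₂ _; cases l' <;> simp [G₂, uTerm]
      · intro a₁ l' a₂ _; cases l' <;> simp [G₁, uTerm]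
    | u =>
      have h := hSs (wb ++ (b ++ (a ++ (Lt.u :: wa))))
      rw [sp_append, hb.sp_sTerm, sp_append, sp_append, sp_cons, ha.sp_sTerm] at h
      have e : evW u s a * dX u (a₀ * s * b₀) (Lt.u : Lt P) * evW u s b =
          (evW u s a * u * a₀) * (s * b₀ * evW u s b) := by simp [dX, mul_assoc]
      rw [e, T.τ_comm]
      simp only [evW_append, evW_cons, evL, ← ha₀, ← hb₀, mul_assoc, zero_add, add_zero] at h ⊢
      rw [h]
      simp only [sTerm, add_zero]
      congr 1
      · refine sp_congr' fun b₁ l' b₂ _ => ?_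
        cases l' <;> simp only [G₁, uTerm]
        rw [mul_comm, T.τ_comm b₀, mul_assoc a₀, mul_assoc a₀, T.τ_comm a₀]
        simp only [mul_assoc]
      · refine sp_congr' fun b₁ l' b₂ _ => ?_
        cases l' <;> simp only [G₂, uTerm]
        rw [mul_comm, T.τ_comm b₀, mul_assoc a₀, T.τ_comm a₀]
        simp only [mul_assoc]
    | v =>
      have h := hSs (wb ++ (Lt.v :: (b ++ (a ++ wa))))
      rw [sp_append, hb.sp_sTerm, sp_cons, sp_append, sp_append, ha.sp_sTerm] at h
      have e : evW u s a * dX u (a₀ * s * b₀) (Lt.v : Lt P) * evW u s b =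
          -((evW u s a * a₀) * (s * b₀ * star u * evW u s b)) := by simp [dX, mul_assoc]
      rw [e, map_neg, T.τ_comm]
      simp only [evW_append, evW_cons, evL, ← ha₀, ← hb₀, mul_assoc, zero_add, add_zero] at h ⊢
      rw [h]
      simp only [sTerm, zero_add, neg_add]
      congr 1
      · rw [← negAddMonoidHom_apply, map_sp]
        refine sp_congr' fun b₁ l' b₂ _ => ?_
        cases l' <;> simp only [G₁, uTerm, negAddMonoidHom_apply, neg_zero]
        rw [mul_comm, T.τ_comm b₀, mul_assoc a₀, T.τ_comm a₀]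
        simp only [mul_assoc]
      · rw [← negAddMonoidHom_apply, map_sp]
        refine sp_congr' fun b₁ l' b₂ _ => ?_
        cases l' <;> simp only [G₂, uTerm, negAddMonoidHom_apply, neg_zero]
        rw [mul_comm, T.τ_comm b₀, T.τ_comm a₀]
        simp only [mul_assoc]
  have h2 : ∀ (a : List (Lt P)) (l : Lt P) (b : List (Lt P)),
      sp a (fun a₁ l₁ b₁ => G₁ a₁ l₁ b₁ l b) + sp b (fun a₂ l₂ b₂ => G₂ a l a₂ l₂ b₂) +
        (α + β) * T.τ (evW u s a * dY (b₀ * a₀) l * evW u s b) = 0 := by
    intro a l b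
    cases l with
    | c x => simp [G₁, G₂, dY, sp_zero]
    | u => simp [G₁, G₂, dY, sp_zero]
    | v => simp [G₁, G₂, dY, sp_zero]
    | s =>
      have h := hSu (wa ++ (b ++ (a ++ wb)))
      rw [sp_append, sp_append, sp_append] at h
      simp only [evW_append, ← ha₀, ← hb₀] at h
      have e1 := hα (evW u s b * (evW u s a * b₀))
      have e2 := hβ (a₀ * (evW u s b * evW u s a))
      simp only [mul_assoc] at h e1 e2
      rw [e1, e2] at h
      simp only [G₁, G₂, dY, mul_assoc]
      have e3 : T.τ (evW u s a * (b₀ * (a₀ * evW u s b))) =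
          T.τ (a₀ * (evW u s b * (evW u s a * b₀))) := by
        rw [← mul_assoc, T.τ_comm]; simp only [mul_assoc]
      rw [e3]
      linear_combination h
  change sp _ _ + (α + β) * sp _ _ = 0
  simp only [h1]
  rw [sp_add, sp_sp, ← sp_sp w G₂, ← AddMonoidHom.coe_mulLeft, map_sp, ← sp_add, ← sp_add]
  exact sp_eq_zero fun a l b _ => h2 a l b

end Crest.Agent.R134
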