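import Crest.Agent.R134.Defs
import Crest.Agent.R95.Concrete
import Crest.Prelude.Def_GroupVNA

/-! Standard form: a cyclic vector with a commuting right action is a faithful trace vector.
Author: helper17. -/

set_option autoImplicit false

namespace Crest.Agent.R134

open Crest.Agent.R95
open scoped ComplexConjugate InnerProductSpace Topology

variable {A : Type*} [CStarAlgebra A] {K : Type*} [NormedAddCommGroup K] [InnerProductSpace ℂ K]

section Std
variable {H : Type*} [NormedAddCommGroup H] [InnerProductSpace ℂ H] [CompleteSpace H]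

lemma std_star_mem_centralizer {S : Set (H →L[ℂ] H)} {b : H →L[ℂ] H}
    (hb : b ∈ Set.centralizer (S ∪ star S)) : star b ∈ Set.centralizer (S ∪ star S) := by
  intro c hc
  have hc' : star c ∈ S ∪ star S := by
    rcases hc with hc | hc
    · right; simpa using hc
    · left; simpa using hc
  have := congrArg star (hb _ hc')
  simpa [star_mul] using this.symm

lemma std_inner_star (a : H →L[ℂ] H) (v w : H) : ⟪(star a) v, w⟫_ℂ = ⟪v, a w⟫_ℂ := by
  rw [ContinuousLinearMap.star_eq_adjoint, ContinuousLinearMap.adjoint_inner_left]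

end Std

theorem std_form {H : Type*} [NormedAddCommGroup H] [InnerProductSpace ℂ H] [CompleteSpace H]
    (S : Set (H →L[ℂ] H)) (Ω : H) (hΩ : ‖Ω‖ = 1)
    (hS : ∀ a ∈ S, ∃ b : H →L[ℂ] H, (∀ c ∈ S, b * c = c * b ∧ b * star c = star c * b) ∧
      a Ω = b Ω ∧ (star a) Ω = (star b) Ω)
    (hcyc : Dense ((fun x : H →L[ℂ] H => x Ω) '' (StarAlgebra.adjoin ℂ S : Set (H →L[ℂ] H))))
    (M : VonNeumannAlgebra H)
    (hM : (M : Set (H →L[ℂ] H)) = Set.centralizer (Set.centralizer (S ∪ star S))) :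
    Crest.OpAlg.IsFaithfulTracialVectorState M (fun n => if n = 0 then Ω else 0) := by
  set C : Set (H →L[ℂ] H) := Set.centralizer (S ∪ star S) with hC
  have hcomm : ∀ x ∈ M, ∀ b ∈ C, ∀ v, x (b v) = b (x v) := by
    intro x hx b hb v
    have hx' : x ∈ Set.centralizer C := by rw [← hM]; exact hx
    exact (congrArg (fun z : H →L[ℂ] H => z v) (hx' b hb)).symm
  have hSM : ∀ a ∈ S, a ∈ M := by
    intro a ha
    have : a ∈ (M : Set (H →L[ℂ] H)) := by
      rw [hM]
      intro b hb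
      exact (hb a (Or.inl ha)).symm
    exact this
  have hadj : ∀ y ∈ StarAlgebra.adjoin ℂ S, y ∈ M := by
    intro y hy
    have h : StarAlgebra.adjoin ℂ S ≤ M.toStarSubalgebra := StarAlgebra.adjoin_le hSM
    exact h hy
  have hQ : ∀ y ∈ StarAlgebra.adjoin ℂ S, ∃ b ∈ C, y Ω = b Ω ∧ (star y) Ω = (star b) Ω := by
    intro y hy
    induction hy using StarAlgebra.adjoin_induction with
    | mem a ha =>
      obtain ⟨b, hb, h1, h2⟩ := hS a ha
      refine ⟨b, ?_, h1, h2⟩
      rintro c (hc | hc)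
      · exact (hb c hc).1.symm
      · have := (hb (star c) (by simpa using hc)).2
        rw [star_star] at this
        exact this.symm
    | algebraMap r =>
      refine ⟨algebraMap ℂ _ r, ?_, rfl, rfl⟩
      intro c _
      exact (Algebra.commutes r c).symm
    | add y z _ _ hy hz =>
      obtain ⟨b, hb, h1, h2⟩ := hy
      obtain ⟨c, hc, h3, h4⟩ := hz
      refine ⟨b + c, Set.add_mem_centralizer hb hc, ?_, ?_⟩
      · simp [h1, h3]
      · simp only [star_add, add_apply, h2, h4]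
    | mul y z hy' hz' hy hz =>
      obtain ⟨b, hb, h1, h2⟩ := hy
      obtain ⟨c, hc, h3, h4⟩ := hz
      refine ⟨c * b, Set.mul_mem_centralizer hc hb, ?_, ?_⟩
      · change y (z Ω) = c (b Ω)
        rw [h3, hcomm y (hadj y hy') c hc, h1]
      · rw [star_mul, star_mul]
        change (star z) ((star y) Ω) = (star b) ((star c) Ω)
        rw [h2, hcomm (star z) (star_mem (hadj z hz')) _ (std_star_mem_centralizer hb), h4]
    | star y _ hy =>
      obtain ⟨b, hb, h1, h2⟩ := hy
      exact ⟨star b, std_star_mem_centralizer hb, h2, by rw [star_star, star_star, h1]⟩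
  have htr1 : ∀ x ∈ M, ∀ y ∈ StarAlgebra.adjoin ℂ S,
      ⟪(star x) Ω, y Ω⟫_ℂ = ⟪(star y) Ω, x Ω⟫_ℂ := by
    intro x hx y hy
    obtain ⟨b, hb, h1, h2⟩ := hQ y hy
    rw [h1, h2, std_inner_star, std_inner_star, hcomm x hx b hb]
  have hn1 : ∀ y ∈ StarAlgebra.adjoin ℂ S, ‖(star y) Ω‖ = ‖y Ω‖ := by
    intro y hy
    have h := htr1 (star y) (star_mem (hadj y hy)) y hy
    rw [star_star, inner_self_eq_norm_sq_to_K, inner_self_eq_norm_sq_to_K] at h
    have h' : ‖y Ω‖ ^ 2 = ‖(star y) Ω‖ ^ 2 := by exact_mod_cast h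
    exact ((sq_eq_sq₀ (norm_nonneg _) (norm_nonneg _)).1 h').symm
  have hn2 : ∀ x ∈ M, ‖(star x) Ω‖ ≤ ‖x Ω‖ := by
    intro x hx
    have h : ∀ v : H, ‖⟪(star x) Ω, v⟫_ℂ‖ ≤ ‖v‖ * ‖x Ω‖ := by
      intro v
      refine closure_minimal (t := {v : H | ‖⟪(star x) Ω, v⟫_ℂ‖ ≤ ‖v‖ * ‖x Ω‖}) ?_ ?_ (hcyc v)
      · rintro _ ⟨y, hy, rfl⟩
        change ‖⟪(star x) Ω, y Ω⟫_ℂ‖ ≤ ‖y Ω‖ * ‖x Ω‖
        rw [htr1 x hx y hy, ← hn1 y hy]
        exact norm_inner_le_norm _ _
      · exact isClosed_le (by fun_prop) (by fun_prop)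
    have h2 := h ((star x) Ω)
    rw [inner_self_eq_norm_sq_to_K] at h2
    simp only [norm_pow, norm_norm, Complex.coe_algebraMap,
      Complex.norm_real] at h2
    by_contra hlt
    push Not at hlt
    have : 0 < ‖(star x) Ω‖ := lt_of_le_of_lt (norm_nonneg _) hlt
    nlinarith
  have htr2 : ∀ x ∈ M, ∀ y ∈ M, ⟪(star x) Ω, y Ω⟫_ℂ = ⟪(star y) Ω, x Ω⟫_ℂ := by
    intro x hx y hy
    rw [← sub_eq_zero, ← norm_le_zero_iff]
    refine le_of_forall_pos_le_add fun ε hε => ?_
    have hD : 0 < ‖(star x) Ω‖ + ‖x Ω‖ + 1 := by positivity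
    obtain ⟨_, ⟨z, hz, rfl⟩, hd⟩ := Metric.mem_closure_iff.1 (hcyc (y Ω))
      (ε / (‖(star x) Ω‖ + ‖x Ω‖ + 1)) (by positivity)
    rw [dist_eq_norm, lt_div_iff₀ hD] at hd
    have h1 : ‖(y - z) Ω‖ = ‖y Ω - z Ω‖ := rfl
    have h2 := hn2 (y - z) (sub_mem hy (hadj z hz))
    have h3 : ⟪(star x) Ω, y Ω⟫_ℂ - ⟪(star y) Ω, x Ω⟫_ℂ =
        ⟪(star x) Ω, (y - z) Ω⟫_ℂ - ⟪(star (y - z)) Ω, x Ω⟫_ℂ := by
      rw [star_sub, sub_apply, sub_apply,
        inner_sub_right, inner_sub_left, htr1 x hx z hz]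
      ring
    rw [h3]
    have h4 := norm_sub_le ⟪(star x) Ω, (y - z) Ω⟫_ℂ ⟪(star (y - z)) Ω, x Ω⟫_ℂ
    have h5 := norm_inner_le_norm (𝕜 := ℂ) ((star x) Ω) ((y - z) Ω)
    have h6 := norm_inner_le_norm (𝕜 := ℂ) ((star (y - z)) Ω) (x Ω)
    have h7 : ‖(star (y - z)) Ω‖ * ‖x Ω‖ ≤ ‖(y - z) Ω‖ * ‖x Ω‖ :=
      mul_le_mul_of_nonneg_right h2 (norm_nonneg _)
    rw [h1] at h5 h7
    have h8 := norm_nonneg (y Ω - z Ω)
    nlinarith
  have hvs : ∀ x : H →L[ℂ] H,
      Crest.OpAlg.vectorState (fun n : ℕ => if n = 0 then Ω else 0) x = ⟪Ω, x Ω⟫_ℂ := by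
    intro x
    unfold Crest.OpAlg.vectorState
    rw [tsum_eq_single 0]
    · simp
    · intro n hn
      simp [hn]
  refine ⟨?_, ?_, ?_⟩
  · have := hasSum_single (f := fun n : ℕ => ‖(if n = 0 then Ω else 0)‖ ^ 2) 0
      (fun n hn => by simp [hn])
    simpa [hΩ] using this
  · intro x hx y hy
    rw [hvs, hvs]
    change ⟪Ω, x (y Ω)⟫_ℂ = ⟪Ω, y (x Ω)⟫_ℂ
    rw [← std_inner_star x Ω (y Ω), ← std_inner_star y Ω (x Ω)]
    exact htr2 x hx y hy
  · intro x hx h0
    have h1 : x Ω = 0 := by simpa using h0 0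
    ext v
    refine closure_minimal (t := {v : H | x v = 0}) ?_ ?_ (hcyc v)
    · rintro _ ⟨y, hy, rfl⟩
      obtain ⟨b, hb, h2, -⟩ := hQ y hy
      change x (y Ω) = 0
      rw [h2, hcomm x hx b hb, h1, map_zero]
    · exact isClosed_eq (by fun_prop) (by fun_prop)

section Group

open Crest.OpAlg

variable {G : Type*}

lemma std_reindex_apply (e : Equiv.Perm G) (ξ : ltwo G) (h : G) :
    (ltwoReindex e ξ) h = ξ (e h) := rfl

lemma std_reindex_symm_apply (e : Equiv.Perm G) (ξ : ltwo G) (h : G) :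
    ((ltwoReindex e).symm ξ) h = ξ (e.symm h) := rfl

/-- reindexing as a bounded operator -/
noncomputable def stdRe (e : Equiv.Perm G) : ltwo G →L[ℂ] ltwo G :=
  ((ltwoReindex e : ltwo G ≃ₗᵢ[ℂ] ltwo G) : ltwo G →L[ℂ] ltwo G)

lemma stdRe_apply (e : Equiv.Perm G) (ξ : ltwo G) (h : G) : (stdRe e ξ) h = ξ (e h) := rfl

lemma star_stdRe (e : Equiv.Perm G) : star (stdRe e) = stdRe e.symm := by
  unfold stdRe
  rw [LinearIsometryEquiv.star_eq_symm]
  ext ξ h
  rfl

variable [Group G]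

lemma std_leftRegular_eq (g : G) : leftRegular g = stdRe (Equiv.mulLeft g⁻¹) := rfl

lemma std_leftRegular_apply (g : G) (ξ : ltwo G) (h : G) :
    (leftRegular g ξ) h = ξ (g⁻¹ * h) := rfl

lemma std_star_leftRegular (g : G) : star (leftRegular g) = leftRegular g⁻¹ := by
  rw [std_leftRegular_eq, star_stdRe]
  ext ξ h
  simp [stdRe_apply, std_leftRegular_apply]

lemma std_leftRegular_mul (g g' : G) : leftRegular (g * g') = leftRegular g * leftRegular g' := by
  ext ξ h
  change ξ ((g * g')⁻¹ * h) = ξ (g'⁻¹ * (g⁻¹ * h))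
  rw [mul_inv_rev, mul_assoc]

lemma std_leftRegular_one : leftRegular (1 : G) = 1 := by
  ext ξ h
  change ξ ((1 : G)⁻¹ * h) = ξ h
  rw [inv_one, one_mul]

lemma std_leftRegular_single [DecidableEq G] (g : G) :
    leftRegular g (lp.single 2 (1 : G) (1 : ℂ) : ltwo G) = lp.single 2 g (1 : ℂ) := by
  ext h
  rw [std_leftRegular_apply, lp.single_apply, lp.single_apply, Pi.single_apply, Pi.single_apply]
  congr 1
  rw [inv_mul_eq_one]
  exact propext eq_comm

lemma std_leftRegular_mem (g : G) : leftRegular g ∈ groupVNA G := by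
  change leftRegular g ∈ StarSubalgebra.centralizer ℂ
    ((StarSubalgebra.centralizer ℂ (Set.range (leftRegular (G := G))) :
      Set (ltwo G →L[ℂ] ltwo G)))
  rw [StarSubalgebra.mem_centralizer_iff]
  intro b hb
  have hb' := (StarSubalgebra.mem_centralizer_iff ℂ).1 hb
  have hb'' := (StarSubalgebra.mem_centralizer_iff ℂ).1 (star_mem hb)
  exact ⟨(hb' _ ⟨g, rfl⟩).1.symm, (hb'' _ ⟨g, rfl⟩).1.symm⟩

lemma std_groupVNA_coe : ((groupVNA G : VonNeumannAlgebra (ltwo G)) : Set (ltwo G →L[ℂ] ltwo G)) =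
    Set.centralizer (Set.centralizer (Set.range (leftRegular (G := G)) ∪
      star (Set.range (leftRegular (G := G))))) :=
  StarSubalgebra.coe_centralizer_centralizer ℂ (Set.range (leftRegular (G := G)))

theorem std_group_state [DecidableEq G] :
    IsFaithfulTracialVectorState (groupVNA G)
      (fun n => if n = 0 then (lp.single 2 (1 : G) (1 : ℂ) : ltwo G) else 0) := by
  refine std_form (Set.range (leftRegular (G := G))) _ ?_ ?_ ?_ _ std_groupVNA_coe
  · rw [lp.norm_single (by norm_num)]; simp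
  · rintro _ ⟨g, rfl⟩
    refine ⟨stdRe (Equiv.mulRight g⁻¹), ?_, ?_, ?_⟩
    · rintro _ ⟨k, rfl⟩
      have h : ∀ k : G, stdRe (Equiv.mulRight g⁻¹) * leftRegular k =
          leftRegular k * stdRe (Equiv.mulRight g⁻¹) := by
        intro k
        ext ξ h
        change ξ (k⁻¹ * (h * g⁻¹)) = ξ (k⁻¹ * h * g⁻¹)
        rw [mul_assoc]
      exact ⟨h k, by rw [std_star_leftRegular]; exact h _⟩
    · rw [std_leftRegular_single]
      ext h
      rw [stdRe_apply, lp.single_apply, lp.single_apply, Pi.single_apply, Pi.single_apply]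
      congr 1
      simp [mul_inv_eq_one]
    · rw [std_star_leftRegular, std_leftRegular_single, star_stdRe]
      ext h
      rw [stdRe_apply, lp.single_apply, lp.single_apply, Pi.single_apply, Pi.single_apply]
      congr 1
      simp [mul_eq_one_iff_eq_inv]
  · intro f
    refine mem_closure_of_tendsto (lp.hasSum_single (by norm_num) f)
      (Filter.Eventually.of_forall fun s => ?_)
    refine ⟨∑ g ∈ s, f g • leftRegular g, ?_, ?_⟩
    · exact sum_mem fun g _ =>
        SMulMemClass.smul_mem _ (StarAlgebra.subset_adjoin ℂ _ ⟨g, rfl⟩)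
    · simp only [sum_apply, smul_apply,
        std_leftRegular_single]
      refine Finset.sum_congr rfl fun g _ => ?_
      rw [← lp.single_smul]
      simp

/-- the left regular representation into the unitary group of `L(G)` -/
noncomputable def stdLam : G →* unitary (groupVNA G).toStarSubalgebra where
  toFun g := ⟨⟨leftRegular g, std_leftRegular_mem g⟩, by
    constructor
    · apply Subtype.ext
      change star (leftRegular g) * leftRegular g = 1
      rw [std_star_leftRegular, ← std_leftRegular_mul, inv_mul_cancel, std_leftRegular_one]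
    · apply Subtype.ext
      change leftRegular g * star (leftRegular g) = 1
      rw [std_star_leftRegular, ← std_leftRegular_mul, mul_inv_cancel, std_leftRegular_one]⟩
  map_one' := Subtype.ext (Subtype.ext std_leftRegular_one)
  map_mul' g g' := Subtype.ext (Subtype.ext (std_leftRegular_mul g g'))

lemma stdLam_coe (g : G) :
    (((stdLam g : unitary (groupVNA G).toStarSubalgebra) : (groupVNA G).toStarSubalgebra) :
      ltwo G →L[ℂ] ltwo G) = leftRegular g := rfl

end Group

theorem group_model (ι : Type) [DecidableEq ι] :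
    ∃ (T : TrModel (Crest.OpAlg.groupVNA (FreeGroup ι)).toStarSubalgebra
        (lp (fun _ : ℕ => Crest.OpAlg.ltwo (FreeGroup ι)) 2))
      (a : ι → unitary (Crest.OpAlg.groupVNA (FreeGroup ι)).toStarSubalgebra),
      FreeHaar T a ∧
      T.cl2 (StarAlgebra.adjoin ℂ (Set.range fun i =>
        (a i : (Crest.OpAlg.groupVNA (FreeGroup ι)).toStarSubalgebra))) = ⊤ ∧
      ∀ x : (Crest.OpAlg.groupVNA (FreeGroup ι)).toStarSubalgebra,
        T.τ x = Crest.OpAlg.groupTrace (FreeGroup ι)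
          (x : Crest.OpAlg.ltwo (FreeGroup ι) →L[ℂ] Crest.OpAlg.ltwo (FreeGroup ι)) := by
  have hξ := std_group_state (G := FreeGroup ι)
  obtain ⟨T, hT⟩ := exists_model _ _ hξ
  have hτ : ∀ x : (Crest.OpAlg.groupVNA (FreeGroup ι)).toStarSubalgebra,
      T.τ x = Crest.OpAlg.groupTrace (FreeGroup ι)
        (x : Crest.OpAlg.ltwo (FreeGroup ι) →L[ℂ] Crest.OpAlg.ltwo (FreeGroup ι)) := by
    intro x
    rw [model_τ T hT]
    unfold Crest.OpAlg.vectorState Crest.OpAlg.groupTrace
    rw [tsum_eq_single 0]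
    · simp
    · intro n hn
      simp [hn]
  have hlift : FreeGroup.lift (fun i => stdLam (FreeGroup.of i : FreeGroup ι)) = stdLam := by
    ext i
    simp
  refine ⟨T, fun i => stdLam (FreeGroup.of i), ?_, ?_, hτ⟩
  · intro γ hγ
    rw [hlift, hτ, stdLam_coe]
    unfold Crest.OpAlg.groupTrace
    rw [std_leftRegular_single, lp.inner_single_left, lp.single_apply, Pi.single_apply,
      if_neg hγ.symm]
    simp
  · rw [eq_top_iff]
    intro x _
    rw [model_mem_cl2_iff T hT hξ]
    intro N hN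
    have h1 : ∀ γ : FreeGroup ι, Crest.OpAlg.leftRegular γ ∈ N := by
      intro γ
      induction γ using FreeGroup.induction_on with
      | C1 => rw [std_leftRegular_one]; exact one_mem N
      | of i => exact hN _ ⟨i, rfl⟩
      | inv_of i hi => rw [← std_star_leftRegular]; exact star_mem hi
      | mul g g' hg hg' => rw [std_leftRegular_mul]; exact mul_mem hg hg'
    have hx : (x : Crest.OpAlg.ltwo (FreeGroup ι) →L[ℂ] Crest.OpAlg.ltwo (FreeGroup ι)) ∈
        ((Crest.OpAlg.groupVNA (FreeGroup ι) : VonNeumannAlgebra _) :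
          Set (Crest.OpAlg.ltwo (FreeGroup ι) →L[ℂ] Crest.OpAlg.ltwo (FreeGroup ι))) := x.2
    rw [std_groupVNA_coe] at hx
    rw [← N.commutant_commutant, VonNeumannAlgebra.mem_commutant_iff]
    intro b hb
    refine hx b ?_
    rintro c (⟨γ, rfl⟩ | hc)
    · exact VonNeumannAlgebra.mem_commutant_iff.1 hb _ (h1 γ)
    · obtain ⟨γ, hγ⟩ : star c ∈ Set.range (Crest.OpAlg.leftRegular (G := FreeGroup ι)) := hc
      have : c = star (Crest.OpAlg.leftRegular γ) := by rw [hγ, star_star]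
      rw [this]
      exact VonNeumannAlgebra.mem_commutant_iff.1 hb _ (star_mem (h1 γ))

end Crest.Agent.R134
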