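import Crest.Agent.R134.Wr

/-! The rotation vector field and its properties. -/

set_option autoImplicit false

namespace Crest.Agent.R134

open Crest.Agent.R95
open scoped ComplexConjugate

variable {A : Type*} [CStarAlgebra A] {K : Type*} [NormedAddCommGroup K] [InnerProductSpace ℂ K]
  {P : StarSubalgebra ℂ A}

/-- adjoint word -/
def starW (w : List (Lt P)) : List (Lt P) := (w.map starL).reverse

lemma starW_append (w w' : List (Lt P)) : starW (w ++ w') = starW w' ++ starW w := by
  simp [starW]

lemma wd_starW (w : List (Lt P)) : wd (starW w) = sig (wd w) := by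
  induction w with
  | nil => simp [starW]
  | cons l w ih =>
    rw [show l :: w = [l] ++ w from rfl, starW_append, wd_append, wd_append, ih, sig_mul]
    simp [starW]

lemma evW_starW {u s : A} (hs : IsSelfAdjoint s) (w : List (Lt P)) :
    evW u s (starW w) = star (evW u s w) := by
  rw [← ev_wd, wd_starW, ev_sig hs, ev_wd]

lemma SFree.starW {w : List (Lt P)} (hw : SFree w) : SFree (starW w) := by
  intro l hl
  simp only [R134.starW, List.mem_reverse, List.mem_map] at hl
  obtain ⟨l', hl', rfl⟩ := hl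
  have := hw l' hl'
  cases l' <;> simp_all [starL]

/-- the word `∏ g^e u` -/
def Sw (g : P) (es : List ℕ) : List (Lt P) := es.flatMap fun e => [Lt.c (g ^ e), Lt.u]

@[simp] lemma Sw_nil (g : P) : Sw g [] = [] := rfl

lemma Sw_cons (g : P) (e : ℕ) (es : List ℕ) :
    Sw g (e :: es) = Lt.c (g ^ e) :: Lt.u :: Sw g es := rfl

lemma Sw_concat (g : P) (e : ℕ) (es : List ℕ) :
    Sw g (es ++ [e]) = Sw g es ++ [Lt.c (g ^ e), Lt.u] := by simp [Sw]

lemma starW_Sw_cons (g : P) (e : ℕ) (es : List ℕ) :
    starW (Sw g (e :: es)) = starW (Sw g es) ++ [Lt.v, Lt.c (star (g ^ e))] := by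
  simp [Sw_cons, starW, starL]

lemma starW_Sw_concat (g : P) (e : ℕ) (es : List ℕ) :
    starW (Sw g (es ++ [e])) = Lt.v :: Lt.c (star (g ^ e)) :: starW (Sw g es) := by
  simp [Sw_concat, starW, starL]

lemma SFree_Sw (g : P) (es : List ℕ) : SFree (Sw g es) := by
  intro l hl
  simp only [Sw, List.mem_flatMap, List.mem_cons, List.not_mem_nil, or_false] at hl
  obtain ⟨e, -, rfl | rfl⟩ := hl <;> simp

lemma SFree_c (a : P) : SFree [Lt.c a] := by simp [SFree]

lemma evW_Sw {g : unitary A} (hg : (g : A) ∈ P) (u : unitary A) (s : A) (es : List ℕ) :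
    evW (u : A) s (Sw (⟨g, hg⟩ : P) es) = gE g u (γw es) := by
  induction es with
  | nil => simp
  | cons e es ih =>
    rw [Sw_cons, evW_cons, evW_cons, ih, γw_cons, gE_mul, gE_mul, gE_gg_pow, gE_uu, mul_assoc]
    simp [evL]

lemma gE_mem_W0 {g : unitary A} (hg : (g : A) ∈ P) (u : unitary A) (γ : F2) :
    gE g u γ ∈ W0 P (u : A) := by
  induction γ using FreeGroup.induction_on with
  | C1 => rw [gE_one]; exact one_mem _
  | of i =>
    fin_cases i
    · exact W0.of_mem (by simpa [gE] using hg)
    · simpa [gE] using W0.self (P := P) (u : A)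
  | inv_of i h => rw [gE_inv]; exact W0.star_mem h
  | mul x y hx hy => rw [gE_mul]; exact mul_mem hx hy

lemma W0_le_adjoin {u a : A} (ha : a ∈ W0 P u) : a ∈ StarAlgebra.adjoin ℂ ((P : Set A) ∪ {u}) := by
  induction ha using Submonoid.closure_induction with
  | mem x hx =>
    rcases hx with hx | rfl | rfl
    · exact StarAlgebra.subset_adjoin _ _ (Or.inl hx)
    · exact StarAlgebra.subset_adjoin _ _ (Or.inr rfl)
    · exact star_mem (StarAlgebra.subset_adjoin _ _ (Or.inr rfl))
  | one => exact one_mem _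
  | mul x y _ _ hx hy => exact mul_mem hx hy

section claims
variable {T : TrModel A K} {g u : unitary A} (hg : (g : A) ∈ P) (hfree : FreeHaar T ![g, u])
  {s : A} (hs : IsSelfAdjoint s)
include hfree

lemma τ_Sw {es : List ℕ} (h : es ≠ []) : T.τ (evW (u : A) s (Sw (⟨g, hg⟩ : P) es)) = 0 := by
  rw [evW_Sw]
  refine τ_gE_of_d hfree ?_
  rw [wφ_γw_d]
  simpa using h

include hs in
lemma τ_starW_Sw {es : List ℕ} (h : es ≠ []) :
    T.τ (evW (u : A) s (starW (Sw (⟨g, hg⟩ : P) es))) = 0 := by
  rw [evW_starW hs, T.τ_star, τ_Sw hg hfree h, map_zero]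

lemma claim1 {es : List ℕ} (h : es ≠ []) (z : A) :
    sp (Sw (⟨g, hg⟩ : P) es) (fun a l b => uTerm T u (z * evW (u : A) s a) l (evW (u : A) s b)) =
      T.τ (z * evW (u : A) s (Sw (⟨g, hg⟩ : P) es)) := by
  induction es generalizing z with
  | nil => exact (h rfl).elim
  | cons e es ih =>
    rw [Sw_cons, sp_cons, sp_cons]
    simp only [evW_cons, evW_nil, ← mul_assoc, mul_one]
    by_cases he : es = []
    · subst he; simp [uTerm, evL]
    · rw [ih he]
      simp [uTerm, evL, τ_Sw hg hfree he]

include hs in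
lemma claim2 {es : List ℕ} (h : es ≠ []) (z : A) :
    sp (starW (Sw (⟨g, hg⟩ : P) es))
        (fun a l b => uTerm T u (evW (u : A) s a) l (evW (u : A) s b * z)) =
      -T.τ (evW (u : A) s (starW (Sw (⟨g, hg⟩ : P) es)) * z) := by
  induction es generalizing z with
  | nil => exact (h rfl).elim
  | cons e es ih =>
    rw [starW_Sw_cons, sp_append, sp_cons, sp_cons]
    simp only [evW_append, evW_cons, evW_nil, mul_assoc, mul_one]
    by_cases he : es = []
    · subst he; simp [uTerm, evL, starW]
    · rw [ih he]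
      simp [uTerm, evL, τ_starW_Sw hg hfree hs he]

lemma claim3 (es : List ℕ) (z : A) :
    sp (Sw (⟨g, hg⟩ : P) es)
      (fun a l b => uTerm T u (evW (u : A) s a) l (evW (u : A) s b * z)) = 0 := by
  induction es using List.reverseRecOn generalizing z with
  | nil => rfl
  | append_singleton es e ih =>
    have h := τ_Sw (s := s) hg hfree (es := es ++ [e]) (by simp)
    rw [Sw_concat] at h ⊢
    rw [sp_append, sp_cons, sp_cons]
    simp only [evW_append, evW_cons, evW_nil, mul_assoc, mul_one] at h ⊢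
    rw [ih]
    simp only [evL] at h
    simp only [uTerm, evL, mul_assoc, h]
    simp

include hs in
lemma claim4 (es : List ℕ) (z : A) :
    sp (starW (Sw (⟨g, hg⟩ : P) es))
      (fun a l b => uTerm T u (z * evW (u : A) s a) l (evW (u : A) s b)) = 0 := by
  induction es using List.reverseRecOn generalizing z with
  | nil => rfl
  | append_singleton es e ih =>
    have h := τ_starW_Sw hg hfree hs (es := es ++ [e]) (by simp)
    rw [starW_Sw_concat] at h ⊢
    rw [sp_cons, sp_cons]
    simp only [evW_cons, evW_nil, mul_one] at h ⊢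
    simp only [← mul_assoc z, ← mul_assoc (z * _)]
    rw [ih]
    simp only [evL] at h
    simp only [uTerm, evL, h]
    simp

end claims

section field
variable (g p q : P) (k : ℕ)

/-- the word `y = L_k` sandwiched -/
noncomputable def fF : FA P := lt (.c p) * wd (Sw g (List.range' 0 k)) * lt (.c q)

/-- the block of `s` -/
noncomputable def fx : FA P := lt (.c p) * lt .s * lt (.c q)

/-- the terms of `X` -/
noncomputable def ft (a : ℕ) : FA P :=
  sig (wd (Sw g (List.range' 0 a))) * fx p q * sig (wd (Sw g (List.range' a (k - a))))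

/-- the `u` component -/
noncomputable def fX : FA P := (k : ℝ)⁻¹ • ∑ a ∈ Finset.Icc 1 k, (ft g p q k a - sig (ft g p q k a))

/-- the `s` component -/
noncomputable def fY : FA P := -(fF g p q k + sig (fF g p q k))

lemma sig_fX : sig (fX g p q k) = -fX g p q k := by
  rw [fX, map_smul, map_sum, ← smul_neg, ← Finset.sum_neg_distrib]
  simp

lemma sig_fY : sig (fY g p q k) = fY g p q k := by
  rw [fY, map_neg, map_add, sig_sig, add_comm]

end field

section values
variable {g : unitary A} (hg : (g : A) ∈ P) (u : unitary A) {s : A} (hs : IsSelfAdjoint s)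
  {p q : P} (hp : IsStarProjection (p : A)) (hq : IsStarProjection (q : A)) (k : ℕ)

lemma ev_fF : ev (u : A) s (fF ⟨g, hg⟩ p q k) = p * gE g u (γL k) * q := by
  simp [fF, evW_Sw, evL, γL]

omit hg in
lemma ev_fx (u : A) : ev u s (fx p q) = p * s * q := by simp [fx, evL]

include hs in
lemma ev_ft (a : ℕ) : ev (u : A) s (ft ⟨g, hg⟩ p q k a) =
    gE g u (γL a)⁻¹ * p * s * (q * gE g u (γR k a)⁻¹) := by
  simp [ft, ev_sig hs, ev_fx, evW_Sw, γL, γR, gE_inv, mul_assoc]

include hs hp hq in
lemma ev_fX : ev (u : A) s (fX ⟨g, hg⟩ p q k) = (k : ℂ)⁻¹ • ∑ a ∈ Finset.Icc 1 k,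
    (gE g u (γL a)⁻¹ * p * s * (q * gE g u (γR k a)⁻¹) -
      gE g u (γR k a) * q * s * (p * gE g u (γL a))) := by
  rw [fX, map_smul, map_sum, ← Complex.coe_smul]
  congr 1
  · simp
  refine Finset.sum_congr rfl fun a _ => ?_
  rw [map_sub, ev_sig hs, ev_ft hg u hs]
  simp [gE_inv, hs.star_eq, hp.isSelfAdjoint.star_eq, hq.isSelfAdjoint.star_eq, mul_assoc]

include hs hp hq in
lemma ev_fY : ev (u : A) s (fY ⟨g, hg⟩ p q k) =
    -(p * gE g u (γL k) * q + q * gE g u (γL k)⁻¹ * p) := by
  rw [fY, map_neg, map_add, ev_sig hs, ev_fF]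
  simp [gE_inv, hp.isSelfAdjoint.star_eq, hq.isSelfAdjoint.star_eq, mul_assoc]

include hs hp hq in
lemma norm_ev_fY : ‖ev (u : A) s (fY ⟨g, hg⟩ p q k)‖ ≤ 2 := by
  rw [ev_fY hg u hs hp hq, norm_neg]
  have h1 := norm_mul_le_one (norm_mul_le_one hp.norm_le (norm_unitary_le (gE_mem g u (γL k))))
    hq.norm_le
  have h2 := norm_mul_le_one (norm_mul_le_one hq.norm_le (norm_unitary_le (gE_mem g u (γL k)⁻¹)))
    hp.norm_le
  linarith [norm_add_le (p * gE g u (γL k) * q) (q * gE g u (γL k)⁻¹ * p)]

lemma ev_fF_mem : ev (u : A) s (fF ⟨g, hg⟩ p q k) ∈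
    StarAlgebra.adjoin ℂ ((P : Set A) ∪ {(u : A)}) := by
  rw [ev_fF]
  exact W0_le_adjoin (mul_mem (mul_mem (W0.of_mem p.2) (gE_mem_W0 hg u _)) (W0.of_mem q.2))

omit hg in
lemma ev_der_fx (u : A) (X Y : FA P) : ev u s (der X Y (fx p q)) = p * ev u s Y * q := by
  simp [fx, der_mul, derL, evL]

lemma ev_der_Sw (X Y : FA P) : ev (u : A) s (der X Y (wd (Sw (⟨g, hg⟩ : P) (List.range' 0 k)))) =
    ∑ a ∈ Finset.Icc 1 k, gE g u (γL a) * ev (u : A) s X * gE g u (γR k a) := by
  induction k with
  | zero => simp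
  | succ k ih =>
    rw [List.range'_1_concat, Sw_concat, wd_append, der_mul, map_add, map_mul, map_mul, ih,
      Finset.sum_Icc_succ_top (by omega), Finset.sum_mul, ev_wd, ev_wd, evW_Sw]
    congr 1
    · refine Finset.sum_congr rfl fun a ha => ?_
      have ha' := (Finset.mem_Icc.1 ha).2
      rw [γR, γR, show k + 1 - a = (k - a) + 1 by omega, List.range'_1_concat, γw_append, gE_mul,
        show a + (k - a) = k by omega, γw_cons, gE_mul, gE_mul, gE_gg_pow]
      simp [evL, mul_assoc]
    · rw [γL, List.range'_1_concat, γw_append, gE_mul, γw_cons, gE_mul, gE_mul, gE_gg_pow]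
      simp [γR, der_mul, derL, evL, mul_assoc]

lemma ev_der_fF (X Y : FA P) : ev (u : A) s (der X Y (fF ⟨g, hg⟩ p q k)) =
    ∑ a ∈ Finset.Icc 1 k, p * gE g u (γL a) * ev (u : A) s X * (gE g u (γR k a) * q) := by
  rw [fF, der_mul, der_mul]
  simp only [der_lt, derL, zero_mul, zero_add, mul_zero, add_zero, map_mul, ev_der_Sw, ev_lt, evL,
    Finset.mul_sum, Finset.sum_mul, mul_assoc]

end values

section main
variable {T : TrModel A K} {g u : unitary A} (hg : (g : A) ∈ P) (hfree : FreeHaar T ![g, u])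
  {s : A} (hs : IsSelfAdjoint s) (hSs : SDs P T u s) (hSu : SDu P T u s)
  {p q : P} (hp : IsStarProjection (p : A)) (hq : IsStarProjection (q : A)) {k : ℕ} (hk : 1 ≤ k)

include hfree hs hSs hSu hp hq hk in
theorem div_free (f : FA P) :
    T.τ (ev (u : A) s (der (fX (⟨g, hg⟩ : P) p q k) (fY (⟨g, hg⟩ : P) p q k) f)) = 0 := by
  induction f using FA_induction with
  | hs r f h => rw [map_smul, map_smul, ← Complex.coe_smul, map_smul, h, smul_zero]
  | ha f f' h h' => rw [map_add, map_add, map_add, h, h', add_zero]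
  | hw w =>
    rw [τ_ev_der_wd, ev_fX hg u hs hp hq, ev_fY hg u hs hp hq, map_smul, map_sum]
    have key : ∀ a ∈ Finset.Icc 1 k, ΦX T (u : A) s w (gE g u (γL a)⁻¹ * p * s *
        (q * gE g u (γR k a)⁻¹) - gE g u (γR k a) * q * s * (p * gE g u (γL a))) =
        ΦY T (u : A) s w (p * gE g u (γL k) * q + q * gE g u (γL k)⁻¹ * p) := by
      intro a ha
      obtain ⟨ha1, hak⟩ := Finset.mem_Icc.1 ha
      have hne : List.range' 0 a ≠ [] := by simp; omega
      have h1 := div_term hSs hSu
        (wa := starW (Sw (⟨g, hg⟩ : P) (List.range' 0 a)) ++ [Lt.c p])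
        (wb := [Lt.c q] ++ starW (Sw (⟨g, hg⟩ : P) (List.range' a (k - a))))
        ((SFree_Sw _ _).starW.append (SFree_c _)) ((SFree_c _).append (SFree_Sw _ _).starW)
        (α := -1) (β := 0)
        (fun z => by
          rw [sp_append]
          simp only [evW_append, mul_assoc]
          rw [claim2 hg hfree hs hne]
          simp [sp_cons, uTerm])
        (fun z => by
          rw [sp_append]
          simp only [evW_append, ← mul_assoc]
          rw [claim4 hg hfree hs]
          simp [sp_cons, uTerm]) w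
      have h2 := div_term hSs hSu
        (wa := Sw (⟨g, hg⟩ : P) (List.range' a (k - a)) ++ [Lt.c q])
        (wb := [Lt.c p] ++ Sw (⟨g, hg⟩ : P) (List.range' 0 a))
        ((SFree_Sw _ _).append (SFree_c _)) ((SFree_c _).append (SFree_Sw _ _))
        (α := 0) (β := 1)
        (fun z => by
          rw [sp_append]
          simp only [evW_append, mul_assoc]
          rw [claim3 hg hfree]
          simp [sp_cons, uTerm])
        (fun z => by
          rw [sp_append]
          simp only [evW_append, ← mul_assoc]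
          rw [claim1 hg hfree hne]
          simp [sp_cons, uTerm]) w
      simp only [evW_append, evW_starW hs, evW_Sw, evW_cons, evW_nil, mul_one, evL,
        ← gE_inv] at h1 h2
      have e1 : (q : A) * gE g u (γw (List.range' a (k - a)))⁻¹ *
          (gE g u (γw (List.range' 0 a))⁻¹ * p) = q * gE g u (γL k)⁻¹ * p := by
        rw [← γL_mul_γR hak, mul_inv_rev, gE_mul]; simp only [mul_assoc]; rfl
      have e2 : (p : A) * gE g u (γw (List.range' 0 a)) *
          (gE g u (γw (List.range' a (k - a))) * q) = p * gE g u (γL k) * q := by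
        rw [← γL_mul_γR hak, gE_mul]; simp only [mul_assoc]; rfl
      rw [e1] at h1
      rw [e2] at h2
      rw [map_sub, map_add]
      simp only [γL, γR] at h1 h2 ⊢
      linear_combination h1 - h2
    rw [Finset.sum_congr rfl key, Finset.sum_const, Nat.card_Icc, map_neg]
    have : (k : ℂ) ≠ 0 := by exact_mod_cast (by omega : k ≠ 0)
    simp only [add_tsub_cancel_right, nsmul_eq_mul, smul_eq_mul]
    field_simp
    ring

end main

end Crest.Agent.R134
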