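import Crest.Agent.R134.Sp

/-! Traces of sandwiched group elements, via the wreath product `ℤ ≀ ℤ`. -/

set_option autoImplicit false

namespace Crest.Agent.R134

open Crest.Agent.R95
open scoped ComplexConjugate

/-- the unrestricted wreath product `ℤ ≀ ℤ` -/
@[ext] structure Wr where
  d : ℤ
  f : ℤ → ℤ

instance : Mul Wr := ⟨fun x y => ⟨x.d + y.d, fun c => x.f c + y.f (c - x.d)⟩⟩
instance : One Wr := ⟨⟨0, fun _ => 0⟩⟩
instance : Inv Wr := ⟨fun x => ⟨-x.d, fun c => -x.f (c + x.d)⟩⟩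

@[simp] lemma Wr.mul_d (x y : Wr) : (x * y).d = x.d + y.d := rfl
@[simp] lemma Wr.mul_f (x y : Wr) (c : ℤ) : (x * y).f c = x.f c + y.f (c - x.d) := rfl
@[simp] lemma Wr.one_d : (1 : Wr).d = 0 := rfl
@[simp] lemma Wr.one_f (c : ℤ) : (1 : Wr).f c = 0 := rfl
@[simp] lemma Wr.inv_d (x : Wr) : (x⁻¹).d = -x.d := rfl
@[simp] lemma Wr.inv_f (x : Wr) (c : ℤ) : (x⁻¹).f c = -x.f (c + x.d) := rfl

instance : Group Wr := Group.ofLeftAxioms
  (fun x y z => by ext <;> simp [add_assoc, sub_sub])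
  (fun x => by ext <;> simp)
  (fun x => by ext <;> simp)

/-- the free group on `g` and `u` -/
abbrev F2 : Type := FreeGroup (Fin 2)

/-- the generator `g` -/
abbrev gg : F2 := FreeGroup.of 0
/-- the generator `u` -/
abbrev uu : F2 := FreeGroup.of 1

/-- lamp and shift -/
def wφ : F2 →* Wr := FreeGroup.lift ![⟨0, fun c => if c = 0 then 1 else 0⟩, ⟨1, fun _ => 0⟩]

lemma wφ_gg : wφ gg = ⟨0, fun c => if c = 0 then 1 else 0⟩ := by simp [wφ]

lemma wφ_uu : wφ uu = ⟨1, fun _ => 0⟩ := by simp [wφ]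

lemma wφ_gg_zpow (m : ℤ) : wφ (gg ^ m) = ⟨0, fun c => if c = 0 then m else 0⟩ := by
  induction m using Int.induction_on with
  | zero => ext <;> simp
  | succ n ih =>
    rw [zpow_add_one, map_mul, ih, wφ_gg]
    ext c
    · simp
    · simp only [Wr.mul_f, sub_zero]; split_ifs <;> simp
  | pred n ih =>
    rw [zpow_sub_one, map_mul, map_inv, ih, wφ_gg]
    ext c
    · simp
    · simp only [Wr.mul_f, Wr.inv_f, sub_zero, add_zero]; split_ifs <;> simp [sub_eq_add_neg]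

/-- the group element `∏ g^e u` -/
def γw (es : List ℕ) : F2 := (es.map fun e => gg ^ e * uu).prod

@[simp] lemma γw_nil : γw [] = 1 := rfl

lemma γw_cons (e : ℕ) (es : List ℕ) : γw (e :: es) = gg ^ e * uu * γw es := by simp [γw]

lemma γw_append (es es' : List ℕ) : γw (es ++ es') = γw es * γw es' := by simp [γw]

lemma wφ_γw_d (es : List ℕ) : (wφ (γw es)).d = es.length := by
  induction es with
  | nil => rfl
  | cons e es ih =>
    rw [γw_cons, map_mul, map_mul, ← zpow_natCast, wφ_gg_zpow, wφ_uu]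
    simp [ih, add_comm]

lemma wφ_γw_range' (a j : ℕ) :
    wφ (γw (List.range' a j)) = ⟨j, fun c => if 0 ≤ c ∧ c < j then a + c else 0⟩ := by
  induction j generalizing a with
  | zero => ext c <;> simp
  | succ j ih =>
    rw [List.range'_succ, γw_cons, map_mul, map_mul, ← zpow_natCast, wφ_gg_zpow, wφ_uu, ih]
    ext c
    · simp [add_comm]
    · simp only [Wr.mul_f, Wr.mul_d]
      split_ifs <;> omega

/-- `γ₁⁻¹` and `γ₂` lie in different double cosets of `⟨g⟩` -/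
def DD (γ₁ γ₂ : F2) : Prop := ∀ m m' : ℤ, gg ^ m * γ₁ * gg ^ m' * γ₂ ≠ 1

lemma DD_of_d {γ₁ γ₂ : F2} (h : (wφ γ₁).d + (wφ γ₂).d ≠ 0) : DD γ₁ γ₂ := by
  intro m m' e
  have := congrArg (fun x => (wφ x).d) e
  simp only [map_mul, wφ_gg_zpow, Wr.mul_d, map_one, Wr.one_d] at this
  omega

/-- the prefix `L_a` -/
def γL (a : ℕ) : F2 := γw (List.range' 0 a)
/-- the suffix `R_a` -/
def γR (k a : ℕ) : F2 := γw (List.range' a (k - a))

lemma γL_mul_γR {k a : ℕ} (h : a ≤ k) : γL a * γR k a = γL k := by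
  rw [γL, γR, ← γw_append, γL]
  congr 1
  have := @List.range'_append_1 0 a (k - a)
  rwa [zero_add, Nat.add_sub_cancel' h] at this

lemma γL_d (a : ℕ) : (wφ (γL a)).d = a := by simp [γL, wφ_γw_d]

lemma γR_d {k a : ℕ} (h : a ≤ k) : (wφ (γR k a)).d = k - a := by simp [γR, wφ_γw_d, h]

lemma DD_LL {a a' b b' : ℕ} (ha : 1 ≤ a) (ha' : 1 ≤ a') (hb : 1 ≤ b) (hb' : 1 ≤ b')
    (haa : a ≠ a') (h : (a, a') ≠ (b, b')) :
    DD (γL a * (γL a')⁻¹)⁻¹ (γL b * (γL b')⁻¹) := by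
  intro m m' e
  have h1 := congrArg (fun x => (wφ x).d) e
  have h2 := congrArg (fun x => (wφ x).f a') e
  have h3 := congrArg (fun x => (wφ x).f b') e
  simp only [γL, map_mul, map_inv, wφ_gg_zpow, wφ_γw_range', Wr.mul_d, Wr.mul_f, Wr.inv_d,
    Wr.inv_f, map_one, Wr.one_d, Wr.one_f, ne_eq, Prod.mk.injEq] at h h1 h2 h3
  omega

lemma DD_LR {k a a' b b' : ℕ} (ha : 1 ≤ a) (hb : 1 ≤ b) (ha' : a' ≤ k) (hb' : b' ≤ k)
    (haa : a ≠ a') (h : (a, a') ≠ (b, b')) :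
    DD (γL a * γR k a')⁻¹ (γL b * γR k b') := by
  intro m m' e
  have h1 := congrArg (fun x => (wφ x).d) e
  have h2 := congrArg (fun x => (wφ x).f (a' - k)) e
  have h3 := congrArg (fun x => (wφ x).f (b' - k)) e
  simp only [γL, γR, map_mul, map_inv, wφ_gg_zpow, wφ_γw_range', Wr.mul_d, Wr.mul_f, Wr.inv_d,
    Wr.inv_f, map_one, Wr.one_d, Wr.one_f, ne_eq, Prod.mk.injEq] at h h1 h2 h3
  omega

lemma conj_ne_one {γ : F2} (hγ : (wφ γ).d ≠ 0) {m m' : ℤ} (h : ¬(m = 0 ∧ m' = 0)) :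
    gg ^ m * γ⁻¹ * gg ^ m' * γ ≠ 1 := by
  intro e
  have h2 := congrArg (fun x => (wφ x).f 0) e
  have h3 := congrArg (fun x => (wφ x).f (-(wφ γ).d)) e
  simp only [map_mul, map_inv, wφ_gg_zpow, Wr.mul_d, Wr.mul_f, Wr.inv_d,
    Wr.inv_f, map_one, Wr.one_f, zero_add, add_zero, sub_zero, sub_neg_eq_add, if_true] at h2 h3
  omega

lemma gg_zpow_ne_one {m : ℤ} (h : m ≠ 0) : gg ^ m ≠ 1 := by
  intro e
  have h2 := congrArg (fun x => (wφ x).f 0) e
  simp only [wφ_gg_zpow, map_one, Wr.one_f, if_true] at h2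
  omega

variable {A : Type*} [CStarAlgebra A] {K : Type*} [NormedAddCommGroup K] [InnerProductSpace ℂ K]

/-- value of a group element -/
noncomputable def gE (g u : unitary A) (γ : F2) : A := (FreeGroup.lift ![g, u] γ : unitary A)

section gE
variable (g u : unitary A)

@[simp] lemma gE_one : gE g u 1 = 1 := by simp [gE]

lemma gE_mul (γ γ' : F2) : gE g u (γ * γ') = gE g u γ * gE g u γ' := by simp [gE]

lemma gE_inv (γ : F2) : gE g u γ⁻¹ = star (gE g u γ) := by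
  rw [gE, map_inv]; rfl

lemma gE_mem (γ : F2) : gE g u γ ∈ unitary A := (FreeGroup.lift ![g, u] γ).2

lemma gE_gg_zpow (m : ℤ) : gE g u (gg ^ m) = ((g ^ m : unitary A) : A) := by simp [gE]

lemma gE_gg_pow (m : ℕ) : gE g u (gg ^ m) = (g : A) ^ m := by simp [gE]

@[simp] lemma gE_uu : gE g u uu = u := by simp [gE]

end gE

/-- a 2-norm continuous functional killing the powers of `g` kills `W⋆(g)` -/
lemma eq_zero_of_zpow (T : TrModel A K) (g : unitary A) (ψ : A →ₗ[ℂ] ℂ) (C : ℝ)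
    (hC : ∀ a, ‖ψ a‖ ≤ C * ‖T.ι a‖) (h : ∀ m : ℤ, ψ (g ^ m : unitary A) = 0) {p : A}
    (hp : p ∈ T.cl2 (StarAlgebra.adjoin ℂ {(g : A)})) : ψ p = 0 := by
  have h1 : ∀ b ∈ StarAlgebra.adjoin ℂ {(g : A)}, ψ b = 0 := by
    intro b hb
    have hb' : b ∈ Submodule.span ℂ (Submonoid.closure ({(g : A)} ∪ star {(g : A)}) : Set A) := by
      rw [← StarAlgebra.adjoin_eq_span]; exact hb
    refine (Submodule.span_le (p := LinearMap.ker ψ)).2 (fun x hx => ?_) hb'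
    have : ∃ m : ℤ, x = (g ^ m : unitary A) := by
      induction hx using Submonoid.closure_induction with
      | mem x hx =>
        rcases hx with hx | hx
        · exact ⟨1, by simpa using hx⟩
        · refine ⟨-1, ?_⟩
          rw [Set.mem_star, Set.mem_singleton_iff] at hx
          rw [zpow_neg_one, ← star_star x, hx]; rfl
      | one => exact ⟨0, by simp⟩
      | mul x y _ _ hx hy =>
        obtain ⟨m, rfl⟩ := hx
        obtain ⟨m', rfl⟩ := hy
        exact ⟨m + m', by simp [zpow_add]⟩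
    obtain ⟨m, rfl⟩ := this
    exact h m
  refine norm_le_zero_iff.1 (le_of_forall_pos_le_add fun ε hε => ?_)
  obtain ⟨b, hb, hpb⟩ := hp (ε / (|C| + 1)) (by positivity)
  have : ψ p = ψ (p - b) := by rw [map_sub, h1 b hb, sub_zero]
  rw [this, zero_add]
  refine (hC _).trans ?_
  rw [lt_div_iff₀ (by positivity)] at hpb
  nlinarith [le_abs_self C, norm_nonneg (T.ι (p - b))]

lemma trace_formula (T : TrModel A K) (g : unitary A) (x y : A) (c : ℂ)
    (h : ∀ m m' : ℤ, T.τ ((g ^ m : unitary A) * x * (g ^ m' : unitary A) * y) =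
      c * (T.τ (g ^ m : unitary A) * T.τ (g ^ m' : unitary A))) {p p' : A}
    (hp : p ∈ T.cl2 (StarAlgebra.adjoin ℂ {(g : A)}))
    (hp' : p' ∈ T.cl2 (StarAlgebra.adjoin ℂ {(g : A)})) :
    T.τ (p * x * p' * y) = c * (T.τ p * T.τ p') := by
  have key : ∀ (z : A) (c' : ℂ), (∀ m : ℤ, T.τ ((g ^ m : unitary A) * z) =
      c' * T.τ (g ^ m : unitary A)) → ∀ q ∈ T.cl2 (StarAlgebra.adjoin ℂ {(g : A)}),
        T.τ (q * z) = c' * T.τ q := by
    intro z c' hz q hq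
    have := eq_zero_of_zpow T g (T.τ ∘ₗ LinearMap.mulRight ℂ z - c' • T.τ) (‖T.ι z‖ + ‖c'‖)
      (fun a => ?_) (fun m => ?_) hq
    · simpa [sub_eq_zero] using this
    · simp only [LinearMap.sub_apply, LinearMap.comp_apply, LinearMap.mulRight_apply,
        LinearMap.smul_apply, smul_eq_mul]
      refine (norm_sub_le _ _).trans ?_
      rw [norm_mul, add_mul, mul_comm ‖T.ι z‖]
      gcongr
      exacts [T.norm_τ_mul_le _ _, T.norm_τ_le _]
    · simpa [sub_eq_zero] using hz m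
  have h1 : ∀ m' : ℤ, T.τ ((g ^ m' : unitary A) * (y * p * x)) =
      (c * T.τ p) * T.τ (g ^ m' : unitary A) := by
    intro m'
    have := key (x * (g ^ m' : unitary A) * y) (c * T.τ (g ^ m' : unitary A))
      (fun m => by rw [← mul_assoc, ← mul_assoc, h]; ring) p hp
    rw [mul_assoc y, ← mul_assoc, T.τ_comm]
    simp only [mul_assoc] at this ⊢
    rw [this]; ring
  have := key _ _ h1 p' hp'
  rw [mul_assoc (p * x), T.τ_comm]
  simp only [mul_assoc] at this ⊢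
  rw [this]

section TF
variable {T : TrModel A K} {g u : unitary A} (hfree : FreeHaar T ![g, u])
include hfree

lemma τ_gE {γ : F2} (h : γ ≠ 1) : T.τ (gE g u γ) = 0 := hfree γ h

lemma τ_gE_of_d {γ : F2} (h : (wφ γ).d ≠ 0) : T.τ (gE g u γ) = 0 :=
  hfree γ (by rintro rfl; exact h rfl)

lemma τ_zpow {m : ℤ} (h : m ≠ 0) : T.τ (g ^ m : unitary A) = 0 := by
  rw [← gE_gg_zpow g u]; exact τ_gE hfree (gg_zpow_ne_one h)

lemma TF0 {γ₁ γ₂ : F2} (h : DD γ₁ γ₂) {p p' : A}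
    (hp : p ∈ T.cl2 (StarAlgebra.adjoin ℂ {(g : A)}))
    (hp' : p' ∈ T.cl2 (StarAlgebra.adjoin ℂ {(g : A)})) :
    T.τ (p * gE g u γ₁ * p' * gE g u γ₂) = 0 := by
  rw [trace_formula T g _ _ 0 (fun m m' => ?_) hp hp', zero_mul]
  rw [zero_mul, ← gE_gg_zpow g u, ← gE_gg_zpow g u, ← gE_mul, ← gE_mul, ← gE_mul]
  exact τ_gE hfree (h m m')

lemma TF1 {γ : F2} (h : (wφ γ).d ≠ 0) {p p' : A}
    (hp : p ∈ T.cl2 (StarAlgebra.adjoin ℂ {(g : A)}))
    (hp' : p' ∈ T.cl2 (StarAlgebra.adjoin ℂ {(g : A)})) :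
    T.τ (p * gE g u γ⁻¹ * p' * gE g u γ) = T.τ p * T.τ p' := by
  rw [trace_formula T g _ _ 1 (fun m m' => ?_) hp hp', one_mul]
  by_cases hm : m = 0 ∧ m' = 0
  · rw [hm.1, hm.2]
    simp [← gE_mul]
  · rw [← gE_gg_zpow g u, ← gE_gg_zpow g u, ← gE_mul, ← gE_mul, ← gE_mul,
      τ_gE hfree (conj_ne_one h hm), gE_gg_zpow, gE_gg_zpow]
    rcases not_and_or.1 hm with h | h <;> simp [τ_zpow hfree h]

omit hfree in
lemma star_sandwich {p q : A} (hp : IsStarProjection p) (hq : IsStarProjection q) (γ₁ γ₂ : F2) :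
    T.τ (star (p * gE g u γ₁ * q) * (p * gE g u γ₂ * q)) =
      T.τ (q * gE g u γ₁⁻¹ * p * gE g u γ₂) := by
  rw [star_mul, star_mul, hp.isSelfAdjoint.star_eq, hq.isSelfAdjoint.star_eq, ← gE_inv,
    ← mul_assoc, T.τ_comm]
  simp only [mul_assoc]
  rw [← mul_assoc q q, hq.isIdempotentElem.eq, ← mul_assoc p p, hp.isIdempotentElem.eq]

lemma norm_sandwich_sq {γ : F2} (h : (wφ γ).d ≠ 0) {p q : A} (hp : IsStarProjection p)
    (hq : IsStarProjection q) (hp' : p ∈ T.cl2 (StarAlgebra.adjoin ℂ {(g : A)}))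
    (hq' : q ∈ T.cl2 (StarAlgebra.adjoin ℂ {(g : A)})) :
    ‖T.ι (p * gE g u γ * q)‖ ^ 2 = ‖T.ι p‖ ^ 2 * ‖T.ι q‖ ^ 2 := by
  have e : ∀ r : A, IsStarProjection r → T.τ r = ((‖T.ι r‖ ^ 2 : ℝ) : ℂ) := fun r hr => by
    rw [← T.τ_star_mul_self, hr.isSelfAdjoint.star_eq, hr.isIdempotentElem.eq]
  rw [T.norm_sq_eq, star_sandwich hp hq, TF1 hfree h hq' hp', e p hp, e q hq,
    ← Complex.ofReal_mul, Complex.ofReal_re, mul_comm]

end TF

end Crest.Agent.R134
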